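import Mathlib

open MeasureTheory Set

namespace Vale.Agent.Lib.P254.LW

/-- Position of a concave function relative to its chord through `p < q`, in a form free of
divisions: the quantity `(φ t - φ p) (q - p) - (φ q - φ p) (t - p)` is nonnegative between
`p` and `q` and nonpositive outside. -/
theorem mdj_chord {a p q : ℝ} {φ : ℝ → ℝ} (hφ : ConcaveOn ℝ (Icc 0 a) φ) (hp : 0 ≤ p)
    (hpq : p < q) (hq : q ≤ a) {t : ℝ} (ht : t ∈ Icc 0 a) :
    (t ≤ p → (φ t - φ p) * (q - p) - (φ q - φ p) * (t - p) ≤ 0) ∧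
    (p ≤ t → t ≤ q → 0 ≤ (φ t - φ p) * (q - p) - (φ q - φ p) * (t - p)) ∧
    (q ≤ t → (φ t - φ p) * (q - p) - (φ q - φ p) * (t - p) ≤ 0) := by
  have hpm : p ∈ Icc 0 a := ⟨hp, by linarith⟩
  have hqm : q ∈ Icc 0 a := ⟨by linarith, hq⟩
  refine ⟨fun htp => ?_, fun hpt htq => ?_, fun hqt => ?_⟩
  · rcases eq_or_lt_of_le htp with h | h
    · rw [h]; simp
    · have hpos : 0 < q - t := by linarith
      have key := hφ.2 ht hqm (div_nonneg (by linarith : (0:ℝ) ≤ q - p) hpos.le)
        (div_nonneg (by linarith : (0:ℝ) ≤ p - t) hpos.le) (by field_simp; ring)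
      have e : ((q - p) / (q - t)) • t + ((p - t) / (q - t)) • q = p := by
        simp only [smul_eq_mul]; field_simp; ring
      rw [e] at key
      simp only [smul_eq_mul] at key
      have e2 : (q - p) / (q - t) * φ t + (p - t) / (q - t) * φ q
          = ((q - p) * φ t + (p - t) * φ q) / (q - t) := by ring
      rw [e2, div_le_iff₀ hpos] at key
      linarith
  · have hpos : 0 < q - p := by linarith
    have key := hφ.2 hpm hqm (div_nonneg (by linarith : (0:ℝ) ≤ q - t) hpos.le)
      (div_nonneg (by linarith : (0:ℝ) ≤ t - p) hpos.le) (by field_simp; ring)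
    have e : ((q - t) / (q - p)) • p + ((t - p) / (q - p)) • q = t := by
      simp only [smul_eq_mul]; field_simp; ring
    rw [e] at key
    simp only [smul_eq_mul] at key
    have e2 : (q - t) / (q - p) * φ p + (t - p) / (q - p) * φ q
        = ((q - t) * φ p + (t - p) * φ q) / (q - p) := by ring
    rw [e2, div_le_iff₀ hpos] at key
    linarith
  · rcases eq_or_lt_of_le hqt with h | h
    · rw [← h]; ring_nf; exact le_refl _
    · have hpos : 0 < t - p := by linarith
      have key := hφ.2 hpm ht (div_nonneg (by linarith : (0:ℝ) ≤ t - q) hpos.le)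
        (div_nonneg (by linarith : (0:ℝ) ≤ q - p) hpos.le) (by field_simp; ring)
      have e : ((t - q) / (t - p)) • p + ((q - p) / (t - p)) • t = q := by
        simp only [smul_eq_mul]; field_simp; ring
      rw [e] at key
      simp only [smul_eq_mul] at key
      have e2 : (t - q) / (t - p) * φ p + (q - p) / (t - p) * φ t
          = ((t - q) * φ p + (q - p) * φ t) / (t - p) := by ring
      rw [e2, div_le_iff₀ hpos] at key
      linarith

/-- The centroid of a nonincreasing function on `[0, a]` is at most `a / 2`. -/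
theorem antitone_centroid_le {a : ℝ} (ha : 0 ≤ a) {g : ℝ → ℝ} (hg : AntitoneOn g (Icc 0 a)) :
    ∫ t in (0:ℝ)..a, t * g t ≤ a / 2 * ∫ t in (0:ℝ)..a, g t := by
  have hgi : IntervalIntegrable g volume 0 a := by
    apply AntitoneOn.intervalIntegrable
    rwa [uIcc_of_le ha]
  have htg : IntervalIntegrable (fun t => t * g t) volume 0 a :=
    hgi.continuousOn_mul continuousOn_id
  have hmid : a / 2 ∈ Icc 0 a := ⟨by linarith, by linarith⟩
  have h1 : ∫ t in (0:ℝ)..a, (t * g t - a / 2 * g t)
      ≤ ∫ t in (0:ℝ)..a, (t - a / 2) * g (a / 2) := by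
    apply intervalIntegral.integral_mono_on ha (htg.sub (hgi.const_mul _))
    · exact ((continuous_id.sub continuous_const).mul continuous_const).intervalIntegrable _ _
    · intro t ht
      have h2 : (t - a / 2) * (g t - g (a / 2)) ≤ 0 := by
        rcases le_total t (a / 2) with h | h
        · exact mul_nonpos_of_nonpos_of_nonneg (by linarith) (by linarith [hg ht hmid h])
        · exact mul_nonpos_of_nonneg_of_nonpos (by linarith) (by linarith [hg hmid ht h])
      nlinarith
  have h3 : ∫ t in (0:ℝ)..a, (t - a / 2) * g (a / 2) = 0 := by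
    have hI : IntervalIntegrable (fun t : ℝ => t) volume 0 a :=
      continuous_id.intervalIntegrable _ _
    have hc : IntervalIntegrable (fun _ : ℝ => a / 2) volume 0 a :=
      continuous_const.intervalIntegrable _ _
    rw [intervalIntegral.integral_mul_const, intervalIntegral.integral_sub hI hc, integral_id,
      intervalIntegral.integral_const, smul_eq_mul]
    ring
  rw [h3, intervalIntegral.integral_sub htg (hgi.const_mul _),
    intervalIntegral.integral_const_mul] at h1
  linarith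

/-- Strict form: if `g` is nonincreasing on `[0, a]` and not constant on the open interval,
its centroid is strictly less than `a / 2`. -/
theorem antitone_centroid_lt {a : ℝ} (ha : 0 < a) {g : ℝ → ℝ} (hg : AntitoneOn g (Icc 0 a))
    (_hg0 : ∀ t ∈ Icc 0 a, 0 ≤ g t)
    (hst : ∃ s ∈ Ioo 0 a, ∃ t ∈ Ioo 0 a, s < t ∧ g t < g s) :
    ∫ t in (0:ℝ)..a, t * g t < a / 2 * ∫ t in (0:ℝ)..a, g t := by
  obtain ⟨s, hs, t, ht, _, hgts⟩ := hst
  have hgi : IntervalIntegrable g volume 0 a := by
    apply AntitoneOn.intervalIntegrable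
    rwa [uIcc_of_le ha.le]
  have htg : IntervalIntegrable (fun t => t * g t) volume 0 a :=
    hgi.continuousOn_mul continuousOn_id
  have hmid : a / 2 ∈ Icc 0 a := ⟨by linarith, by linarith⟩
  have hsI : s ∈ Icc 0 a := ⟨hs.1.le, hs.2.le⟩
  have htI : t ∈ Icc 0 a := ⟨ht.1.le, ht.2.le⟩
  have hF : IntervalIntegrable (fun τ => (τ - a / 2) * (g τ - g (a / 2))) volume 0 a :=
    (hgi.sub (continuous_const.intervalIntegrable _ _)).continuousOn_mul
      (continuous_id.sub continuous_const).continuousOn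
  have hFle : ∀ τ ∈ Icc 0 a, (τ - a / 2) * (g τ - g (a / 2)) ≤ 0 := by
    intro τ hτ
    rcases le_total τ (a / 2) with h | h
    · exact mul_nonpos_of_nonpos_of_nonneg (by linarith) (by linarith [hg hτ hmid h])
    · exact mul_nonpos_of_nonneg_of_nonpos (by linarith) (by linarith [hg hmid hτ h])
  have hsub : ∀ {x y : ℝ}, 0 ≤ x → x ≤ y → y ≤ a →
      IntervalIntegrable (fun τ => (τ - a / 2) * (g τ - g (a / 2))) volume x y := by
    intro x y hx hxy hy
    exact hF.mono_set (by
      rw [uIcc_of_le ha.le, uIcc_of_le hxy]; exact Icc_subset_Icc hx hy)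
  have hnonpos : ∀ {x y : ℝ}, 0 ≤ x → x ≤ y → y ≤ a →
      ∫ τ in x..y, (τ - a / 2) * (g τ - g (a / 2)) ≤ 0 := by
    intro x y hx hxy hy
    have h0 : ∫ τ in x..y, (τ - a / 2) * (g τ - g (a / 2)) ≤ ∫ _τ in x..y, (0:ℝ) :=
      intervalIntegral.integral_mono_on hxy (hsub hx hxy hy)
        (continuous_const.intervalIntegrable _ _)
        (fun τ hτ => hFle τ ⟨by linarith [hτ.1], by linarith [hτ.2]⟩)
    simpa using h0
  have hneg : ∀ {x y : ℝ}, 0 ≤ x → x < y → y ≤ a →
      (∀ τ ∈ Ioo x y, (τ - a / 2) * (g τ - g (a / 2)) < 0) →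
      ∫ τ in x..y, (τ - a / 2) * (g τ - g (a / 2)) < 0 := by
    intro x y hx hxy hy hlt
    have hpos : 0 < ∫ τ in x..y, -((τ - a / 2) * (g τ - g (a / 2))) :=
      intervalIntegral.intervalIntegral_pos_of_pos_on (hsub hx hxy.le hy).neg
        (fun τ hτ => by linarith [hlt τ hτ]) hxy
    rw [intervalIntegral.integral_neg] at hpos
    linarith
  have key : ∫ τ in (0:ℝ)..a, (τ - a / 2) * (g τ - g (a / 2)) < 0 := by
    by_cases hcs : g (a / 2) < g s
    · have hsm : s < a / 2 := by
        by_contra hcon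
        push Not at hcon
        exact absurd (hg hmid hsI hcon) (not_le.mpr hcs)
      have h1 := hneg le_rfl hs.1 hs.2.le (fun τ hτ => by
        have hτI : τ ∈ Icc 0 a := ⟨hτ.1.le, by linarith [hτ.2, hs.2]⟩
        have h2 : g s ≤ g τ := hg hτI hsI hτ.2.le
        exact mul_neg_of_neg_of_pos (by linarith [hτ.2]) (by linarith))
      have h2 := hnonpos hs.1.le hs.2.le le_rfl
      have h3 := intervalIntegral.integral_add_adjacent_intervals
        (hsub le_rfl hs.1.le hs.2.le) (hsub hs.1.le hs.2.le le_rfl)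
      linarith
    · push Not at hcs
      have hct : g t < g (a / 2) := lt_of_lt_of_le hgts hcs
      have htm : a / 2 < t := by
        by_contra hcon
        push Not at hcon
        exact absurd (hg htI hmid hcon) (not_le.mpr hct)
      have h1 := hneg ht.1.le ht.2 le_rfl (fun τ hτ => by
        have hτI : τ ∈ Icc 0 a := ⟨by linarith [hτ.1, ht.1], hτ.2.le⟩
        have h2 : g τ ≤ g t := hg htI hτI hτ.1.le
        exact mul_neg_of_pos_of_neg (by linarith [hτ.1]) (by linarith))
      have h2 := hnonpos le_rfl ht.1.le ht.2.le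
      have h3 := intervalIntegral.integral_add_adjacent_intervals
        (hsub le_rfl ht.1.le ht.2.le) (hsub ht.1.le ht.2.le le_rfl)
      linarith
  have hI : IntervalIntegrable (fun t : ℝ => t) volume 0 a :=
    continuous_id.intervalIntegrable _ _
  have hc : IntervalIntegrable (fun _ : ℝ => a / 2) volume 0 a :=
    continuous_const.intervalIntegrable _ _
  have hexp : ∫ τ in (0:ℝ)..a, (τ - a / 2) * (g τ - g (a / 2))
      = (∫ t in (0:ℝ)..a, t * g t) - a / 2 * ∫ t in (0:ℝ)..a, g t := by
    have hcong : ∀ τ, (τ - a / 2) * (g τ - g (a / 2))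
        = τ * g τ - a / 2 * g τ - (τ - a / 2) * g (a / 2) := fun τ => by ring
    simp only [hcong]
    rw [intervalIntegral.integral_sub (htg.sub (hgi.const_mul _)) ((hI.sub hc).mul_const _),
      intervalIntegral.integral_sub htg (hgi.const_mul _),
      intervalIntegral.integral_const_mul, intervalIntegral.integral_mul_const,
      intervalIntegral.integral_sub hI hc, integral_id, intervalIntegral.integral_const,
      smul_eq_mul]
    ring
  rw [hexp] at key
  linarith

/-- The core of the comparison: a sign pattern `+, -, +` against the chord of `φ`. -/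
theorem mdj_core {a b p : ℝ} (hb0 : 0 < b) (h2b : 2 * b ≤ a) (hp0 : 0 ≤ p) (hp2 : p < 2 * b)
    {g φ : ℝ → ℝ} (hgi : IntervalIntegrable g volume 0 a) (hφ : ConcaveOn ℝ (Icc 0 a) φ)
    (hφc : ContinuousOn φ (Icc 0 a))
    (hb : ∫ t in (0:ℝ)..a, t * g t = b * ∫ t in (0:ℝ)..a, g t)
    (h1 : ∀ t ∈ Ioo 0 a, t < p → (∫ t in (0:ℝ)..a, g t) / (2 * b) ≤ g t)
    (h2 : ∀ t ∈ Ioo 0 a, p < t → t < 2 * b → g t ≤ (∫ t in (0:ℝ)..a, g t) / (2 * b))
    (h3 : ∀ t ∈ Ioo 0 a, 2 * b < t → 0 ≤ g t) :
    (∫ t in (0:ℝ)..a, φ t * g t) * (2 * b)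
      ≤ (∫ t in (0:ℝ)..a, g t) * ∫ t in (0:ℝ)..(2 * b), φ t := by
  have ha : 0 ≤ a := by linarith
  have hq0 : (0:ℝ) ≤ 2 * b := by linarith
  set I0 : ℝ := ∫ t in (0:ℝ)..a, g t with hI0
  set lam : ℝ := I0 / (2 * b) with hlam
  have hlamq : lam * (2 * b) = I0 := by
    rw [hlam]; field_simp
  have hφc' : ContinuousOn φ (uIcc 0 a) := by rwa [uIcc_of_le ha]
  have hφg : IntervalIntegrable (fun t => φ t * g t) volume 0 a := hgi.continuousOn_mul hφc'
  have htg : IntervalIntegrable (fun t => t * g t) volume 0 a :=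
    hgi.continuousOn_mul continuousOn_id
  have hφq : IntervalIntegrable φ volume 0 (2 * b) := by
    apply ContinuousOn.intervalIntegrable
    rw [uIcc_of_le hq0]
    exact hφc.mono (Icc_subset_Icc le_rfl h2b)
  -- the chord quantity
  set B : ℝ := φ (2 * b) - φ p with hB
  set A : ℝ := (2 * b - p) * φ p - B * p with hA
  have hE : ∀ t, (φ t - φ p) * (2 * b - p) - (φ (2 * b) - φ p) * (t - p)
      = (2 * b - p) * φ t - A - B * t := by
    intro t; rw [hA, hB]; ring
  have hEc : ContinuousOn (fun t => (2 * b - p) * φ t - A - B * t) (Icc 0 a) :=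
    ((continuousOn_const.mul hφc).sub continuousOn_const).sub
      (continuousOn_const.mul continuousOn_id)
  have hEg : IntervalIntegrable (fun t => ((2 * b - p) * φ t - A - B * t) * g t) volume 0 a := by
    apply hgi.continuousOn_mul
    rwa [uIcc_of_le ha]
  have hEg1 : IntervalIntegrable (fun t => ((2 * b - p) * φ t - A - B * t) * g t) volume 0
      (2 * b) :=
    hEg.mono_set (by rw [uIcc_of_le ha, uIcc_of_le hq0]; exact Icc_subset_Icc le_rfl h2b)
  have hEg2 : IntervalIntegrable (fun t => ((2 * b - p) * φ t - A - B * t) * g t) volume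
      (2 * b) a :=
    hEg.mono_set (by rw [uIcc_of_le ha, uIcc_of_le h2b]; exact Icc_subset_Icc hq0 le_rfl)
  have hEi : IntervalIntegrable (fun t => (2 * b - p) * φ t - A - B * t) volume 0 (2 * b) := by
    apply ContinuousOn.intervalIntegrable
    rw [uIcc_of_le hq0]
    exact hEc.mono (Icc_subset_Icc le_rfl h2b)
  -- the two pieces
  have hleft : ∫ t in (0:ℝ)..(2 * b), ((2 * b - p) * φ t - A - B * t) * g t
      ≤ ∫ t in (0:ℝ)..(2 * b), lam * ((2 * b - p) * φ t - A - B * t) := by
    apply intervalIntegral.integral_mono_on_of_le_Ioo hq0 hEg1 (hEi.const_mul _)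
    intro t ht
    have hta : t ∈ Icc 0 a := ⟨ht.1.le, by linarith [ht.2]⟩
    have htI : t ∈ Ioo 0 a := ⟨ht.1, by linarith [ht.2]⟩
    obtain ⟨c1, c2, _⟩ := mdj_chord hφ hp0 hp2 h2b hta
    rw [hE t] at c1 c2
    have hsign : ((2 * b - p) * φ t - A - B * t) * (g t - lam) ≤ 0 := by
      rcases lt_trichotomy t p with h | h | h
      · exact mul_nonpos_of_nonpos_of_nonneg (c1 h.le) (by linarith [h1 t htI h])
      · have e0 := c1 h.le
        have e1 := c2 h.ge (by linarith)
        have : (2 * b - p) * φ t - A - B * t = 0 := le_antisymm e0 e1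
        rw [this]; simp
      · exact mul_nonpos_of_nonneg_of_nonpos (c2 h.le ht.2.le) (by linarith [h2 t htI h ht.2])
    nlinarith
  have hright : ∫ t in (2 * b)..a, ((2 * b - p) * φ t - A - B * t) * g t ≤ 0 := by
    have h0 : ∫ t in (2 * b)..a, ((2 * b - p) * φ t - A - B * t) * g t
        ≤ ∫ _t in (2 * b)..a, (0:ℝ) := by
      apply intervalIntegral.integral_mono_on_of_le_Ioo h2b hEg2
        (continuous_const.intervalIntegrable _ _)
      intro t ht
      have hta : t ∈ Icc 0 a := ⟨by linarith [ht.1], ht.2.le⟩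
      have htI : t ∈ Ioo 0 a := ⟨by linarith [ht.1], ht.2⟩
      obtain ⟨_, _, c3⟩ := mdj_chord hφ hp0 hp2 h2b hta
      rw [hE t] at c3
      exact mul_nonpos_of_nonpos_of_nonneg (c3 ht.1.le) (h3 t htI ht.1)
    simpa using h0
  have hsplit : ∫ t in (0:ℝ)..a, ((2 * b - p) * φ t - A - B * t) * g t
      = (∫ t in (0:ℝ)..(2 * b), ((2 * b - p) * φ t - A - B * t) * g t)
        + ∫ t in (2 * b)..a, ((2 * b - p) * φ t - A - B * t) * g t :=
    (intervalIntegral.integral_add_adjacent_intervals hEg1 hEg2).symm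
  -- evaluation of the two sides
  have e1 : ∫ t in (0:ℝ)..a, ((2 * b - p) * φ t - A - B * t) * g t
      = (2 * b - p) * (∫ t in (0:ℝ)..a, φ t * g t) - A * I0 - B * (b * I0) := by
    have hcong : ∀ t, ((2 * b - p) * φ t - A - B * t) * g t
        = (2 * b - p) * (φ t * g t) - A * g t - B * (t * g t) := fun t => by ring
    simp only [hcong]
    rw [intervalIntegral.integral_sub ((hφg.const_mul _).sub (hgi.const_mul _)) (htg.const_mul _),
      intervalIntegral.integral_sub (hφg.const_mul _) (hgi.const_mul _),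
      intervalIntegral.integral_const_mul, intervalIntegral.integral_const_mul,
      intervalIntegral.integral_const_mul, hb]
  have e2 : ∫ t in (0:ℝ)..(2 * b), lam * ((2 * b - p) * φ t - A - B * t)
      = lam * ((2 * b - p) * (∫ t in (0:ℝ)..(2 * b), φ t) - A * (2 * b)
        - B * ((2 * b) ^ 2 / 2)) := by
    have hI : IntervalIntegrable (fun t : ℝ => t) volume 0 (2 * b) :=
      continuous_id.intervalIntegrable _ _
    have hcA : IntervalIntegrable (fun _ : ℝ => A) volume 0 (2 * b) :=
      continuous_const.intervalIntegrable _ _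
    rw [intervalIntegral.integral_const_mul,
      intervalIntegral.integral_sub ((hφq.const_mul _).sub hcA) (hI.const_mul _),
      intervalIntegral.integral_sub (hφq.const_mul _) hcA,
      intervalIntegral.integral_const_mul, intervalIntegral.integral_const_mul,
      intervalIntegral.integral_const, integral_id, smul_eq_mul]
    ring
  have hmain : (2 * b - p) * (∫ t in (0:ℝ)..a, φ t * g t) - A * I0 - B * (b * I0)
      ≤ lam * ((2 * b - p) * (∫ t in (0:ℝ)..(2 * b), φ t) - A * (2 * b)
        - B * ((2 * b) ^ 2 / 2)) := by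
    rw [← e1, ← e2, hsplit]
    linarith
  have hpos : 0 < 2 * b - p := by linarith
  have hfin : (2 * b - p) * ((∫ t in (0:ℝ)..a, φ t * g t) * (2 * b))
      ≤ (2 * b - p) * (I0 * ∫ t in (0:ℝ)..(2 * b), φ t) := by
    have e3 : lam * ((2 * b - p) * (∫ t in (0:ℝ)..(2 * b), φ t) - A * (2 * b)
          - B * ((2 * b) ^ 2 / 2))
        = (2 * b - p) * lam * (∫ t in (0:ℝ)..(2 * b), φ t) - A * I0 - B * (b * I0) := by
      rw [← hlamq]; ring
    rw [e3] at hmain
    have h5 : (2 * b - p) * (∫ t in (0:ℝ)..a, φ t * g t)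
        ≤ (2 * b - p) * lam * (∫ t in (0:ℝ)..(2 * b), φ t) := by linarith
    have h6 := mul_le_mul_of_nonneg_right h5 hq0
    calc (2 * b - p) * ((∫ t in (0:ℝ)..a, φ t * g t) * (2 * b))
        = (2 * b - p) * (∫ t in (0:ℝ)..a, φ t * g t) * (2 * b) := by ring
      _ ≤ (2 * b - p) * lam * (∫ t in (0:ℝ)..(2 * b), φ t) * (2 * b) := h6
      _ = (2 * b - p) * (I0 * ∫ t in (0:ℝ)..(2 * b), φ t) := by rw [← hlamq]; ring
  exact le_of_mul_le_mul_left hfin hpos

/-- **Jensen for nonincreasing densities.**  If `g ≥ 0` is nonincreasing on `[0, a]` with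
centroid `b` and `φ` is concave and continuous on `[0, a]`, then the `g`-average of `φ` is at
most the average of `φ` over `[0, 2 b]`. -/
theorem mono_density_jensen {a b : ℝ} (hb0 : 0 < b) (h2b : 2 * b ≤ a) {g φ : ℝ → ℝ}
    (hg : AntitoneOn g (Icc 0 a)) (hg0 : ∀ t ∈ Icc 0 a, 0 ≤ g t)
    (hφ : ConcaveOn ℝ (Icc 0 a) φ) (hφc : ContinuousOn φ (Icc 0 a))
    (hb : ∫ t in (0:ℝ)..a, t * g t = b * ∫ t in (0:ℝ)..a, g t) :
    (∫ t in (0:ℝ)..a, φ t * g t) * (2 * b)
      ≤ (∫ t in (0:ℝ)..a, g t) * ∫ t in (0:ℝ)..(2 * b), φ t := by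
  have ha : 0 ≤ a := by linarith
  have hq0 : (0:ℝ) < 2 * b := by linarith
  have hgi : IntervalIntegrable g volume 0 a := by
    apply AntitoneOn.intervalIntegrable
    rwa [uIcc_of_le ha]
  have h3 : ∀ t ∈ Ioo 0 a, 2 * b < t → 0 ≤ g t := fun t ht _ => hg0 t ⟨ht.1.le, ht.2.le⟩
  by_cases hS : ∃ t ∈ Icc 0 (2 * b), (∫ t in (0:ℝ)..a, g t) / (2 * b) < g t
  · -- the last point where `g` exceeds the level
    set S : Set ℝ := {t | t ∈ Icc 0 (2 * b) ∧ (∫ t in (0:ℝ)..a, g t) / (2 * b) < g t} with hSdef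
    have hne : S.Nonempty := by
      obtain ⟨t, ht, h⟩ := hS
      exact ⟨t, ht, h⟩
    have hbdd : BddAbove S := ⟨2 * b, fun t ht => ht.1.2⟩
    have hp0 : 0 ≤ sSup S := by
      obtain ⟨t, ht⟩ := hne
      exact le_trans ht.1.1 (le_csSup hbdd ht)
    have hple : sSup S ≤ 2 * b := csSup_le hne (fun t ht => ht.1.2)
    have hstrict : ∀ t ∈ Ioo 0 a, t < sSup S → (∫ t in (0:ℝ)..a, g t) / (2 * b) < g t := by
      intro t ht hlt
      obtain ⟨s, hs, hts⟩ := exists_lt_of_lt_csSup hne hlt
      have hsa : s ∈ Icc 0 a := ⟨hs.1.1, le_trans hs.1.2 h2b⟩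
      exact lt_of_lt_of_le hs.2 (hg ⟨ht.1.le, ht.2.le⟩ hsa hts.le)
    have h2 : ∀ t ∈ Ioo 0 a, sSup S < t → t < 2 * b → g t ≤ (∫ t in (0:ℝ)..a, g t) / (2 * b) := by
      intro t ht hlt ht2
      by_contra hcon
      push Not at hcon
      have : t ∈ S := ⟨⟨ht.1.le, ht2.le⟩, hcon⟩
      exact absurd (le_csSup hbdd this) (not_le.mpr hlt)
    have hp2 : sSup S < 2 * b := by
      by_contra hcon
      push Not at hcon
      have hpe : sSup S = 2 * b := le_antisymm hple hcon
      -- then `g` exceeds the level on all of `(0, 2 b)`: too much mass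
      have hgi1 : IntervalIntegrable g volume 0 (2 * b) :=
        hgi.mono_set (by rw [uIcc_of_le ha, uIcc_of_le hq0.le]; exact Icc_subset_Icc le_rfl h2b)
      have hgi2 : IntervalIntegrable g volume (2 * b) a :=
        hgi.mono_set (by rw [uIcc_of_le ha, uIcc_of_le h2b]; exact Icc_subset_Icc hq0.le le_rfl)
      have hposint : 0 < ∫ t in (0:ℝ)..(2 * b), (g t - (∫ t in (0:ℝ)..a, g t) / (2 * b)) := by
        apply intervalIntegral.intervalIntegral_pos_of_pos_on
          (hgi1.sub (continuous_const.intervalIntegrable _ _))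
        · intro t ht
          have := hstrict t ⟨ht.1, lt_of_lt_of_le ht.2 h2b⟩ (by rw [hpe]; exact ht.2)
          linarith
        · exact hq0
      rw [intervalIntegral.integral_sub hgi1 (continuous_const.intervalIntegrable _ _),
        intervalIntegral.integral_const, smul_eq_mul] at hposint
      have hrest : 0 ≤ ∫ t in (2 * b)..a, g t :=
        intervalIntegral.integral_nonneg h2b (fun t ht => hg0 t ⟨by linarith [ht.1], ht.2⟩)
      have hsum := intervalIntegral.integral_add_adjacent_intervals hgi1 hgi2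
      have hcancel : (2 * b - 0) * ((∫ t in (0:ℝ)..a, g t) / (2 * b)) = ∫ t in (0:ℝ)..a, g t := by
        rw [sub_zero]
        field_simp
      rw [hcancel] at hposint
      linarith
    exact mdj_core hb0 h2b hp0 hp2 hgi hφ hφc hb (fun t ht hlt => (hstrict t ht hlt).le) h2 h3
  · push Not at hS
    refine mdj_core hb0 h2b le_rfl hq0 hgi hφ hφc hb ?_ ?_ h3
    · intro t ht hlt
      exact absurd ht.1 (not_lt.mpr hlt.le)
    · intro t ht _ ht2
      exact hS t ⟨ht.1.le, ht2.le⟩

end Vale.Agent.Lib.P254.LW
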