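import Vale.Agent.Lib.P254.LW.Defs
import Vale.Agent.Lib.P254.LW.MonoJensen

open MeasureTheory Set

namespace Vale.Agent.Lib.P254

variable {a a' : ℝ} {f g2 g1 : ℝ → ℝ}

/-- A profile is positive before the end of its interval. -/
theorem lwb_prof_pos {c : ℝ} {φ : ℝ → ℝ} (h : LWProf c φ) {t : ℝ} (ht : t ∈ Ico 0 c) :
    0 < φ t := by
  have hc := h.pos
  have hcne : c ≠ 0 := hc.ne'
  have h0 : (0:ℝ) ∈ Icc 0 c := left_mem_Icc.mpr hc.le
  have h1 : c ∈ Icc 0 c := right_mem_Icc.mpr hc.le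
  have hc1 : 0 < 1 - t / c := by
    rw [sub_pos, div_lt_one hc]
    exact ht.2
  have hc2 : 0 ≤ t / c := div_nonneg ht.1 hc.le
  have key := h.conc.2 h0 h1 hc1.le hc2 (by ring)
  have e : (1 - t / c) • (0:ℝ) + (t / c) • c = t := by
    simp only [smul_eq_mul, mul_zero, zero_add]
    exact div_mul_cancel₀ t hcne
  rw [e] at key
  simp only [smul_eq_mul] at key
  have hp1 : 0 < (1 - t / c) * φ 0 := mul_pos hc1 h.pos0
  have hp2 : 0 ≤ t / c * φ c := mul_nonneg hc2 (h.nonneg c h1)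
  linarith

theorem lwb_roof_nonneg (h : LWData a a' f g2 g1) {x y : ℝ} (hx : x ∈ Icc 0 a)
    (hy : y ∈ Icc 0 a') : 0 ≤ lwRoof g2 g1 x y :=
  le_min (h.hg2.nonneg x hx) (h.hg1.nonneg y hy)

theorem lwb_roof_pos (h : LWData a a' f g2 g1) {x y : ℝ} (hx : x ∈ Ico 0 a)
    (hy : y ∈ Ico 0 a') : 0 < lwRoof g2 g1 x y :=
  lt_min (lwb_prof_pos h.hg2 hx) (lwb_prof_pos h.hg1 hy)

theorem lwb_roof_cont (h : LWData a a' f g2 g1) (x : ℝ) :
    ContinuousOn (fun y => lwRoof g2 g1 x y) (Icc 0 a') :=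
  ContinuousOn.inf continuousOn_const h.hg1.cont

/-- The weighted roof is integrable over every subinterval of `[0, a']`. -/
theorem lwb_inner_int (h : LWData a a' f g2 g1) {ω : ℝ → ℝ} (hω : ContinuousOn ω (Icc 0 a'))
    (x : ℝ) {c d : ℝ} (hc : c ∈ Icc 0 a') (hd : d ∈ Icc 0 a') :
    IntervalIntegrable (fun y => ω y * lwRoof g2 g1 x y) volume c d := by
  apply ContinuousOn.intervalIntegrable
  exact (hω.mul (lwb_roof_cont h x)).mono (uIcc_subset_Icc hc hd)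

/-- The weighted inner integral is nonincreasing in `x`. -/
theorem lwb_inner_anti (h : LWData a a' f g2 g1) {ω : ℝ → ℝ} (hω : ContinuousOn ω (Icc 0 a'))
    (hω0 : ∀ y ∈ Icc 0 a', 0 ≤ ω y) :
    AntitoneOn (fun x => ∫ y in (0:ℝ)..f x, ω y * lwRoof g2 g1 x y) (Icc 0 a) := by
  intro x hx x' hx' hxx'
  have hfx : f x ∈ Icc 0 a' := ⟨h.hf.nonneg x hx, h.hfa x hx⟩
  have hfx' : f x' ∈ Icc 0 a' := ⟨h.hf.nonneg x' hx', h.hfa x' hx'⟩
  have hff : f x' ≤ f x := h.hf.anti hx hx' hxx'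
  have h0 : (0:ℝ) ∈ Icc 0 a' := ⟨le_rfl, hfx.1.trans hfx.2⟩
  have s1 : ∫ y in (0:ℝ)..f x', ω y * lwRoof g2 g1 x' y
      ≤ ∫ y in (0:ℝ)..f x', ω y * lwRoof g2 g1 x y := by
    apply intervalIntegral.integral_mono_on hfx'.1 (lwb_inner_int h hω x' h0 hfx')
      (lwb_inner_int h hω x h0 hfx')
    intro y hy
    have hy' : y ∈ Icc 0 a' := ⟨hy.1, hy.2.trans hfx'.2⟩
    exact mul_le_mul_of_nonneg_left (min_le_min (h.hg2.anti hx hx' hxx') le_rfl) (hω0 y hy')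
  have s2 : 0 ≤ ∫ y in (f x')..f x, ω y * lwRoof g2 g1 x y := by
    apply intervalIntegral.integral_nonneg hff
    intro y hy
    have hy' : y ∈ Icc 0 a' := ⟨hfx'.1.trans hy.1, hy.2.trans hfx.2⟩
    exact mul_nonneg (hω0 y hy') (lwb_roof_nonneg h hx hy')
  have s3 := intervalIntegral.integral_add_adjacent_intervals
    (lwb_inner_int h hω x h0 hfx') (lwb_inner_int h hω x hfx' hfx)
  show ∫ y in (0:ℝ)..f x', ω y * lwRoof g2 g1 x' y ≤ ∫ y in (0:ℝ)..f x, ω y * lwRoof g2 g1 x y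
  linarith

/-- The weighted inner integral is positive inside the interval. -/
theorem lwb_inner_pos (h : LWData a a' f g2 g1) {ω : ℝ → ℝ} (hω : ContinuousOn ω (Icc 0 a'))
    (hωp : ∀ y ∈ Ioo 0 a', 0 < ω y) {x : ℝ} (hx : x ∈ Ioo 0 a) :
    0 < ∫ y in (0:ℝ)..f x, ω y * lwRoof g2 g1 x y := by
  have hxI : x ∈ Icc 0 a := ⟨hx.1.le, hx.2.le⟩
  have hfx : f x ∈ Icc 0 a' := ⟨h.hf.nonneg x hxI, h.hfa x hxI⟩
  have hfpos : 0 < f x := lwb_prof_pos h.hf ⟨hx.1.le, hx.2⟩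
  have h0 : (0:ℝ) ∈ Icc 0 a' := ⟨le_rfl, hfx.1.trans hfx.2⟩
  refine intervalIntegral.intervalIntegral_pos_of_pos_on (lwb_inner_int h hω x h0 hfx) ?_ hfpos
  intro y hy
  have hy' : y ∈ Ioo 0 a' := ⟨hy.1, hy.2.trans_le hfx.2⟩
  exact mul_pos (hωp y hy') (lwb_roof_pos h ⟨hx.1.le, hx.2⟩ ⟨hy'.1.le, hy'.2⟩)

/-- The weighted inner integral is integrable in `x`. -/
theorem lwb_outer_int (h : LWData a a' f g2 g1) {ω : ℝ → ℝ} (hω : ContinuousOn ω (Icc 0 a'))
    (hω0 : ∀ y ∈ Icc 0 a', 0 ≤ ω y) :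
    IntervalIntegrable (fun x => ∫ y in (0:ℝ)..f x, ω y * lwRoof g2 g1 x y) volume 0 a := by
  apply AntitoneOn.intervalIntegrable
  rw [uIcc_of_le h.hf.pos.le]
  exact lwb_inner_anti h hω hω0

/-- The section areas are nonincreasing in `x`. -/
theorem lwb_sec_anti (h : LWData a a' f g2 g1) :
    AntitoneOn (fun x => ∫ y in (0:ℝ)..f x, lwRoof g2 g1 x y) (Icc 0 a) := by
  have key := lwb_inner_anti h (ω := fun _ => (1:ℝ)) continuousOn_const
    (fun _ _ => zero_le_one)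
  simp only [one_mul] at key
  exact key

theorem lwb_sec_pos (h : LWData a a' f g2 g1) {x : ℝ} (hx : x ∈ Ioo 0 a) :
    0 < ∫ y in (0:ℝ)..f x, lwRoof g2 g1 x y := by
  have key := lwb_inner_pos h (ω := fun _ => (1:ℝ)) continuousOn_const
    (fun _ _ => zero_lt_one) hx
  simp only [one_mul] at key
  exact key

theorem lwb_sec_int (h : LWData a a' f g2 g1) :
    IntervalIntegrable (fun x => ∫ y in (0:ℝ)..f x, lwRoof g2 g1 x y) volume 0 a := by
  apply AntitoneOn.intervalIntegrable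
  rw [uIcc_of_le h.hf.pos.le]
  exact lwb_sec_anti h

theorem lwb_vol_eq (a : ℝ) (f g2 g1 : ℝ → ℝ) :
    lwVol a f g2 g1 = ∫ x in (0:ℝ)..a, ∫ y in (0:ℝ)..f x, lwRoof g2 g1 x y := rfl

theorem lwb_momX_eq (a : ℝ) (f g2 g1 : ℝ → ℝ) :
    lwMomX a f g2 g1 = ∫ x in (0:ℝ)..a, x * ∫ y in (0:ℝ)..f x, lwRoof g2 g1 x y := by
  unfold lwMomX lwRegInt
  simp only [intervalIntegral.integral_const_mul]

theorem lwb_momY_eq (a : ℝ) (f g2 g1 : ℝ → ℝ) :
    lwMomY a f g2 g1 = ∫ x in (0:ℝ)..a, ∫ y in (0:ℝ)..f x, y * lwRoof g2 g1 x y := rfl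

/-- The volume is positive. -/
theorem lw_vol_pos (h : LWData a a' f g2 g1) : 0 < lwVol a f g2 g1 := by
  rw [lwb_vol_eq]
  exact intervalIntegral.intervalIntegral_pos_of_pos_on (lwb_sec_int h)
    (fun x hx => lwb_sec_pos h hx) h.hf.pos

/-- The first moment in `x` is positive. -/
theorem lw_momX_pos (h : LWData a a' f g2 g1) : 0 < lwMomX a f g2 g1 := by
  rw [lwb_momX_eq]
  have hint : IntervalIntegrable
      (fun x => x * ∫ y in (0:ℝ)..f x, lwRoof g2 g1 x y) volume 0 a :=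
    (lwb_sec_int h).continuousOn_mul continuousOn_id
  exact intervalIntegral.intervalIntegral_pos_of_pos_on hint
    (fun x hx => mul_pos hx.1 (lwb_sec_pos h hx)) h.hf.pos

/-- The first moment in `y` is positive. -/
theorem lw_momY_pos (h : LWData a a' f g2 g1) : 0 < lwMomY a f g2 g1 := by
  rw [lwb_momY_eq]
  have hint : IntervalIntegrable
      (fun x => ∫ y in (0:ℝ)..f x, y * lwRoof g2 g1 x y) volume 0 a :=
    lwb_outer_int h (ω := fun y => y) continuousOn_id (fun y hy => hy.1)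
  exact intervalIntegral.intervalIntegral_pos_of_pos_on hint
    (fun x hx => lwb_inner_pos h (ω := fun y => y) continuousOn_id (fun y hy => hy.1) hx)
    h.hf.pos

/-- Twice the `x`-centroid is at most the `x`-extent (the `x`-marginal is nonincreasing). -/
theorem lw_U_le (h : LWData a a' f g2 g1) : lwU a f g2 g1 ≤ a := by
  have hV := lw_vol_pos h
  unfold lwU
  rw [div_le_iff₀ hV]
  have hc := LW.antitone_centroid_le h.hf.pos.le (lwb_sec_anti h)
  rw [← lwb_momX_eq, ← lwb_vol_eq] at hc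
  linarith

/-- Twice the `y`-centroid is at most the `y`-extent (the `y`-marginal is nonincreasing). -/
theorem lw_W_le (h : LWData a a' f g2 g1) : lwW a f g2 g1 ≤ f 0 := by
  have hV := lw_vol_pos h
  unfold lwW
  rw [div_le_iff₀ hV]
  have key : lwMomY a f g2 g1 ≤ f 0 / 2 * lwVol a f g2 g1 := by
    rw [lwb_vol_eq, lwb_momY_eq, ← intervalIntegral.integral_const_mul]
    have hintY : IntervalIntegrable
        (fun x => ∫ y in (0:ℝ)..f x, y * lwRoof g2 g1 x y) volume 0 a :=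
      lwb_outer_int h (ω := fun y => y) continuousOn_id (fun y hy => hy.1)
    apply intervalIntegral.integral_mono_on h.hf.pos.le hintY ((lwb_sec_int h).const_mul _)
    intro x hx
    have hfx : f x ∈ Icc 0 a' := ⟨h.hf.nonneg x hx, h.hfa x hx⟩
    have hanti : AntitoneOn (fun y => lwRoof g2 g1 x y) (Icc 0 (f x)) := by
      intro y hy y' hy' hyy'
      exact min_le_min le_rfl
        (h.hg1.anti ⟨hy.1, hy.2.trans hfx.2⟩ ⟨hy'.1, hy'.2.trans hfx.2⟩ hyy')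
    have hc := LW.antitone_centroid_le hfx.1 hanti
    have hD0 : 0 ≤ ∫ y in (0:ℝ)..f x, lwRoof g2 g1 x y :=
      intervalIntegral.integral_nonneg hfx.1
        (fun y hy => lwb_roof_nonneg h hx ⟨hy.1, hy.2.trans hfx.2⟩)
    have hf0 : f x ≤ f 0 := h.hf.anti (left_mem_Icc.mpr h.hf.pos.le) hx hx.1
    calc ∫ y in (0:ℝ)..f x, y * lwRoof g2 g1 x y
        ≤ f x / 2 * ∫ y in (0:ℝ)..f x, lwRoof g2 g1 x y := hc
      _ ≤ f 0 / 2 * ∫ y in (0:ℝ)..f x, lwRoof g2 g1 x y := by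
          apply mul_le_mul_of_nonneg_right _ hD0
          linarith
  linarith

end Vale.Agent.Lib.P254
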