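import Vale.Agent.Lib.P254.LW.Fun
import Vale.Agent.Lib.P254.Sym.Slice

open MeasureTheory Set

namespace Vale.Agent.Lib.P254

variable {a a' : ℝ} {f g2 g1 : ℝ → ℝ}

/-- The Loomis-Whitney type body in coordinates:
`{0 ≤ x0 ≤ a, 0 ≤ x1 ≤ f x0, 0 ≤ x2 ≤ min (g2 x0) (g1 x1)}`. -/
def lwBody (a : ℝ) (f g2 g1 : ℝ → ℝ) : Set (Fin 3 → ℝ) :=
  {x | 0 ≤ x 0 ∧ x 0 ≤ a ∧ 0 ≤ x 1 ∧ x 1 ≤ f (x 0) ∧ 0 ≤ x 2 ∧ x 2 ≤ lwRoof g2 g1 (x 0) (x 1)}

private lemma lwbdy_c0 (t s : ℝ) (z : Fin 1 → ℝ) :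
    (Fin.cons t (Fin.cons s z) : Fin 3 → ℝ) 0 = t := rfl

private lemma lwbdy_c1 (t s : ℝ) (z : Fin 1 → ℝ) :
    (Fin.cons t (Fin.cons s z) : Fin 3 → ℝ) 1 = s := rfl

private lemma lwbdy_c2 (t s : ℝ) (z : Fin 1 → ℝ) :
    (Fin.cons t (Fin.cons s z) : Fin 3 → ℝ) 2 = z 0 := rfl

private lemma lwbdy_mem (t s : ℝ) (z : Fin 1 → ℝ) :
    (Fin.cons t (Fin.cons s z) : Fin 3 → ℝ) ∈ lwBody a f g2 g1 ↔
      0 ≤ t ∧ t ≤ a ∧ 0 ≤ s ∧ s ≤ f t ∧ 0 ≤ z 0 ∧ z 0 ≤ lwRoof g2 g1 t s := by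
  unfold lwBody
  rw [mem_ofPred_eq, lwbdy_c0, lwbdy_c1, lwbdy_c2]

private lemma lwbdy_e (z : Fin 1 → ℝ) : MeasurableEquiv.funUnique (Fin 1) ℝ z = z 0 := rfl

private lemma lwbdy_roof_nonneg (h : LWData a a' f g2 g1) {t s : ℝ} (ht : t ∈ Icc (0:ℝ) a)
    (hs : s ∈ Icc (0:ℝ) (f t)) : 0 ≤ lwRoof g2 g1 t s :=
  le_min (h.hg2.nonneg t ht) (h.hg1.nonneg s ⟨hs.1, le_trans hs.2 (h.hfa t ht)⟩)

private lemma lwbdy_const {m : ℝ} (hm : 0 ≤ m) (c : ℝ) : ∫ _ in Icc (0:ℝ) m, c = m * c := by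
  rw [setIntegral_const, smul_eq_mul, Real.volume_real_Icc_of_le hm, sub_zero]

private lemma lwbdy_id {m : ℝ} (hm : 0 ≤ m) : ∫ r in Icc (0:ℝ) m, r = m ^ 2 / 2 := by
  rw [integral_Icc_eq_integral_Ioc, ← intervalIntegral.integral_of_le hm, integral_id]
  ring

private lemma lwbdy_compact (h : LWData a a' f g2 g1) : IsCompact (lwBody a f g2 g1) := by
  have hB : IsClosed {x : Fin 3 → ℝ | (0 ≤ x 0 ∧ x 0 ≤ a) ∧ (0 ≤ x 1 ∧ x 1 ≤ a') ∧ 0 ≤ x 2} :=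
    ((isClosed_le continuous_const (continuous_apply 0)).and
      (isClosed_le (continuous_apply 0) continuous_const)).and
      (((isClosed_le continuous_const (continuous_apply 1)).and
        (isClosed_le (continuous_apply 1) continuous_const)).and
        (isClosed_le continuous_const (continuous_apply 2)))
  have hc1 : IsClosed {x ∈ {x : Fin 3 → ℝ | (0 ≤ x 0 ∧ x 0 ≤ a) ∧ (0 ≤ x 1 ∧ x 1 ≤ a') ∧ 0 ≤ x 2} |
      x 1 ≤ f (x 0)} :=
    hB.isClosed_le (continuous_apply 1).continuousOn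
      (h.hf.cont.comp (continuous_apply 0).continuousOn (fun x hx => ⟨hx.1.1, hx.1.2⟩))
  have hc2 : IsClosed {x ∈ {x : Fin 3 → ℝ | (0 ≤ x 0 ∧ x 0 ≤ a) ∧ (0 ≤ x 1 ∧ x 1 ≤ a') ∧ 0 ≤ x 2} |
      x 2 ≤ g2 (x 0)} :=
    hB.isClosed_le (continuous_apply 2).continuousOn
      (h.hg2.cont.comp (continuous_apply 0).continuousOn (fun x hx => ⟨hx.1.1, hx.1.2⟩))
  have hc3 : IsClosed {x ∈ {x : Fin 3 → ℝ | (0 ≤ x 0 ∧ x 0 ≤ a) ∧ (0 ≤ x 1 ∧ x 1 ≤ a') ∧ 0 ≤ x 2} |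
      x 2 ≤ g1 (x 1)} :=
    hB.isClosed_le (continuous_apply 2).continuousOn
      (h.hg1.cont.comp (continuous_apply 1).continuousOn (fun x hx => ⟨hx.2.1.1, hx.2.1.2⟩))
  have hset : lwBody a f g2 g1 =
      ({x ∈ {x : Fin 3 → ℝ | (0 ≤ x 0 ∧ x 0 ≤ a) ∧ (0 ≤ x 1 ∧ x 1 ≤ a') ∧ 0 ≤ x 2} |
          x 1 ≤ f (x 0)} ∩
        {x ∈ {x : Fin 3 → ℝ | (0 ≤ x 0 ∧ x 0 ≤ a) ∧ (0 ≤ x 1 ∧ x 1 ≤ a') ∧ 0 ≤ x 2} |
          x 2 ≤ g2 (x 0)}) ∩
        {x ∈ {x : Fin 3 → ℝ | (0 ≤ x 0 ∧ x 0 ≤ a) ∧ (0 ≤ x 1 ∧ x 1 ≤ a') ∧ 0 ≤ x 2} |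
          x 2 ≤ g1 (x 1)} := by
    ext x
    constructor
    · rintro ⟨h0, ha, h1, hf1, h2, hr⟩
      have hB' : (0 ≤ x 0 ∧ x 0 ≤ a) ∧ (0 ≤ x 1 ∧ x 1 ≤ a') ∧ 0 ≤ x 2 :=
        ⟨⟨h0, ha⟩, ⟨h1, le_trans hf1 (h.hfa (x 0) ⟨h0, ha⟩)⟩, h2⟩
      exact ⟨⟨⟨hB', hf1⟩, ⟨hB', le_trans hr (min_le_left _ _)⟩⟩,
        ⟨hB', le_trans hr (min_le_right _ _)⟩⟩
    · rintro ⟨⟨⟨hB', hf1⟩, ⟨-, hr2⟩⟩, ⟨-, hr1⟩⟩
      exact ⟨hB'.1.1, hB'.1.2, hB'.2.1.1, hf1, hB'.2.2, le_min hr2 hr1⟩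
  have hclosed : IsClosed (lwBody a f g2 g1) := by
    rw [hset]
    exact (hc1.inter hc2).inter hc3
  have hsub : lwBody a f g2 g1 ⊆ Metric.closedBall (0 : Fin 3 → ℝ) (max a (max a' (g2 0))) := by
    rintro x ⟨h0, ha, h1, hf1, h2, hr⟩
    have hR0 : 0 ≤ max a (max a' (g2 0)) := le_trans h.hf.pos.le (le_max_left _ _)
    rw [mem_closedBall_zero_iff, pi_norm_le_iff_of_nonneg hR0]
    have hx0 : x 0 ∈ Icc (0:ℝ) a := ⟨h0, ha⟩
    have e0 : ‖x 0‖ ≤ max a (max a' (g2 0)) := by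
      rw [Real.norm_eq_abs, abs_of_nonneg h0]
      exact le_trans ha (le_max_left _ _)
    have e1 : ‖x 1‖ ≤ max a (max a' (g2 0)) := by
      rw [Real.norm_eq_abs, abs_of_nonneg h1]
      exact le_trans (le_trans hf1 (h.hfa (x 0) hx0))
        (le_trans (le_max_left _ _) (le_max_right _ _))
    have e2 : ‖x 2‖ ≤ max a (max a' (g2 0)) := by
      rw [Real.norm_eq_abs, abs_of_nonneg h2]
      have hg : g2 (x 0) ≤ g2 0 := h.hg2.anti (left_mem_Icc.mpr h.hg2.pos.le) hx0 h0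
      exact le_trans (le_trans (le_trans hr (min_le_left _ _)) hg)
        (le_trans (le_max_right _ _) (le_max_right _ _))
    intro i
    fin_cases i
    · exact e0
    · exact e1
    · exact e2
  exact (isCompact_closedBall (0 : Fin 3 → ℝ) _).of_isClosed_subset hclosed hsub

private lemma lwbdy_fubini (h : LWData a a' f g2 g1) (F : (Fin 3 → ℝ) → ℝ) (hF : Continuous F)
    (ψ : ℝ → ℝ → ℝ → ℝ)
    (hFψ : ∀ (t s : ℝ) (z : Fin 1 → ℝ), F (Fin.cons t (Fin.cons s z)) = ψ t s (z 0)) :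
    ∫ x in lwBody a f g2 g1, F x =
      ∫ t in (0:ℝ)..a, ∫ s in (0:ℝ)..f t, ∫ r in Icc (0:ℝ) (lwRoof g2 g1 t s), ψ t s r := by
  have hK := lwbdy_compact h
  have hin2 : ∀ t s : ℝ,
      ∫ z in sec (sec (lwBody a f g2 g1) t) s, F (Fin.cons t (Fin.cons s z)) =
        if (0 ≤ t ∧ t ≤ a) ∧ (0 ≤ s ∧ s ≤ f t) then
          ∫ r in Icc (0:ℝ) (lwRoof g2 g1 t s), ψ t s r else 0 := by
    intro t s
    by_cases hc : (0 ≤ t ∧ t ≤ a) ∧ (0 ≤ s ∧ s ≤ f t)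
    · rw [if_pos hc]
      have hset : sec (sec (lwBody a f g2 g1) t) s =
          (MeasurableEquiv.funUnique (Fin 1) ℝ) ⁻¹' (Icc (0:ℝ) (lwRoof g2 g1 t s)) := by
        ext z
        constructor
        · intro hz
          have hz' : (Fin.cons t (Fin.cons s z) : Fin 3 → ℝ) ∈ lwBody a f g2 g1 := hz
          rw [lwbdy_mem] at hz'
          rw [mem_preimage, lwbdy_e]
          exact ⟨hz'.2.2.2.2.1, hz'.2.2.2.2.2⟩
        · intro hz
          rw [mem_preimage, lwbdy_e] at hz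
          have hz' : (Fin.cons t (Fin.cons s z) : Fin 3 → ℝ) ∈ lwBody a f g2 g1 := by
            rw [lwbdy_mem]
            exact ⟨hc.1.1, hc.1.2, hc.2.1, hc.2.2, hz.1, hz.2⟩
          exact hz'
      have hpre := (volume_preserving_funUnique (Fin 1) ℝ).setIntegral_preimage_emb
        (MeasurableEquiv.funUnique (Fin 1) ℝ).measurableEmbedding (fun r => ψ t s r)
        (Icc (0:ℝ) (lwRoof g2 g1 t s))
      have hfun : (fun z : Fin 1 → ℝ => F (Fin.cons t (Fin.cons s z))) =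
          fun z => ψ t s (MeasurableEquiv.funUnique (Fin 1) ℝ z) := by
        funext z
        rw [hFψ t s z, lwbdy_e]
      rw [hset, hfun]
      exact hpre
    · rw [if_neg hc]
      have hset : sec (sec (lwBody a f g2 g1) t) s = ∅ := by
        rw [eq_empty_iff_forall_notMem]
        intro z hz
        have hz' : (Fin.cons t (Fin.cons s z) : Fin 3 → ℝ) ∈ lwBody a f g2 g1 := hz
        rw [lwbdy_mem] at hz'
        exact hc ⟨⟨hz'.1, hz'.2.1⟩, hz'.2.2.1, hz'.2.2.2.1⟩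
      rw [hset, Measure.restrict_empty, integral_zero_measure]
  have hinner : ∀ t : ℝ, ∫ y in sec (lwBody a f g2 g1) t, F (Fin.cons t y) =
      (Icc (0:ℝ) a).indicator (fun t => ∫ s in (0:ℝ)..f t,
        ∫ r in Icc (0:ℝ) (lwRoof g2 g1 t s), ψ t s r) t := by
    intro t
    have hc : Continuous (fun y : Fin 2 → ℝ => F (Fin.cons t y)) :=
      hF.comp (Continuous.finCons continuous_const continuous_id)
    calc ∫ y in sec (lwBody a f g2 g1) t, F (Fin.cons t y)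
        = ∫ s, ∫ z in sec (sec (lwBody a f g2 g1) t) s, F (Fin.cons t (Fin.cons s z)) :=
          integral_slice (isCompact_sec hK t) (fun y => F (Fin.cons t y)) hc
      _ = ∫ s, (if (0 ≤ t ∧ t ≤ a) ∧ (0 ≤ s ∧ s ≤ f t) then
            ∫ r in Icc (0:ℝ) (lwRoof g2 g1 t s), ψ t s r else 0) :=
          congrArg (fun g : ℝ → ℝ => ∫ s, g s) (funext (hin2 t))
      _ = (Icc (0:ℝ) a).indicator (fun t => ∫ s in (0:ℝ)..f t,
            ∫ r in Icc (0:ℝ) (lwRoof g2 g1 t s), ψ t s r) t := by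
          by_cases ht : 0 ≤ t ∧ t ≤ a
          · rw [indicator_of_mem (show t ∈ Icc (0:ℝ) a from ht)]
            have hft : 0 ≤ f t := h.hf.nonneg t ht
            have e3 : (fun s : ℝ => if (0 ≤ t ∧ t ≤ a) ∧ (0 ≤ s ∧ s ≤ f t) then
                ∫ r in Icc (0:ℝ) (lwRoof g2 g1 t s), ψ t s r else 0) =
                (Icc (0:ℝ) (f t)).indicator
                  (fun s => ∫ r in Icc (0:ℝ) (lwRoof g2 g1 t s), ψ t s r) := by
              funext s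
              by_cases hs : 0 ≤ s ∧ s ≤ f t
              · rw [if_pos ⟨ht, hs⟩, indicator_of_mem (show s ∈ Icc (0:ℝ) (f t) from hs)]
              · rw [if_neg (fun hh => hs hh.2),
                  indicator_of_notMem (show s ∉ Icc (0:ℝ) (f t) from hs)]
            rw [e3, integral_indicator measurableSet_Icc, integral_Icc_eq_integral_Ioc,
              ← intervalIntegral.integral_of_le hft]
          · rw [indicator_of_notMem (show t ∉ Icc (0:ℝ) a from ht)]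
            have e3 : (fun s : ℝ => if (0 ≤ t ∧ t ≤ a) ∧ (0 ≤ s ∧ s ≤ f t) then
                ∫ r in Icc (0:ℝ) (lwRoof g2 g1 t s), ψ t s r else 0) = fun _ => 0 := by
              funext s
              rw [if_neg (fun hh => ht hh.1)]
            rw [e3, integral_zero]
  calc ∫ x in lwBody a f g2 g1, F x
      = ∫ t, ∫ y in sec (lwBody a f g2 g1) t, F (Fin.cons t y) := integral_slice hK F hF
    _ = ∫ t, (Icc (0:ℝ) a).indicator (fun t => ∫ s in (0:ℝ)..f t,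
          ∫ r in Icc (0:ℝ) (lwRoof g2 g1 t s), ψ t s r) t :=
        congrArg (fun g : ℝ → ℝ => ∫ t, g t) (funext hinner)
    _ = ∫ t in Icc (0:ℝ) a, ∫ s in (0:ℝ)..f t,
          ∫ r in Icc (0:ℝ) (lwRoof g2 g1 t s), ψ t s r := integral_indicator measurableSet_Icc
    _ = ∫ t in Ioc (0:ℝ) a, ∫ s in (0:ℝ)..f t,
          ∫ r in Icc (0:ℝ) (lwRoof g2 g1 t s), ψ t s r := integral_Icc_eq_integral_Ioc
    _ = ∫ t in (0:ℝ)..a, ∫ s in (0:ℝ)..f t,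
          ∫ r in Icc (0:ℝ) (lwRoof g2 g1 t s), ψ t s r :=
        (intervalIntegral.integral_of_le h.hf.pos.le).symm

private lemma lwbdy_congr (h : LWData a a' f g2 g1) (Φ Ψ : ℝ → ℝ → ℝ)
    (hΦ : ∀ t ∈ Icc (0:ℝ) a, ∀ s ∈ Icc (0:ℝ) (f t), Φ t s = Ψ t s) :
    ∫ t in (0:ℝ)..a, ∫ s in (0:ℝ)..f t, Φ t s = ∫ t in (0:ℝ)..a, ∫ s in (0:ℝ)..f t, Ψ t s := by
  apply intervalIntegral.integral_congr
  intro t ht
  rw [uIcc_of_le h.hf.pos.le] at ht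
  have hft : 0 ≤ f t := h.hf.nonneg t ht
  show ∫ s in (0:ℝ)..f t, Φ t s = ∫ s in (0:ℝ)..f t, Ψ t s
  apply intervalIntegral.integral_congr
  intro s hs
  rw [uIcc_of_le hft] at hs
  exact hΦ t ht s hs

/-- Volume of the body as an iterated integral. -/
theorem lw_body_vol (h : LWData a a' f g2 g1) :
    (volume (lwBody a f g2 g1)).toReal = lwVol a f g2 g1 := by
  have h1 : (volume (lwBody a f g2 g1)).toReal = ∫ _ in lwBody a f g2 g1, (1 : ℝ) := by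
    rw [setIntegral_const, smul_eq_mul, mul_one]
    rfl
  calc (volume (lwBody a f g2 g1)).toReal = ∫ _ in lwBody a f g2 g1, (1 : ℝ) := h1
    _ = ∫ t in (0:ℝ)..a, ∫ s in (0:ℝ)..f t, ∫ _ in Icc (0:ℝ) (lwRoof g2 g1 t s), (1:ℝ) :=
        lwbdy_fubini h (fun _ => (1:ℝ)) continuous_const (fun _ _ _ => 1) (fun _ _ _ => rfl)
    _ = ∫ t in (0:ℝ)..a, ∫ s in (0:ℝ)..f t, lwRoof g2 g1 t s :=
        lwbdy_congr h (fun t s => ∫ _ in Icc (0:ℝ) (lwRoof g2 g1 t s), (1:ℝ))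
          (fun t s => lwRoof g2 g1 t s) (fun t ht s hs => by
            show ∫ _ in Icc (0:ℝ) (lwRoof g2 g1 t s), (1:ℝ) = lwRoof g2 g1 t s
            rw [lwbdy_const (lwbdy_roof_nonneg h ht hs), mul_one])
    _ = lwVol a f g2 g1 := rfl

/-- First moments of the body as iterated integrals. -/
theorem lw_body_mom0 (h : LWData a a' f g2 g1) :
    ∫ x in lwBody a f g2 g1, x 0 = lwMomX a f g2 g1 := by
  calc ∫ x in lwBody a f g2 g1, x 0
      = ∫ t in (0:ℝ)..a, ∫ s in (0:ℝ)..f t, ∫ _ in Icc (0:ℝ) (lwRoof g2 g1 t s), t :=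
        lwbdy_fubini h (fun x => x 0) (continuous_apply 0) (fun t _ _ => t)
          (fun t s z => lwbdy_c0 t s z)
    _ = ∫ t in (0:ℝ)..a, ∫ s in (0:ℝ)..f t, t * lwRoof g2 g1 t s :=
        lwbdy_congr h (fun t s => ∫ _ in Icc (0:ℝ) (lwRoof g2 g1 t s), t)
          (fun t s => t * lwRoof g2 g1 t s) (fun t ht s hs => by
            show ∫ _ in Icc (0:ℝ) (lwRoof g2 g1 t s), t = t * lwRoof g2 g1 t s
            rw [lwbdy_const (lwbdy_roof_nonneg h ht hs), mul_comm])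
    _ = lwMomX a f g2 g1 := rfl

theorem lw_body_mom1 (h : LWData a a' f g2 g1) :
    ∫ x in lwBody a f g2 g1, x 1 = lwMomY a f g2 g1 := by
  calc ∫ x in lwBody a f g2 g1, x 1
      = ∫ t in (0:ℝ)..a, ∫ s in (0:ℝ)..f t, ∫ _ in Icc (0:ℝ) (lwRoof g2 g1 t s), s :=
        lwbdy_fubini h (fun x => x 1) (continuous_apply 1) (fun _ s _ => s)
          (fun t s z => lwbdy_c1 t s z)
    _ = ∫ t in (0:ℝ)..a, ∫ s in (0:ℝ)..f t, s * lwRoof g2 g1 t s :=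
        lwbdy_congr h (fun t s => ∫ _ in Icc (0:ℝ) (lwRoof g2 g1 t s), s)
          (fun t s => s * lwRoof g2 g1 t s) (fun t ht s hs => by
            show ∫ _ in Icc (0:ℝ) (lwRoof g2 g1 t s), s = s * lwRoof g2 g1 t s
            rw [lwbdy_const (lwbdy_roof_nonneg h ht hs), mul_comm])
    _ = lwMomY a f g2 g1 := rfl

theorem lw_body_mom2 (h : LWData a a' f g2 g1) :
    ∫ x in lwBody a f g2 g1, x 2 = lwMomZ2 a f g2 g1 / 2 := by
  calc ∫ x in lwBody a f g2 g1, x 2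
      = ∫ t in (0:ℝ)..a, ∫ s in (0:ℝ)..f t, ∫ r in Icc (0:ℝ) (lwRoof g2 g1 t s), r :=
        lwbdy_fubini h (fun x => x 2) (continuous_apply 2) (fun _ _ r => r)
          (fun t s z => lwbdy_c2 t s z)
    _ = ∫ t in (0:ℝ)..a, ∫ s in (0:ℝ)..f t, lwRoof g2 g1 t s ^ 2 / 2 :=
        lwbdy_congr h (fun t s => ∫ r in Icc (0:ℝ) (lwRoof g2 g1 t s), r)
          (fun t s => lwRoof g2 g1 t s ^ 2 / 2) (fun t ht s hs => by
            show ∫ r in Icc (0:ℝ) (lwRoof g2 g1 t s), r = lwRoof g2 g1 t s ^ 2 / 2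
            exact lwbdy_id (lwbdy_roof_nonneg h ht hs))
    _ = lwMomZ2 a f g2 g1 / 2 := by
        unfold lwMomZ2 lwRegInt
        simp only [intervalIntegral.integral_div]

/-- The centroid inequality `8 M_0 M_1 M_2 ≤ V^4` for the body. -/
theorem lw_body_ineq (h : LWData a a' f g2 g1) :
    8 * ((∫ x in lwBody a f g2 g1, x 0) * (∫ x in lwBody a f g2 g1, x 1) *
      (∫ x in lwBody a f g2 g1, x 2)) ≤ (volume (lwBody a f g2 g1)).toReal ^ 4 := by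
  rw [lw_body_vol h, lw_body_mom0 h, lw_body_mom1 h, lw_body_mom2 h]
  have := lw_fun h
  linarith

end Vale.Agent.Lib.P254
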