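import Vale.Agent.Lib.P254.LW.Defs

open MeasureTheory Set

namespace Vale.Agent.Lib.P254

/-- The maximum of the roof `min (g2 x) (g1 y)`: its value at the origin. -/
noncomputable def lwHmax (g2 g1 : ℝ → ℝ) : ℝ := min (g2 0) (g1 0)

/-- The right end of the superlevel interval `{x ∈ [0, c] | t < g x}` of a profile `g`. -/
noncomputable def lwEnd (c : ℝ) (g : ℝ → ℝ) (t : ℝ) : ℝ := sSup {x | x ∈ Icc 0 c ∧ t < g x}

/-- The integral of `G` over the layer `{0 ≤ x ≤ a, 0 ≤ y ≤ f x, t < min (g2 x) (g1 y)}`,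
written with an indicator on the box `[0, a] × [0, a']`. -/
noncomputable def lwLayer (a a' : ℝ) (f g2 g1 : ℝ → ℝ) (G : ℝ → ℝ → ℝ) (t : ℝ) : ℝ :=
  ∫ x in (0:ℝ)..a, ∫ y in (0:ℝ)..a', if y ≤ f x ∧ t < lwRoof g2 g1 x y then G x y else 0

/-- The average of the roof over the box `[0, c.1] × [0, c.2]`, in unit coordinates. -/
noncomputable def lwPsi (g2 g1 : ℝ → ℝ) (c : ℝ × ℝ) : ℝ :=
  ∫ u in (0:ℝ)..1, ∫ v in (0:ℝ)..1, lwRoof g2 g1 (c.1 * u) (c.2 * v)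

end Vale.Agent.Lib.P254
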