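import Vale.Agent.Lib.P254.LW.CDefs

open MeasureTheory Set

namespace Vale.Agent.Lib.P254

/-- The superlevel set `{x ∈ [0, c] | t < g x}` of a profile, for `t < g 0`, is an interval
with left end `0` and right end `lwEnd c g t`: the end is positive and at most `c`, the
profile is above `t` before the end and at most `t` after it. -/
theorem lw_end_spec {c : ℝ} {g : ℝ → ℝ} (hg : LWProf c g) {t : ℝ} (ht : t < g 0) :
    0 < lwEnd c g t ∧ lwEnd c g t ≤ c ∧ (∀ x ∈ Ico 0 (lwEnd c g t), t < g x) ∧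
      (∀ x ∈ Ioc (lwEnd c g t) c, g x ≤ t) := by
  have hc := hg.pos
  have h0 : (0:ℝ) ∈ Icc 0 c := ⟨le_rfl, hc.le⟩
  have hcm : c ∈ Icc 0 c := ⟨hc.le, le_rfl⟩
  have hbdd : BddAbove {x | x ∈ Icc 0 c ∧ t < g x} := ⟨c, fun x hx => hx.1.2⟩
  have h0S : (0:ℝ) ∈ {x | x ∈ Icc 0 c ∧ t < g x} := ⟨h0, ht⟩
  have hne : {x | x ∈ Icc 0 c ∧ t < g x}.Nonempty := ⟨0, h0S⟩
  have hle : lwEnd c g t ≤ c := csSup_le hne (fun x hx => hx.1.2)
  -- a positive point of the superlevel set, by concavity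
  have hg0 := hg.pos0
  have hgc : 0 ≤ g c := hg.nonneg c hcm
  have hd : 0 < g 0 - t := by linarith
  obtain ⟨s, hs0, hs1, hsd⟩ : ∃ s : ℝ, 0 < s ∧ s ≤ 1 ∧ s * g 0 < g 0 - t := by
    refine ⟨min 1 ((g 0 - t) / (2 * g 0)), ?_, min_le_left _ _, ?_⟩
    · exact lt_min one_pos (div_pos hd (by linarith))
    · have h1 : min 1 ((g 0 - t) / (2 * g 0)) ≤ (g 0 - t) / (2 * g 0) := min_le_right _ _
      have h2 : min 1 ((g 0 - t) / (2 * g 0)) * g 0 ≤ (g 0 - t) / (2 * g 0) * g 0 :=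
        mul_le_mul_of_nonneg_right h1 hg0.le
      have h3 : (g 0 - t) / (2 * g 0) * g 0 = (g 0 - t) / 2 := by
        field_simp
      linarith
  have hconc := hg.conc.2 h0 hcm (by linarith : (0:ℝ) ≤ 1 - s) hs0.le (by ring)
  simp only [smul_eq_mul, mul_zero, zero_add] at hconc
  have hscm : s * c ∈ Icc 0 c := ⟨by positivity, by nlinarith⟩
  have hsS : s * c ∈ {x | x ∈ Icc 0 c ∧ t < g x} := by
    refine ⟨hscm, ?_⟩
    have h4 : 0 ≤ s * g c := mul_nonneg hs0.le hgc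
    nlinarith
  have hpos : 0 < lwEnd c g t := lt_of_lt_of_le (by positivity) (le_csSup hbdd hsS)
  refine ⟨hpos, hle, ?_, ?_⟩
  · intro x hx
    obtain ⟨z, hz, hxz⟩ := exists_lt_of_lt_csSup hne hx.2
    have hxm : x ∈ Icc 0 c := ⟨hx.1, (hxz.le.trans hz.1.2)⟩
    exact lt_of_lt_of_le hz.2 (hg.anti hxm hz.1 hxz.le)
  · intro x hx
    by_contra hcon
    push Not at hcon
    have hxS : x ∈ {x | x ∈ Icc 0 c ∧ t < g x} := ⟨⟨hpos.le.trans hx.1.le, hx.2⟩, hcon⟩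
    exact absurd (le_csSup hbdd hxS) (not_le.mpr hx.1)

end Vale.Agent.Lib.P254
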