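import Vale.Agent.Lib.P254.LW.CDefs

open MeasureTheory Set

namespace Vale.Agent.Lib.P254

variable {a a' : ℝ} {f g2 g1 : ℝ → ℝ}

/-- Fubini on a box for a bounded measurable integrand: the third variable can be
integrated last. -/
theorem lwc_swap_meas {a a' T : ℝ} (ha : 0 ≤ a) (ha' : 0 ≤ a') (hT : 0 ≤ T)
    {K : (ℝ × ℝ) × ℝ → ℝ} (hK : Measurable K) {C : ℝ} (hC : ∀ p, |K p| ≤ C) :
    IntervalIntegrable (fun t => ∫ x in (0:ℝ)..a, ∫ y in (0:ℝ)..a', K ((x, y), t)) volume 0 T ∧
      (∫ x in (0:ℝ)..a, ∫ y in (0:ℝ)..a', ∫ t in (0:ℝ)..T, K ((x, y), t))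
        = ∫ t in (0:ℝ)..T, ∫ x in (0:ℝ)..a, ∫ y in (0:ℝ)..a', K ((x, y), t) := by
  rw [intervalIntegrable_iff_integrableOn_Ioc_of_le hT]
  simp only [intervalIntegral.integral_of_le ha, intervalIntegral.integral_of_le ha',
    intervalIntegral.integral_of_le hT]
  have hint : Integrable K
      (((volume.restrict (Ioc 0 a)).prod (volume.restrict (Ioc 0 a'))).prod
        (volume.restrict (Ioc 0 T))) :=
    Integrable.of_bound hK.aestronglyMeasurable C
      (Filter.Eventually.of_forall (fun p => by rw [Real.norm_eq_abs]; exact hC p))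
  have hsec : ∀ t : ℝ,
      ∫ z, K (z, t) ∂((volume.restrict (Ioc 0 a)).prod (volume.restrict (Ioc 0 a')))
        = ∫ x in Ioc 0 a, ∫ y in Ioc 0 a', K ((x, y), t) := by
    intro t
    have hm : Measurable (fun z : ℝ × ℝ => K (z, t)) :=
      hK.comp (measurable_id.prodMk measurable_const)
    exact integral_prod _ (Integrable.of_bound hm.aestronglyMeasurable C
      (Filter.Eventually.of_forall (fun z => by rw [Real.norm_eq_abs]; exact hC _)))
  refine ⟨?_, ?_⟩
  · have h1 := hint.integral_prod_right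
    have e : (fun t => ∫ z, K (z, t)
          ∂((volume.restrict (Ioc 0 a)).prod (volume.restrict (Ioc 0 a'))))
        = fun t => ∫ x in Ioc 0 a, ∫ y in Ioc 0 a', K ((x, y), t) := funext hsec
    rw [e] at h1
    exact h1
  · have h1 := integral_integral_swap (f := fun (z : ℝ × ℝ) (t : ℝ) => K (z, t))
      (μ := (volume.restrict (Ioc 0 a)).prod (volume.restrict (Ioc 0 a')))
      (ν := volume.restrict (Ioc 0 T)) hint
    have h2 := integral_prod (fun z : ℝ × ℝ => ∫ t in Ioc 0 T, K (z, t))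
      hint.integral_prod_left
    rw [← h2, h1]
    congr 1
    funext t
    exact hsec t

/-- Fubini on the box `[0, a] × [0, a'] × [0, hmax]` for the indicator integrand of the
layers: the height variable can be integrated last, and the layer integrals are integrable
in the height. -/
theorem lw_layer_swap (h : LWData a a' f g2 g1) {G : ℝ → ℝ → ℝ}
    (hG : ContinuousOn (Function.uncurry G) (Icc 0 a ×ˢ Icc 0 a')) :
    IntervalIntegrable (lwLayer a a' f g2 g1 G) volume 0 (lwHmax g2 g1) ∧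
      (∫ x in (0:ℝ)..a, ∫ y in (0:ℝ)..a', ∫ t in (0:ℝ)..lwHmax g2 g1,
          if y ≤ f x ∧ t < lwRoof g2 g1 x y then G x y else 0)
        = ∫ t in (0:ℝ)..lwHmax g2 g1, lwLayer a a' f g2 g1 G t := by
  have ha : 0 < a := h.hf.pos
  have ha' : 0 < a' := h.hg1.pos
  have hT : 0 < lwHmax g2 g1 := lt_min h.hg2.pos0 h.hg1.pos0
  have hcl : ∀ c : ℝ, Continuous (fun x : ℝ => max 0 (min x c)) := fun c => by fun_prop
  have hclm : ∀ c : ℝ, 0 ≤ c → ∀ x : ℝ, max 0 (min x c) ∈ Icc 0 c := by
    intro c hc x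
    exact ⟨le_max_left _ _, max_le hc (min_le_right _ _)⟩
  have hcle : ∀ c : ℝ, ∀ x ∈ Icc 0 c, max 0 (min x c) = x := by
    intro c x hx
    rw [min_eq_left hx.2, max_eq_right hx.1]
  have hfc : Continuous (fun x : ℝ => f (max 0 (min x a))) :=
    h.hf.cont.comp_continuous (hcl a) (hclm a ha.le)
  have hg2c : Continuous (fun x : ℝ => g2 (max 0 (min x a))) :=
    h.hg2.cont.comp_continuous (hcl a) (hclm a ha.le)
  have hg1c : Continuous (fun y : ℝ => g1 (max 0 (min y a'))) :=
    h.hg1.cont.comp_continuous (hcl a') (hclm a' ha'.le)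
  have hGc : Continuous
      (fun z : ℝ × ℝ => Function.uncurry G (max 0 (min z.1 a), max 0 (min z.2 a'))) := by
    have hc : Continuous (fun z : ℝ × ℝ => (max 0 (min z.1 a), max 0 (min z.2 a'))) := by
      fun_prop
    exact hG.comp_continuous hc (fun z => ⟨hclm a ha.le z.1, hclm a' ha'.le z.2⟩)
  obtain ⟨K, hKdef⟩ : ∃ K : (ℝ × ℝ) × ℝ → ℝ, K = fun p =>
      if p.1.2 ≤ f (max 0 (min p.1.1 a)) ∧
          p.2 < min (g2 (max 0 (min p.1.1 a))) (g1 (max 0 (min p.1.2 a')))
      then Function.uncurry G (max 0 (min p.1.1 a), max 0 (min p.1.2 a')) else 0 := ⟨_, rfl⟩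
  have hKm : Measurable K := by
    rw [hKdef]
    refine Measurable.ite ?_ (hGc.measurable.comp measurable_fst) measurable_const
    exact (measurableSet_le (measurable_snd.comp measurable_fst)
      (hfc.measurable.comp (measurable_fst.comp measurable_fst))).inter
      (measurableSet_lt measurable_snd
        ((hg2c.measurable.comp (measurable_fst.comp measurable_fst)).min
          (hg1c.measurable.comp (measurable_snd.comp measurable_fst))))
  obtain ⟨C, hC⟩ := (isCompact_Icc.prod isCompact_Icc).exists_bound_of_continuousOn hG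
  have hC0 : 0 ≤ C :=
    (norm_nonneg _).trans (hC (0, 0) ⟨left_mem_Icc.mpr ha.le, left_mem_Icc.mpr ha'.le⟩)
  have hKb : ∀ p, |K p| ≤ C := by
    intro p
    rw [hKdef]
    dsimp only
    split_ifs with hc
    · have := hC (max 0 (min p.1.1 a), max 0 (min p.1.2 a'))
        ⟨hclm a ha.le p.1.1, hclm a' ha'.le p.1.2⟩
      rwa [Real.norm_eq_abs] at this
    · rw [abs_zero]
      exact hC0
  have hKH : ∀ x ∈ Icc 0 a, ∀ y ∈ Icc 0 a', ∀ t : ℝ,
      K ((x, y), t) = if y ≤ f x ∧ t < lwRoof g2 g1 x y then G x y else 0 := by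
    intro x hx y hy t
    rw [hKdef]
    simp only [hcle a x hx, hcle a' y hy, Function.uncurry]
    by_cases hc : y ≤ f x ∧ t < lwRoof g2 g1 x y
    · rw [if_pos hc, if_pos (show y ≤ f x ∧ t < min (g2 x) (g1 y) from hc)]
    · rw [if_neg hc, if_neg (show ¬ (y ≤ f x ∧ t < min (g2 x) (g1 y)) from hc)]
  obtain ⟨r1, r2⟩ := lwc_swap_meas ha.le ha'.le hT.le hKm hKb
  have e1 : ∀ t, lwLayer a a' f g2 g1 G t
      = ∫ x in (0:ℝ)..a, ∫ y in (0:ℝ)..a', K ((x, y), t) := by
    intro t
    unfold lwLayer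
    refine intervalIntegral.integral_congr (fun x hx => ?_)
    rw [uIcc_of_le ha.le] at hx
    refine intervalIntegral.integral_congr (fun y hy => ?_)
    rw [uIcc_of_le ha'.le] at hy
    exact (hKH x hx y hy t).symm
  have e2 : (∫ x in (0:ℝ)..a, ∫ y in (0:ℝ)..a', ∫ t in (0:ℝ)..lwHmax g2 g1,
        if y ≤ f x ∧ t < lwRoof g2 g1 x y then G x y else 0)
      = ∫ x in (0:ℝ)..a, ∫ y in (0:ℝ)..a', ∫ t in (0:ℝ)..lwHmax g2 g1, K ((x, y), t) := by
    refine intervalIntegral.integral_congr (fun x hx => ?_)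
    rw [uIcc_of_le ha.le] at hx
    refine intervalIntegral.integral_congr (fun y hy => ?_)
    rw [uIcc_of_le ha'.le] at hy
    refine intervalIntegral.integral_congr (fun t _ => ?_)
    exact (hKH x hx y hy t).symm
  refine ⟨?_, ?_⟩
  · have e : lwLayer a a' f g2 g1 G
        = fun t => ∫ x in (0:ℝ)..a, ∫ y in (0:ℝ)..a', K ((x, y), t) := funext e1
    rw [e]
    exact r1
  · rw [e2, r2]
    refine intervalIntegral.integral_congr (fun t _ => ?_)
    exact (e1 t).symm

end Vale.Agent.Lib.P254
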