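import Vale.Agent.Lib.P254.LW.CPoint
import Vale.Agent.Lib.P254.LW.CSwap

open MeasureTheory Set

namespace Vale.Agent.Lib.P254

variable {a a' : ℝ} {f g2 g1 : ℝ → ℝ}

/-- Layer cake: the integral of `G * roof` over the base region is the integral over the
heights `t` of the integrals of `G` over the layers `{roof > t}`. -/
theorem lw_layer_fubini (h : LWData a a' f g2 g1) {G : ℝ → ℝ → ℝ}
    (hG : ContinuousOn (Function.uncurry G) (Icc 0 a ×ˢ Icc 0 a')) :
    IntervalIntegrable (lwLayer a a' f g2 g1 G) volume 0 (lwHmax g2 g1) ∧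
      lwRegInt a f (fun x y => G x y * lwRoof g2 g1 x y)
        = ∫ t in (0:ℝ)..lwHmax g2 g1, lwLayer a a' f g2 g1 G t :=
  ⟨(lw_layer_swap h hG).1, (lw_layer_point h hG).trans (lw_layer_swap h hG).2⟩

end Vale.Agent.Lib.P254
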