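import Mathlib

open MeasureTheory Set

namespace Vale.Agent.Lib.P254

/-- Weighted Jensen inequality on an interval for a concave function of two variables: the
weight is `A`, the points are `(2 X / A, 2 Y / A)`. -/
theorem lw_jensen {D : Set (ℝ × ℝ)} (hDconv : Convex ℝ D) (hDcomp : IsCompact D)
    {Ψ : ℝ × ℝ → ℝ} (hΨ : ConcaveOn ℝ D Ψ) (hΨc : ContinuousOn Ψ D) {T : ℝ} (hT : 0 < T)
    {A X Y : ℝ → ℝ} (hA : IntervalIntegrable A volume 0 T)
    (hX : IntervalIntegrable X volume 0 T) (hY : IntervalIntegrable Y volume 0 T)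
    (hApos : ∀ t ∈ Ioo 0 T, 0 < A t)
    (hc : ∀ t ∈ Ioo 0 T, (2 * X t / A t, 2 * Y t / A t) ∈ D) :
    IntervalIntegrable (fun t => A t * Ψ (2 * X t / A t, 2 * Y t / A t)) volume 0 T ∧
      ∫ t in (0:ℝ)..T, A t * Ψ (2 * X t / A t, 2 * Y t / A t)
        ≤ (∫ t in (0:ℝ)..T, A t) *
            Ψ (2 * (∫ t in (0:ℝ)..T, X t) / (∫ t in (0:ℝ)..T, A t),
               2 * (∫ t in (0:ℝ)..T, Y t) / (∫ t in (0:ℝ)..T, A t)) := by
  classical
  have _hDc := hDconv
  obtain ⟨μ0, hμ0⟩ : ∃ μ0 : Measure ℝ, μ0 = volume.restrict (Ioc 0 T) := ⟨_, rfl⟩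
  have hAi : Integrable A μ0 := by
    rw [hμ0]
    exact (intervalIntegrable_iff_integrableOn_Ioc_of_le hT.le).mp hA
  have hXi : Integrable X μ0 := by
    rw [hμ0]
    exact (intervalIntegrable_iff_integrableOn_Ioc_of_le hT.le).mp hX
  have hYi : Integrable Y μ0 := by
    rw [hμ0]
    exact (intervalIntegrable_iff_integrableOn_Ioc_of_le hT.le).mp hY
  have hIoo : ∀ᵐ t ∂μ0, t ∈ Ioo 0 T := by
    have e : μ0 = volume.restrict (Ioo 0 T) := by
      rw [hμ0]
      exact (Measure.restrict_congr_set Ioo_ae_eq_Ioc).symm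
    rw [e]
    exact ae_restrict_mem measurableSet_Ioo
  obtain ⟨M, hM⟩ := hDcomp.exists_bound_of_continuousOn hΨc
  have hmid : T / 2 ∈ Ioo 0 T := ⟨by linarith, by linarith⟩
  have hM0 : 0 ≤ M := le_trans (norm_nonneg _) (hM _ (hc _ hmid))
  obtain ⟨Ψ', hΨ'⟩ : ∃ Ψ' : ℝ × ℝ → ℝ, Ψ' = D.piecewise Ψ (fun _ => 0) := ⟨_, rfl⟩
  have hΨ'm : Measurable Ψ' := by
    rw [hΨ']
    exact hΨc.measurable_piecewise continuousOn_const hDcomp.isClosed.measurableSet
  have hΨ'D : ∀ q ∈ D, Ψ' q = Ψ q := by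
    intro q hq
    rw [hΨ', Set.piecewise_eq_of_mem _ _ _ hq]
  have hΨ'b : ∀ q, ‖Ψ' q‖ ≤ M := by
    intro q
    by_cases hq : q ∈ D
    · rw [hΨ'D q hq]
      exact hM q hq
    · rw [hΨ', Set.piecewise_eq_of_notMem _ _ _ hq]
      simpa using hM0
  obtain ⟨p, hp⟩ : ∃ p : ℝ → ℝ × ℝ, p = fun t => (2 * X t / A t, 2 * Y t / A t) := ⟨_, rfl⟩
  have hpD : ∀ t ∈ Ioo 0 T, p t ∈ D := by
    intro t ht
    rw [hp]
    exact hc t ht
  have hp_aem : AEMeasurable p μ0 := by
    rw [hp]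
    exact ((hXi.aemeasurable.const_mul 2).div hAi.aemeasurable).prodMk
      ((hYi.aemeasurable.const_mul 2).div hAi.aemeasurable)
  have hG : Integrable (fun t => Ψ' (p t) * A t) μ0 :=
    hAi.bdd_mul (c := M) (hΨ'm.comp_aemeasurable hp_aem).aestronglyMeasurable
      (Filter.Eventually.of_forall fun t => hΨ'b (p t))
  have hF : Integrable (fun t => A t * Ψ (p t)) μ0 := by
    refine hG.congr ?_
    filter_upwards [hIoo] with t ht
    rw [hΨ'D _ (hpD t ht), mul_comm]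
  have hFI : IntervalIntegrable (fun t => A t * Ψ (p t)) volume 0 T := by
    rw [intervalIntegrable_iff_integrableOn_Ioc_of_le hT.le, IntegrableOn, ← hμ0]
    exact hF
  have hgoal1 : IntervalIntegrable (fun t => A t * Ψ (2 * X t / A t, 2 * Y t / A t))
      volume 0 T := by
    have e : (fun t => A t * Ψ (2 * X t / A t, 2 * Y t / A t)) = fun t => A t * Ψ (p t) := by
      rw [hp]
    rw [e]
    exact hFI
  refine ⟨hgoal1, ?_⟩
  -- the weighted measure
  obtain ⟨I0, hI0⟩ : ∃ I0 : ℝ, I0 = ∫ t in (0:ℝ)..T, A t := ⟨_, rfl⟩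
  have hI0pos : 0 < I0 := by
    rw [hI0]
    exact intervalIntegral.intervalIntegral_pos_of_pos_on hA hApos hT
  have hI0' : I0 = ∫ t, A t ∂μ0 := by
    rw [hI0, hμ0, intervalIntegral.integral_of_le hT.le]
  have hA0 : 0 ≤ᵐ[μ0] A := hIoo.mono (fun t ht => (hApos t ht).le)
  have hdens : AEMeasurable (fun t => ENNReal.ofReal (A t)) μ0 :=
    hAi.aemeasurable.ennreal_ofReal
  have hlt : ∀ᵐ t ∂μ0, ENNReal.ofReal (A t) < ⊤ :=
    Filter.Eventually.of_forall fun t => ENNReal.ofReal_lt_top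
  obtain ⟨ν, hν⟩ : ∃ ν : Measure ℝ, ν = μ0.withDensity (fun t => ENNReal.ofReal (A t)) :=
    ⟨_, rfl⟩
  have hνuniv : ν univ = ENNReal.ofReal I0 := by
    rw [hν, withDensity_apply _ MeasurableSet.univ, Measure.restrict_univ, hI0',
      ofReal_integral_eq_lintegral_ofReal hAi hA0]
  have hfin : IsFiniteMeasure ν := ⟨by rw [hνuniv]; exact ENNReal.ofReal_lt_top⟩
  have hnz : NeZero ν := by
    refine ⟨fun h => ?_⟩
    have h2 := hνuniv
    rw [h] at h2
    simp only [Measure.coe_zero, Pi.zero_apply] at h2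
    have h3 : I0 ≤ 0 := ENNReal.ofReal_eq_zero.mp h2.symm
    linarith
  have hνreal : ν.real univ = I0 := by
    rw [Measure.real, hνuniv, ENNReal.toReal_ofReal hI0pos.le]
  have htoReal : ∀ᵐ t ∂μ0, (ENNReal.ofReal (A t)).toReal = A t :=
    hIoo.mono (fun t ht => ENNReal.toReal_ofReal (hApos t ht).le)
  -- integrals against the weighted measure
  have hint1 : ∫ t, Ψ (p t) ∂ν = ∫ t in (0:ℝ)..T, A t * Ψ (p t) := by
    rw [hν, integral_withDensity_eq_integral_toReal_smul₀ hdens hlt,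
      intervalIntegral.integral_of_le hT.le, ← hμ0]
    refine integral_congr_ae ?_
    filter_upwards [htoReal] with t ht
    rw [ht, smul_eq_mul]
  have hpair : ∀ᵐ t ∂μ0, (ENNReal.ofReal (A t)).toReal • p t = (2 * X t, 2 * Y t) := by
    filter_upwards [htoReal, hIoo] with t ht htI
    have hAne : A t ≠ 0 := (hApos t htI).ne'
    rw [ht, hp]
    simp only [Prod.smul_mk, smul_eq_mul]
    refine Prod.ext ?_ ?_
    · simp only
      field_simp
    · simp only
      field_simp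
  have hint2 : ∫ t, p t ∂ν
      = (2 * ∫ t in (0:ℝ)..T, X t, 2 * ∫ t in (0:ℝ)..T, Y t) := by
    rw [hν, integral_withDensity_eq_integral_toReal_smul₀ hdens hlt,
      integral_congr_ae hpair, integral_pair (hXi.const_mul 2) (hYi.const_mul 2),
      integral_const_mul, integral_const_mul,
      intervalIntegral.integral_of_le hT.le, intervalIntegral.integral_of_le hT.le, ← hμ0]
  have hfs : ∀ᵐ t ∂ν, p t ∈ D := by
    have hac : ν ≪ μ0 := by
      rw [hν]
      exact withDensity_absolutelyContinuous _ _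
    exact hac.ae_le (hIoo.mono (fun t ht => hpD t ht))
  have hfi : Integrable p ν := by
    rw [hν, integrable_withDensity_iff_integrable_smul₀' hdens hlt]
    exact (((hXi.const_mul 2).prodMk (hYi.const_mul 2)).congr
      (hpair.mono (fun t ht => ht.symm)))
  have hgi : Integrable (Ψ ∘ p) ν := by
    rw [hν, integrable_withDensity_iff_integrable_smul₀' hdens hlt]
    refine hF.congr ?_
    filter_upwards [htoReal] with t ht
    rw [ht, smul_eq_mul, Function.comp_apply]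
  have hJ := hΨ.le_map_average hΨc hDcomp.isClosed hfs hfi hgi
  rw [average_eq, average_eq, hνreal, hint1, hint2] at hJ
  have e1 : (fun t => A t * Ψ (2 * X t / A t, 2 * Y t / A t)) = fun t => A t * Ψ (p t) := by
    rw [hp]
  rw [e1, ← hI0]
  have e2 : I0⁻¹ • ((2 * ∫ t in (0:ℝ)..T, X t, 2 * ∫ t in (0:ℝ)..T, Y t) : ℝ × ℝ)
      = (2 * (∫ t in (0:ℝ)..T, X t) / I0, 2 * (∫ t in (0:ℝ)..T, Y t) / I0) := by
    simp only [Prod.smul_mk, smul_eq_mul]
    refine Prod.ext ?_ ?_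
    · simp only
      field_simp
    · simp only
      field_simp
  rw [e2, smul_eq_mul] at hJ
  have h5 := mul_le_mul_of_nonneg_left hJ hI0pos.le
  have e3 : I0 * (I0⁻¹ * ∫ t in (0:ℝ)..T, A t * Ψ (p t))
      = ∫ t in (0:ℝ)..T, A t * Ψ (p t) := by
    field_simp
  rw [e3] at h5
  exact h5

end Vale.Agent.Lib.P254
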