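import Vale.Agent.Lib.P254.LW.CEnd

open MeasureTheory Set

namespace Vale.Agent.Lib.P254

variable {a a' : ℝ} {f g2 g1 : ℝ → ℝ}

/-- The layer of the base region above height `t` is again a profile region: its extent is
`lwEnd a g2 t` and its profile is `min (f x) (lwEnd a' g1 t)`. -/
theorem lw_layer_prof (h : LWData a a' f g2 g1) {t : ℝ} (ht : t ∈ Ioo 0 (lwHmax g2 g1)) :
    LWProf (lwEnd a g2 t) (fun x => min (f x) (lwEnd a' g1 t)) ∧ lwEnd a g2 t ≤ a ∧
      ∀ x ∈ Icc (0:ℝ) (lwEnd a g2 t), min (f x) (lwEnd a' g1 t) ≤ a' := by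
  have ht2 : t < g2 0 := lt_of_lt_of_le ht.2 (min_le_left _ _)
  have ht1 : t < g1 0 := lt_of_lt_of_le ht.2 (min_le_right _ _)
  obtain ⟨hP0, hPa, -, -⟩ := lw_end_spec h.hg2 ht2
  obtain ⟨hQ0, hQa, -, -⟩ := lw_end_spec h.hg1 ht1
  have hsub : Icc (0:ℝ) (lwEnd a g2 t) ⊆ Icc 0 a := Icc_subset_Icc le_rfl hPa
  refine ⟨⟨hP0, ?_, ?_, ?_, ?_, ?_⟩, hPa,
    fun x hx => (min_le_left _ _).trans (h.hfa x (hsub hx))⟩
  · refine ⟨convex_Icc 0 _, fun x hx y hy s u hs hu hsu => ?_⟩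
    have h1 := h.hf.conc.2 (hsub hx) (hsub hy) hs hu hsu
    simp only [smul_eq_mul] at h1 ⊢
    refine le_min ?_ ?_
    · refine le_trans ?_ h1
      exact add_le_add (mul_le_mul_of_nonneg_left (min_le_left _ _) hs)
        (mul_le_mul_of_nonneg_left (min_le_left _ _) hu)
    · have h2 : s * min (f x) (lwEnd a' g1 t) + u * min (f y) (lwEnd a' g1 t) ≤
          s * lwEnd a' g1 t + u * lwEnd a' g1 t :=
        add_le_add (mul_le_mul_of_nonneg_left (min_le_right _ _) hs)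
          (mul_le_mul_of_nonneg_left (min_le_right _ _) hu)
      have h3 : s * lwEnd a' g1 t + u * lwEnd a' g1 t = lwEnd a' g1 t := by
        rw [← add_mul, hsu, one_mul]
      linarith
  · exact fun x hx y hy hxy => min_le_min (h.hf.anti (hsub hx) (hsub hy) hxy) le_rfl
  · exact ContinuousOn.inf (h.hf.cont.mono hsub) continuousOn_const
  · exact fun x hx => le_min (h.hf.nonneg x (hsub hx)) hQ0.le
  · exact lt_min h.hf.pos0 hQ0

/-- The integral over the layer above height `t`, written with an indicator, is the integral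
over the profile region of the layer. -/
theorem lw_layer_eq (h : LWData a a' f g2 g1) {t : ℝ} (ht : t ∈ Ioo 0 (lwHmax g2 g1))
    {G : ℝ → ℝ → ℝ} (hG : ContinuousOn (Function.uncurry G) (Icc 0 a ×ˢ Icc 0 a')) :
    lwLayer a a' f g2 g1 G t
      = lwRegInt (lwEnd a g2 t) (fun x => min (f x) (lwEnd a' g1 t)) G := by
  have _hG := hG
  have ht2 : t < g2 0 := lt_of_lt_of_le ht.2 (min_le_left _ _)
  have ht1 : t < g1 0 := lt_of_lt_of_le ht.2 (min_le_right _ _)
  obtain ⟨hP0, hPa, hPlt, hPge⟩ := lw_end_spec h.hg2 ht2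
  obtain ⟨hQ0, hQa, hQlt, hQge⟩ := lw_end_spec h.hg1 ht1
  obtain ⟨P, hP⟩ : ∃ P : ℝ, P = lwEnd a g2 t := ⟨_, rfl⟩
  obtain ⟨Q, hQ⟩ : ∃ Q : ℝ, Q = lwEnd a' g1 t := ⟨_, rfl⟩
  rw [← hP] at hP0 hPa hPlt hPge ⊢
  rw [← hQ] at hQ0 hQa hQlt hQge ⊢
  have ha : 0 ≤ a := h.hf.pos.le
  have ha' : 0 ≤ a' := h.hg1.pos.le
  have hQne : ∀ᵐ y ∂(volume : Measure ℝ), y ≠ Q := by
    rw [ae_iff]
    simp
  have hPne : ∀ᵐ x ∂(volume : Measure ℝ), x ≠ P := by
    rw [ae_iff]
    simp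
  unfold lwLayer lwRegInt lwRoof
  -- the inner integral to the left of `P`
  have hA : ∀ x ∈ Ico (0:ℝ) P,
      (∫ y in (0:ℝ)..a', if y ≤ f x ∧ t < min (g2 x) (g1 y) then G x y else 0) =
        ∫ y in (0:ℝ)..min (f x) Q, G x y := by
    intro x hx
    have hxa : x ∈ Icc (0:ℝ) a := ⟨hx.1, hx.2.le.trans hPa⟩
    have htx : t < g2 x := hPlt x hx
    have hc0 : 0 ≤ min (f x) Q := le_min (h.hf.nonneg x hxa) hQ0.le
    have hca : min (f x) Q ≤ a' := (min_le_right _ _).trans hQa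
    rw [intervalIntegral.integral_of_le ha', intervalIntegral.integral_of_le hc0]
    have hstep : ∫ y in Ioc (0:ℝ) a',
        (if y ≤ f x ∧ t < min (g2 x) (g1 y) then G x y else 0) =
          ∫ y in Ioc (0:ℝ) a', (Ioc (0:ℝ) (min (f x) Q)).indicator (G x) y := by
      refine setIntegral_congr_ae measurableSet_Ioc ?_
      filter_upwards [hQne] with y hy hya
      have hcond : (y ≤ f x ∧ t < min (g2 x) (g1 y)) ↔ y ∈ Ioc (0:ℝ) (min (f x) Q) := by
        constructor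
        · rintro ⟨hyf, hty⟩
          have hty1 : t < g1 y := lt_of_lt_of_le hty (min_le_right _ _)
          have hyQ : y < Q := by
            by_contra hge
            have hgt : Q < y := lt_of_le_of_ne (not_lt.mp hge) (Ne.symm hy)
            exact absurd hty1 (not_lt.mpr (hQge y ⟨hgt, hya.2⟩))
          exact ⟨hya.1, le_min hyf hyQ.le⟩
        · rintro ⟨-, hyc⟩
          have hyQ : y < Q := lt_of_le_of_ne (hyc.trans (min_le_right _ _)) hy
          exact ⟨hyc.trans (min_le_left _ _), lt_min htx (hQlt y ⟨hya.1.le, hyQ⟩)⟩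
      by_cases hmem : y ∈ Ioc (0:ℝ) (min (f x) Q)
      · rw [Set.indicator_of_mem hmem, if_pos (hcond.2 hmem)]
      · rw [Set.indicator_of_notMem hmem, if_neg (fun hc => hmem (hcond.1 hc))]
    rw [hstep, setIntegral_indicator measurableSet_Ioc,
      Set.inter_eq_right.mpr (Ioc_subset_Ioc le_rfl hca)]
  -- the inner integral to the right of `P`
  have hB : ∀ x ∈ Ioc P a,
      (∫ y in (0:ℝ)..a', if y ≤ f x ∧ t < min (g2 x) (g1 y) then G x y else 0) = 0 := by
    intro x hx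
    have hgx : g2 x ≤ t := hPge x hx
    have h0 : ∀ y : ℝ, (if y ≤ f x ∧ t < min (g2 x) (g1 y) then G x y else 0) = 0 :=
      fun y => if_neg (fun hc => not_lt.mpr hgx (lt_of_lt_of_le hc.2 (min_le_left _ _)))
    simp only [h0]
    exact intervalIntegral.integral_zero
  rw [intervalIntegral.integral_of_le ha, intervalIntegral.integral_of_le hP0.le]
  have hstep : ∫ x in Ioc (0:ℝ) a,
      (∫ y in (0:ℝ)..a', if y ≤ f x ∧ t < min (g2 x) (g1 y) then G x y else 0) =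
        ∫ x in Ioc (0:ℝ) a,
          (Ioc (0:ℝ) P).indicator (fun x => ∫ y in (0:ℝ)..min (f x) Q, G x y) x := by
    refine setIntegral_congr_ae measurableSet_Ioc ?_
    filter_upwards [hPne] with x hx hxa
    rcases lt_or_gt_of_ne hx with hlt | hgt
    · rw [Set.indicator_of_mem (show x ∈ Ioc (0:ℝ) P from ⟨hxa.1, hlt.le⟩)]
      exact hA x ⟨hxa.1.le, hlt⟩
    · rw [Set.indicator_of_notMem (fun hc : x ∈ Ioc (0:ℝ) P => not_lt.mpr hc.2 hgt)]
      exact hB x ⟨hgt, hxa.2⟩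
  rw [hstep, setIntegral_indicator measurableSet_Ioc,
    Set.inter_eq_right.mpr (Ioc_subset_Ioc le_rfl hPa)]

end Vale.Agent.Lib.P254
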