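import Vale.Agent.Lib.P254.LW.CDefs

open MeasureTheory Set

namespace Vale.Agent.Lib.P254

variable {a a' : ℝ} {f g2 g1 : ℝ → ℝ}

/-- On the box the roof lies between `0` and its maximum. -/
theorem lwc_point_roof_mem (h : LWData a a' f g2 g1) {x y : ℝ} (hx : x ∈ Icc 0 a)
    (hy : y ∈ Icc 0 a') :
    0 ≤ lwRoof g2 g1 x y ∧ lwRoof g2 g1 x y ≤ lwHmax g2 g1 := by
  have h0a : (0:ℝ) ∈ Icc 0 a := left_mem_Icc.2 h.hg2.pos.le
  have h0a' : (0:ℝ) ∈ Icc 0 a' := left_mem_Icc.2 h.hg1.pos.le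
  have h1 := h.hg2.nonneg x hx
  have h2 := h.hg1.nonneg y hy
  have h3 := h.hg2.anti h0a hx hx.1
  have h4 := h.hg1.anti h0a' hy hy.1
  unfold lwRoof lwHmax
  exact ⟨le_min h1 h2, min_le_min h3 h4⟩

/-- The integral over the heights of the indicator of the heights below `r`. -/
theorem lwc_point_height {T r : ℝ} (hr0 : 0 ≤ r) (hrT : r ≤ T) (c : ℝ) :
    ∫ t in Ioc 0 T, (if t < r then c else 0) = c * r := by
  have e1 : (fun t : ℝ => if t < r then c else 0) = (Iio r).indicator (fun _ => c) := by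
    funext t
    by_cases ht : t < r
    · rw [indicator_of_mem (show t ∈ Iio r from ht), if_pos ht]
    · rw [indicator_of_notMem (show t ∉ Iio r from ht), if_neg ht]
  have e2 : Ioc 0 T ∩ Iio r = Ioo 0 r := by
    ext t
    constructor
    · rintro ⟨⟨h1, _⟩, h3⟩
      exact ⟨h1, h3⟩
    · rintro ⟨h1, h3⟩
      exact ⟨⟨h1, (le_of_lt h3).trans hrT⟩, h3⟩
  rw [e1, setIntegral_indicator measurableSet_Iio, e2, setIntegral_const,
    Real.volume_real_Ioo_of_le hr0, smul_eq_mul, sub_zero, mul_comm]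

/-- Pointwise layer cake: the roof is the length of the set of heights below it, and the
region under the profile `f` is cut out of the box `[0, a] × [0, a']` by an indicator. -/
theorem lw_layer_point (h : LWData a a' f g2 g1) {G : ℝ → ℝ → ℝ}
    (hG : ContinuousOn (Function.uncurry G) (Icc 0 a ×ˢ Icc 0 a')) :
    lwRegInt a f (fun x y => G x y * lwRoof g2 g1 x y)
      = ∫ x in (0:ℝ)..a, ∫ y in (0:ℝ)..a', ∫ t in (0:ℝ)..lwHmax g2 g1,
          if y ≤ f x ∧ t < lwRoof g2 g1 x y then G x y else 0 := by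
  have ha := h.hf.pos
  have ha' := h.hg1.pos
  have hH : 0 < lwHmax g2 g1 := lt_min h.hg2.pos0 h.hg1.pos0
  unfold lwRegInt
  refine intervalIntegral.integral_congr fun x hx => ?_
  rw [uIcc_of_le ha.le] at hx
  have fx0 := h.hf.nonneg x hx
  have fxa := h.hfa x hx
  have hinner : ∀ y ∈ Ioc 0 a', (∫ t in (0:ℝ)..lwHmax g2 g1,
      if y ≤ f x ∧ t < lwRoof g2 g1 x y then G x y else 0)
        = (Iic (f x)).indicator (fun y => G x y * lwRoof g2 g1 x y) y := by
    intro y hy
    have hy' : y ∈ Icc 0 a' := Ioc_subset_Icc_self hy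
    obtain ⟨r0, r1⟩ := lwc_point_roof_mem h hx hy'
    rw [intervalIntegral.integral_of_le hH.le]
    by_cases hyf : y ≤ f x
    · rw [indicator_of_mem (show y ∈ Iic (f x) from hyf)]
      have e1 : (fun t : ℝ => if y ≤ f x ∧ t < lwRoof g2 g1 x y then G x y else 0)
          = fun t : ℝ => if t < lwRoof g2 g1 x y then G x y else 0 := by
        funext t
        by_cases ht : t < lwRoof g2 g1 x y
        · rw [if_pos (And.intro hyf ht), if_pos ht]
        · rw [if_neg (fun hh : y ≤ f x ∧ t < lwRoof g2 g1 x y => ht hh.2), if_neg ht]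
      rw [e1]
      exact lwc_point_height r0 r1 (G x y)
    · rw [indicator_of_notMem (show y ∉ Iic (f x) from hyf)]
      have e1 : (fun t : ℝ => if y ≤ f x ∧ t < lwRoof g2 g1 x y then G x y else 0)
          = fun _ : ℝ => (0:ℝ) := by
        funext t
        rw [if_neg (fun hh : y ≤ f x ∧ t < lwRoof g2 g1 x y => hyf hh.1)]
      rw [e1]
      simp
  have e3 : Ioc 0 a' ∩ Iic (f x) = Ioc 0 (f x) := by
    ext y
    constructor
    · rintro ⟨⟨h1, _⟩, h3⟩
      exact ⟨h1, h3⟩
    · rintro ⟨h1, h3⟩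
      exact ⟨⟨h1, h3.trans fxa⟩, h3⟩
  show (∫ y in (0:ℝ)..f x, G x y * lwRoof g2 g1 x y)
    = ∫ y in (0:ℝ)..a', ∫ t in (0:ℝ)..lwHmax g2 g1,
        if y ≤ f x ∧ t < lwRoof g2 g1 x y then G x y else 0
  rw [intervalIntegral.integral_of_le fx0, intervalIntegral.integral_of_le ha'.le,
    setIntegral_congr_fun measurableSet_Ioc hinner, setIntegral_indicator measurableSet_Iic, e3]

end Vale.Agent.Lib.P254
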