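import Vale.Agent.Lib.P254.LW.CDefs

open MeasureTheory Set

namespace Vale.Agent.Lib.P254

variable {a a' : ℝ} {g2 g1 : ℝ → ℝ}

/-- A point of `[0, c]` scaled by a factor in `[0, 1]` stays in `[0, c]`. -/
lemma lwc_psi_mem {c p u : ℝ} (hp : p ∈ Icc 0 c) (hu : u ∈ Icc (0:ℝ) 1) : p * u ∈ Icc 0 c :=
  ⟨mul_nonneg hp.1 hu.1, by nlinarith [mul_nonneg hp.1 (sub_nonneg.mpr hu.2), hp.2]⟩

/-- The inner integrand is interval integrable. -/
lemma lwc_psi_inner (hg1 : LWProf a' g1) {q : ℝ} (hq : q ∈ Icc 0 a') (A : ℝ) :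
    IntervalIntegrable (fun v => min A (g1 (q * v))) volume 0 1 := by
  apply ContinuousOn.intervalIntegrable
  rw [uIcc_of_le zero_le_one]
  have h : ContinuousOn (fun v => g1 (q * v)) (Icc 0 1) :=
    hg1.cont.comp' (f := fun v => q * v) (by fun_prop) (fun v hv => lwc_psi_mem hq hv)
  exact continuous_min.comp_continuousOn (continuousOn_const.prodMk h)

/-- The outer integrand is interval integrable. -/
lemma lwc_psi_outer (hg2 : LWProf a g2) (hg1 : LWProf a' g1) {p q : ℝ} (hp : p ∈ Icc 0 a)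
    (hq : q ∈ Icc 0 a') :
    IntervalIntegrable (fun u => ∫ v in (0:ℝ)..1, min (g2 (p * u)) (g1 (q * v))) volume 0 1 := by
  apply AntitoneOn.intervalIntegrable
  rw [uIcc_of_le zero_le_one]
  intro u hu u' hu' huu'
  apply intervalIntegral.integral_mono_on zero_le_one (lwc_psi_inner hg1 hq _)
    (lwc_psi_inner hg1 hq _)
  intro v _
  apply min_le_min_right
  exact hg2.anti (lwc_psi_mem hp hu) (lwc_psi_mem hp hu') (mul_le_mul_of_nonneg_left huu' hp.1)

/-- The pointwise concavity inequality for the roof in unit coordinates. -/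
lemma lwc_psi_point (hg2 : LWProf a g2) (hg1 : LWProf a' g1) {p p' q q' s s' : ℝ}
    (hp : p ∈ Icc 0 a) (hp' : p' ∈ Icc 0 a) (hq : q ∈ Icc 0 a') (hq' : q' ∈ Icc 0 a')
    (hs : 0 ≤ s) (hs' : 0 ≤ s') (hss : s + s' = 1) {u v : ℝ} (hu : u ∈ Icc (0:ℝ) 1)
    (hv : v ∈ Icc (0:ℝ) 1) :
    s * min (g2 (p * u)) (g1 (q * v)) + s' * min (g2 (p' * u)) (g1 (q' * v))
      ≤ min (g2 ((s * p + s' * p') * u)) (g1 ((s * q + s' * q') * v)) := by
  have h2 := hg2.conc.2 (lwc_psi_mem hp hu) (lwc_psi_mem hp' hu) hs hs' hss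
  have h1 := hg1.conc.2 (lwc_psi_mem hq hv) (lwc_psi_mem hq' hv) hs hs' hss
  simp only [smul_eq_mul] at h2 h1
  have ex : (s * p + s' * p') * u = s * (p * u) + s' * (p' * u) := by ring
  have ey : (s * q + s' * q') * v = s * (q * v) + s' * (q' * v) := by ring
  rw [ex, ey]
  apply le_min
  · refine le_trans ?_ h2
    exact add_le_add (mul_le_mul_of_nonneg_left (min_le_left _ _) hs)
      (mul_le_mul_of_nonneg_left (min_le_left _ _) hs')
  · refine le_trans ?_ h1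
    exact add_le_add (mul_le_mul_of_nonneg_left (min_le_right _ _) hs)
      (mul_le_mul_of_nonneg_left (min_le_right _ _) hs')

/-- The integral of the roof over a box is the area of the box times `lwPsi`. -/
theorem lw_psi_box (g2 g1 : ℝ → ℝ) {c1 c2 : ℝ} (hc1 : 0 < c1) (hc2 : 0 < c2) :
    lwBoxInt c1 c2 (lwRoof g2 g1) = c1 * c2 * lwPsi g2 g1 (c1, c2) := by
  have _ := hc1
  have _ := hc2
  have h1 : ∀ u : ℝ, c2 * ∫ v in (0:ℝ)..1, lwRoof g2 g1 (c1 * u) (c2 * v)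
      = ∫ y in (0:ℝ)..c2, lwRoof g2 g1 (c1 * u) y := by
    intro u
    have h := intervalIntegral.mul_integral_comp_mul_left (a := 0) (b := 1)
      (f := fun y => lwRoof g2 g1 (c1 * u) y) c2
    rw [mul_zero, mul_one] at h
    exact h
  have h2 : c1 * ∫ u in (0:ℝ)..1, (∫ y in (0:ℝ)..c2, lwRoof g2 g1 (c1 * u) y)
      = ∫ x in (0:ℝ)..c1, ∫ y in (0:ℝ)..c2, lwRoof g2 g1 x y := by
    have h := intervalIntegral.mul_integral_comp_mul_left (a := 0) (b := 1)
      (f := fun x => ∫ y in (0:ℝ)..c2, lwRoof g2 g1 x y) c1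
    rw [mul_zero, mul_one] at h
    exact h
  show (∫ x in (0:ℝ)..c1, ∫ y in (0:ℝ)..c2, lwRoof g2 g1 x y)
    = c1 * c2 * ∫ u in (0:ℝ)..1, ∫ v in (0:ℝ)..1, lwRoof g2 g1 (c1 * u) (c2 * v)
  rw [← h2, mul_assoc]
  congr 1
  rw [← intervalIntegral.integral_const_mul]
  apply intervalIntegral.integral_congr
  intro u _
  exact (h1 u).symm

/-- `lwPsi` is concave on the box `[0, a] × [0, a']`. -/
theorem lw_psi_concave (hg2 : LWProf a g2) (hg1 : LWProf a' g1) :
    ConcaveOn ℝ (Icc 0 a ×ˢ Icc 0 a') (lwPsi g2 g1) := by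
  refine ⟨(convex_Icc _ _).prod (convex_Icc _ _), ?_⟩
  rintro ⟨p, q⟩ hc ⟨p', q'⟩ hc' s s' hs hs' hss
  have hp : p ∈ Icc 0 a := hc.1
  have hq : q ∈ Icc 0 a' := hc.2
  have hp' : p' ∈ Icc 0 a := hc'.1
  have hq' : q' ∈ Icc 0 a' := hc'.2
  have hp'' : s * p + s' * p' ∈ Icc 0 a := by
    have h := (convex_Icc (0:ℝ) a) hp hp' hs hs' hss
    simp only [smul_eq_mul] at h
    exact h
  have hq'' : s * q + s' * q' ∈ Icc 0 a' := by
    have h := (convex_Icc (0:ℝ) a') hq hq' hs hs' hss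
    simp only [smul_eq_mul] at h
    exact h
  have e : s • ((p, q) : ℝ × ℝ) + s' • ((p', q') : ℝ × ℝ)
      = (s * p + s' * p', s * q + s' * q') := by
    simp
  rw [e]
  show s * (∫ u in (0:ℝ)..1, ∫ v in (0:ℝ)..1, min (g2 (p * u)) (g1 (q * v)))
      + s' * (∫ u in (0:ℝ)..1, ∫ v in (0:ℝ)..1, min (g2 (p' * u)) (g1 (q' * v)))
    ≤ ∫ u in (0:ℝ)..1, ∫ v in (0:ℝ)..1,
        min (g2 ((s * p + s' * p') * u)) (g1 ((s * q + s' * q') * v))
  rw [← intervalIntegral.integral_const_mul, ← intervalIntegral.integral_const_mul,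
    ← intervalIntegral.integral_add ((lwc_psi_outer hg2 hg1 hp hq).const_mul s)
      ((lwc_psi_outer hg2 hg1 hp' hq').const_mul s')]
  apply intervalIntegral.integral_mono_on zero_le_one
    (((lwc_psi_outer hg2 hg1 hp hq).const_mul s).add
      ((lwc_psi_outer hg2 hg1 hp' hq').const_mul s'))
    (lwc_psi_outer hg2 hg1 hp'' hq'')
  intro u hu
  show s * (∫ v in (0:ℝ)..1, min (g2 (p * u)) (g1 (q * v)))
      + s' * (∫ v in (0:ℝ)..1, min (g2 (p' * u)) (g1 (q' * v)))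
    ≤ ∫ v in (0:ℝ)..1, min (g2 ((s * p + s' * p') * u)) (g1 ((s * q + s' * q') * v))
  rw [← intervalIntegral.integral_const_mul, ← intervalIntegral.integral_const_mul,
    ← intervalIntegral.integral_add ((lwc_psi_inner hg1 hq _).const_mul s)
      ((lwc_psi_inner hg1 hq' _).const_mul s')]
  apply intervalIntegral.integral_mono_on zero_le_one
    (((lwc_psi_inner hg1 hq _).const_mul s).add ((lwc_psi_inner hg1 hq' _).const_mul s'))
    (lwc_psi_inner hg1 hq'' _)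
  intro v hv
  exact lwc_psi_point hg2 hg1 hp hp' hq hq' hs hs' hss hu hv

end Vale.Agent.Lib.P254
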