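import Vale.Agent.Lib.P254.LW.CDefs

open MeasureTheory Set

namespace Vale.Agent.Lib.P254

variable {a a' : ℝ} {g2 g1 : ℝ → ℝ}

/-- A function continuous on `[0, c]`, composed with the clamp to `[0, c]`, is continuous. -/
theorem lwc_psicont_clamp_cont {c : ℝ} {g : ℝ → ℝ} (hc : 0 ≤ c)
    (hg : ContinuousOn g (Icc 0 c)) : Continuous (fun x => g (max 0 (min x c))) :=
  hg.comp_continuous (by fun_prop)
    (fun x => ⟨le_max_left _ _, max_le hc (min_le_right _ _)⟩)

/-- The clamp to `[0, c]` is the identity on `[0, c]`. -/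
theorem lwc_psicont_clamp_eq {c x : ℝ} (hx : x ∈ Icc 0 c) : max 0 (min x c) = x := by
  rw [min_eq_left hx.2, max_eq_right hx.1]

/-- The box average of the roof of two globally continuous functions is continuous. -/
theorem lwc_psicont_aux {G2 G1 : ℝ → ℝ} (h2 : Continuous G2) (h1 : Continuous G1) :
    Continuous (fun c : ℝ × ℝ =>
      ∫ u in (0:ℝ)..1, ∫ v in (0:ℝ)..1, min (G2 (c.1 * u)) (G1 (c.2 * v))) := by
  have hinner : Continuous (fun p : (ℝ × ℝ) × ℝ =>
      ∫ v in (0:ℝ)..1, min (G2 (p.1.1 * p.2)) (G1 (p.1.2 * v))) := by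
    refine intervalIntegral.continuous_parametric_intervalIntegral_of_continuous'
      (f := fun (p : (ℝ × ℝ) × ℝ) (v : ℝ) => min (G2 (p.1.1 * p.2)) (G1 (p.1.2 * v))) ?_ 0 1
    have hcont : Continuous (fun q : ((ℝ × ℝ) × ℝ) × ℝ =>
        min (G2 (q.1.1.1 * q.1.2)) (G1 (q.1.1.2 * q.2))) := by fun_prop
    exact hcont
  exact intervalIntegral.continuous_parametric_intervalIntegral_of_continuous'
    (f := fun (c : ℝ × ℝ) (u : ℝ) => ∫ v in (0:ℝ)..1, min (G2 (c.1 * u)) (G1 (c.2 * v)))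
    hinner 0 1

/-- `lwPsi` is continuous on the box `[0, a] × [0, a']`. -/
theorem lw_psi_cont (hg2 : LWProf a g2) (hg1 : LWProf a' g1) :
    ContinuousOn (lwPsi g2 g1) (Icc 0 a ×ˢ Icc 0 a') := by
  have hc := lwc_psicont_aux (lwc_psicont_clamp_cont hg2.pos.le hg2.cont)
    (lwc_psicont_clamp_cont hg1.pos.le hg1.cont)
  refine hc.continuousOn.congr ?_
  intro c hc'
  obtain ⟨h1, h2⟩ := hc'
  unfold lwPsi lwRoof
  refine intervalIntegral.integral_congr (fun u hu => ?_)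
  rw [uIcc_of_le zero_le_one] at hu
  refine intervalIntegral.integral_congr (fun v hv => ?_)
  rw [uIcc_of_le zero_le_one] at hv
  have e1 : max 0 (min (c.1 * u) a) = c.1 * u :=
    lwc_psicont_clamp_eq ⟨mul_nonneg h1.1 hu.1, (mul_le_of_le_one_right h1.1 hu.2).trans h1.2⟩
  have e2 : max 0 (min (c.2 * v) a') = c.2 * v :=
    lwc_psicont_clamp_eq ⟨mul_nonneg h2.1 hv.1, (mul_le_of_le_one_right h2.1 hv.2).trans h2.2⟩
  simp only [e1, e2]

end Vale.Agent.Lib.P254
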