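import Vale.Agent.Lib.P254.LW.Defs
import Vale.Agent.Lib.P254.LW.MonoJensen
import Vale.Agent.Lib.P254.LW.Basic

open MeasureTheory Set

namespace Vale.Agent.Lib.P254

/-- The area of a profile region as a one-dimensional integral. -/
theorem lwc_reg_one (p : ℝ) (F : ℝ → ℝ) :
    lwRegInt p F (fun _ _ => 1) = ∫ x in (0:ℝ)..p, F x := by
  unfold lwRegInt
  congr 1
  funext x
  rw [intervalIntegral.integral_const, smul_eq_mul, sub_zero, mul_one]

/-- The first moment in `x` of a profile region as a one-dimensional integral. -/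
theorem lwc_reg_x (p : ℝ) (F : ℝ → ℝ) :
    lwRegInt p F (fun x _ => x) = ∫ x in (0:ℝ)..p, x * F x := by
  unfold lwRegInt
  congr 1
  funext x
  rw [intervalIntegral.integral_const, smul_eq_mul, sub_zero, mul_comm]

/-- The first moment in `y` of a profile region as a one-dimensional integral. -/
theorem lwc_reg_y (p : ℝ) (F : ℝ → ℝ) :
    lwRegInt p F (fun _ y => y) = ∫ x in (0:ℝ)..p, F x ^ 2 / 2 := by
  unfold lwRegInt
  congr 1
  funext x
  rw [integral_id]
  ring

theorem lwc_reg_contF {p : ℝ} {F : ℝ → ℝ} (hF : LWProf p F) :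
    ContinuousOn F (uIcc 0 p) := by
  rw [uIcc_of_le hF.pos.le]
  exact hF.cont

theorem lwc_reg_int_one {p : ℝ} {F : ℝ → ℝ} (hF : LWProf p F) :
    IntervalIntegrable F volume 0 p :=
  (lwc_reg_contF hF).intervalIntegrable

theorem lwc_reg_int_x {p : ℝ} {F : ℝ → ℝ} (hF : LWProf p F) :
    IntervalIntegrable (fun x => x * F x) volume 0 p :=
  (continuousOn_id.mul (lwc_reg_contF hF)).intervalIntegrable

theorem lwc_reg_int_y {p : ℝ} {F : ℝ → ℝ} (hF : LWProf p F) :
    IntervalIntegrable (fun x => F x ^ 2 / 2) volume 0 p :=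
  (((lwc_reg_contF hF).pow 2).div_const 2).intervalIntegrable

theorem lwc_reg_int_c {p : ℝ} {F : ℝ → ℝ} (hF : LWProf p F) (c : ℝ) :
    IntervalIntegrable (fun x => c * F x) volume 0 p :=
  (continuousOn_const.mul (lwc_reg_contF hF)).intervalIntegrable

/-- Area and first moments of a profile region are positive. -/
theorem lw_reg_pos {p : ℝ} {F : ℝ → ℝ} (hF : LWProf p F) :
    0 < lwRegInt p F (fun _ _ => 1) ∧ 0 < lwRegInt p F (fun x _ => x) ∧
      0 < lwRegInt p F (fun _ y => y) := by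
  have hpos : ∀ x ∈ Ioo (0:ℝ) p, 0 < F x := fun x hx => lwb_prof_pos hF ⟨hx.1.le, hx.2⟩
  refine ⟨?_, ?_, ?_⟩
  · rw [lwc_reg_one]
    exact intervalIntegral.intervalIntegral_pos_of_pos_on (lwc_reg_int_one hF) hpos hF.pos
  · rw [lwc_reg_x]
    exact intervalIntegral.intervalIntegral_pos_of_pos_on (lwc_reg_int_x hF)
      (fun x hx => mul_pos hx.1 (hpos x hx)) hF.pos
  · rw [lwc_reg_y]
    exact intervalIntegral.intervalIntegral_pos_of_pos_on (lwc_reg_int_y hF)
      (fun x hx => div_pos (pow_pos (hpos x hx) 2) two_pos) hF.pos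

/-- Twice the centroid of a profile region lies in the bounding box of the region. -/
theorem lw_reg_centroid {p : ℝ} {F : ℝ → ℝ} (hF : LWProf p F) :
    2 * lwRegInt p F (fun x _ => x) / lwRegInt p F (fun _ _ => 1) ≤ p ∧
      2 * lwRegInt p F (fun _ y => y) / lwRegInt p F (fun _ _ => 1) ≤ F 0 := by
  have hA := (lw_reg_pos hF).1
  have h0 : (0:ℝ) ∈ Icc 0 p := left_mem_Icc.mpr hF.pos.le
  constructor
  · rw [div_le_iff₀ hA, lwc_reg_x, lwc_reg_one]
    have h := LW.antitone_centroid_le hF.pos.le hF.anti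
    linarith
  · rw [div_le_iff₀ hA, lwc_reg_y, lwc_reg_one]
    have hm : ∫ x in (0:ℝ)..p, F x ^ 2 / 2 ≤ ∫ x in (0:ℝ)..p, F 0 / 2 * F x := by
      apply intervalIntegral.integral_mono_on hF.pos.le (lwc_reg_int_y hF)
        (lwc_reg_int_c hF (F 0 / 2))
      intro x hx
      have hx0 : 0 ≤ F x := hF.nonneg x hx
      have hx1 : F x ≤ F 0 := hF.anti h0 hx hx.1
      nlinarith
    have hc : ∫ x in (0:ℝ)..p, F 0 / 2 * F x = F 0 / 2 * ∫ x in (0:ℝ)..p, F x :=
      intervalIntegral.integral_const_mul (F 0 / 2) F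
    rw [hc] at hm
    linarith

end Vale.Agent.Lib.P254
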