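import Mathlib

open MeasureTheory Set

namespace Vale.Agent.Lib.P254

/-- A planar profile on `[0, a]`: concave, nonincreasing, continuous, nonnegative,
positive at `0`. The planar corner it describes is `{0 ≤ x ≤ a, 0 ≤ y ≤ f x}`. -/
structure LWProf (a : ℝ) (f : ℝ → ℝ) : Prop where
  pos : 0 < a
  conc : ConcaveOn ℝ (Icc 0 a) f
  anti : AntitoneOn f (Icc 0 a)
  cont : ContinuousOn f (Icc 0 a)
  nonneg : ∀ x ∈ Icc (0:ℝ) a, 0 ≤ f x
  pos0 : 0 < f 0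

/-- The roof of a Loomis-Whitney type body: `min (g2 x) (g1 y)`. -/
def lwRoof (g2 g1 : ℝ → ℝ) (x y : ℝ) : ℝ := min (g2 x) (g1 y)

/-- Integral of `F` over the planar region `{0 ≤ x ≤ a, 0 ≤ y ≤ f x}` (iterated). -/
noncomputable def lwRegInt (a : ℝ) (f : ℝ → ℝ) (F : ℝ → ℝ → ℝ) : ℝ :=
  ∫ x in (0:ℝ)..a, ∫ y in (0:ℝ)..f x, F x y

/-- Integral of `F` over the box `[0, U] × [0, W]` (iterated). -/
noncomputable def lwBoxInt (U W : ℝ) (F : ℝ → ℝ → ℝ) : ℝ :=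
  ∫ x in (0:ℝ)..U, ∫ y in (0:ℝ)..W, F x y

/-- Volume of `{0 ≤ x ≤ a, 0 ≤ y ≤ f x, 0 ≤ z ≤ min (g2 x) (g1 y)}`. -/
noncomputable def lwVol (a : ℝ) (f g2 g1 : ℝ → ℝ) : ℝ :=
  lwRegInt a f (lwRoof g2 g1)

/-- First moment in `x` of the same body. -/
noncomputable def lwMomX (a : ℝ) (f g2 g1 : ℝ → ℝ) : ℝ :=
  lwRegInt a f (fun x y => x * lwRoof g2 g1 x y)

/-- First moment in `y` of the same body. -/
noncomputable def lwMomY (a : ℝ) (f g2 g1 : ℝ → ℝ) : ℝ :=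
  lwRegInt a f (fun x y => y * lwRoof g2 g1 x y)

/-- Twice the first moment in `z` of the same body: the integral of the squared roof. -/
noncomputable def lwMomZ2 (a : ℝ) (f g2 g1 : ℝ → ℝ) : ℝ :=
  lwRegInt a f (fun x y => lwRoof g2 g1 x y ^ 2)

/-- Twice the `x`-centroid of the body. -/
noncomputable def lwU (a : ℝ) (f g2 g1 : ℝ → ℝ) : ℝ :=
  2 * lwMomX a f g2 g1 / lwVol a f g2 g1

/-- Twice the `y`-centroid of the body. -/
noncomputable def lwW (a : ℝ) (f g2 g1 : ℝ → ℝ) : ℝ :=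
  2 * lwMomY a f g2 g1 / lwVol a f g2 g1

/-- The standing hypotheses: base profile `f` on `[0, a]` with values in `[0, a']`,
roof profiles `g2` on `[0, a]` and `g1` on `[0, a']`. -/
structure LWData (a a' : ℝ) (f g2 g1 : ℝ → ℝ) : Prop where
  hf : LWProf a f
  hg2 : LWProf a g2
  hg1 : LWProf a' g1
  hfa : ∀ x ∈ Icc (0:ℝ) a, f x ≤ a'

end Vale.Agent.Lib.P254
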