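import Vale.Agent.Lib.P254.LW.Defs
import Vale.Agent.Lib.P254.Sym.OneDa

open MeasureTheory Set

namespace Vale.Agent.Lib.P254

/-- The even extension by zero of a profile on `[0, p]`. -/
private noncomputable def i22v (p : ℝ) (F : ℝ → ℝ) (t : ℝ) : ℝ :=
  if |t| ≤ p then F |t| else 0

private lemma i22v_in {p : ℝ} {F : ℝ → ℝ} {t : ℝ} (h0 : 0 ≤ t) (hp : t ≤ p) :
    i22v p F t = F t := by
  unfold i22v
  rw [abs_of_nonneg h0, if_pos hp]

private lemma i22v_out {p : ℝ} {F : ℝ → ℝ} {t : ℝ} (hp : p < |t|) : i22v p F t = 0 := by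
  unfold i22v
  rw [if_neg (not_le.mpr hp)]

private lemma i22v_nonneg {p : ℝ} {F : ℝ → ℝ} (hF : LWProf p F) (t : ℝ) : 0 ≤ i22v p F t := by
  unfold i22v
  split_ifs with h
  · exact hF.nonneg _ ⟨abs_nonneg t, h⟩
  · exact le_rfl

private lemma i22v_measurable {p : ℝ} {F : ℝ → ℝ} (hF : LWProf p F) :
    Measurable (i22v p F) := by
  have hs : MeasurableSet {t : ℝ | |t| ≤ p} :=
    measurableSet_le continuous_abs.measurable measurable_const
  have hc : ContinuousOn (fun t : ℝ => F |t|) {t : ℝ | |t| ≤ p} := by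
    refine hF.cont.comp continuous_abs.continuousOn (fun t ht => ?_)
    exact ⟨abs_nonneg t, ht⟩
  have h := ContinuousOn.measurable_piecewise (f := fun t : ℝ => F |t|)
    (g := fun _ : ℝ => (0:ℝ)) hc continuousOn_const hs
  have e : i22v p F = Set.piecewise {t : ℝ | |t| ≤ p} (fun t : ℝ => F |t|) (fun _ => (0:ℝ)) := by
    funext t
    unfold i22v
    by_cases h' : |t| ≤ p
    · rw [if_pos h', Set.piecewise_eq_of_mem _ _ _ (show t ∈ {t : ℝ | |t| ≤ p} from h')]
    · rw [if_neg h', Set.piecewise_eq_of_notMem _ _ _ (show t ∉ {t : ℝ | |t| ≤ p} from h')]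
  rw [e]
  exact h

/-- A nonnegative concave function is log-concave, in the four-point form. -/
private lemma i22_four {p : ℝ} {F : ℝ → ℝ} (hF : LWProf p F) {x y r : ℝ} (hx : 0 ≤ x)
    (hxy : x ≤ y) (hr : 0 ≤ r) (hyr : y + r ≤ p) : F x * F (y + r) ≤ F (x + r) * F y := by
  have hxm : x ∈ Icc (0:ℝ) p := ⟨hx, by linarith⟩
  have hdm : y + r ∈ Icc (0:ℝ) p := ⟨by linarith, hyr⟩
  have hA := hF.nonneg x hxm
  have hD := hF.nonneg (y + r) hdm
  rcases (show x ≤ y + r by linarith).eq_or_lt with heq | hlt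
  · have hr0 : r = 0 := by linarith
    have hxy' : x = y := by linarith
    rw [hr0, hxy']
    simp
  · set d := y + r - x with hd
    have hdpos : 0 < d := by rw [hd]; linarith
    set lam := r / d with hlam
    have hl0 : 0 ≤ lam := div_nonneg hr hdpos.le
    have hl1 : lam ≤ 1 := by
      rw [hlam, div_le_one hdpos, hd]
      linarith
    have hld : lam * d = r := by
      rw [hlam]
      field_simp
    have h1 := hF.conc.2 hxm hdm (sub_nonneg.mpr hl1) hl0 (by ring)
    have h2 := hF.conc.2 hxm hdm hl0 (sub_nonneg.mpr hl1) (by ring)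
    simp only [smul_eq_mul] at h1 h2
    have e1 : (1 - lam) * x + lam * (y + r) = x + r := by
      have : (1 - lam) * x + lam * (y + r) = x + lam * d := by rw [hd]; ring
      rw [this, hld]
    have e2 : lam * x + (1 - lam) * (y + r) = y := by
      have : lam * x + (1 - lam) * (y + r) = y + r - lam * d := by rw [hd]; ring
      rw [this, hld]
      ring
    rw [e1] at h1
    rw [e2] at h2
    set A := F x
    set D := F (y + r)
    have hP1 : 0 ≤ (1 - lam) * A + lam * D :=
      add_nonneg (mul_nonneg (sub_nonneg.mpr hl1) hA) (mul_nonneg hl0 hD)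
    have hP2 : 0 ≤ lam * A + (1 - lam) * D :=
      add_nonneg (mul_nonneg hl0 hA) (mul_nonneg (sub_nonneg.mpr hl1) hD)
    have hprod : ((1 - lam) * A + lam * D) * (lam * A + (1 - lam) * D) ≤ F (x + r) * F y :=
      mul_le_mul h1 h2 hP2 (le_trans hP1 h1)
    have halg : A * D ≤ ((1 - lam) * A + lam * D) * (lam * A + (1 - lam) * D) := by
      have hsq : 0 ≤ lam * (1 - lam) * (A - D) ^ 2 :=
        mul_nonneg (mul_nonneg hl0 (sub_nonneg.mpr hl1)) (sq_nonneg _)
      nlinarith [hsq]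
    exact le_trans halg hprod

private lemma i22v_adm {p : ℝ} {F : ℝ → ℝ} (hF : LWProf p F) : Adm (i22v p F) where
  meas := i22v_measurable hF
  nonneg := i22v_nonneg hF
  even := fun t => by
    unfold i22v
    rw [abs_neg]
  anti := fun s t hs hst => by
    by_cases ht : t ≤ p
    · rw [i22v_in (hs.trans hst) ht, i22v_in hs (hst.trans ht)]
      exact hF.anti ⟨hs, hst.trans ht⟩ ⟨hs.trans hst, ht⟩ hst
    · have hz : i22v p F t = 0 :=
        i22v_out (by rw [abs_of_nonneg (hs.trans hst)]; exact not_le.mp ht)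
      rw [hz]
      exact i22v_nonneg hF s
  supp := ⟨p, fun t ht => i22v_out ht⟩
  logc := fun x y r hx hxy hr => by
    by_cases hyr : y + r ≤ p
    · rw [i22v_in hx (by linarith), i22v_in (by linarith) hyr, i22v_in (by linarith) (by linarith),
        i22v_in (hx.trans hxy) (by linarith)]
      exact i22_four hF hx hxy hr hyr
    · have hz : i22v p F (y + r) = 0 :=
        i22v_out (by rw [abs_of_nonneg (by linarith)]; exact not_le.mp hyr)
      rw [hz, mul_zero]
      exact mul_nonneg (i22v_nonneg hF _) (i22v_nonneg hF _)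

/-- The integral over the line of an even function vanishing outside `[-p, p]` is twice an
interval integral over `[0, p]`. -/
private lemma i22_fold (φ ψ : ℝ → ℝ) {p : ℝ} (hp : 0 ≤ p) (hint : Integrable φ)
    (hev : ∀ t, φ (-t) = φ t) (hz : ∀ t, p < t → φ t = 0) (heq : ∀ t ∈ Icc (0:ℝ) p, φ t = ψ t) :
    ∫ t, φ t = 2 * ∫ t in (0:ℝ)..p, ψ t := by
  have h1 := integral_add_compl (measurableSet_Iic (a := (0:ℝ))) hint
  rw [compl_Iic] at h1
  have h2 : ∫ t in Iic (0:ℝ), φ t = ∫ t in Ioi 0, φ t := by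
    have h3 := integral_comp_neg_Ioi (0:ℝ) φ
    rw [neg_zero] at h3
    rw [← h3]
    simp_rw [hev]
  have h4 : ∫ t in Ioi (0:ℝ), φ t = ∫ t in Ioc (0:ℝ) p, φ t := by
    rw [← integral_indicator measurableSet_Ioi, ← integral_indicator measurableSet_Ioc]
    congr 1
    funext t
    by_cases ht0 : 0 < t
    · by_cases htp : t ≤ p
      · rw [indicator_of_mem (show t ∈ Ioi (0:ℝ) from ht0),
          indicator_of_mem (show t ∈ Ioc (0:ℝ) p from ⟨ht0, htp⟩)]
      · rw [indicator_of_mem (show t ∈ Ioi (0:ℝ) from ht0),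
          indicator_of_notMem (fun h : t ∈ Ioc (0:ℝ) p => htp h.2), hz t (not_le.mp htp)]
    · rw [indicator_of_notMem (fun h : t ∈ Ioi (0:ℝ) => ht0 h),
        indicator_of_notMem (fun h : t ∈ Ioc (0:ℝ) p => ht0 h.1)]
  have h5 : ∫ t in Ioc (0:ℝ) p, φ t = ∫ t in (0:ℝ)..p, ψ t := by
    rw [intervalIntegral.integral_of_le hp]
    exact setIntegral_congr_fun measurableSet_Ioc (fun t ht => heq t ⟨ht.1.le, ht.2⟩)
  rw [← h1, h2, h4, h5]
  ring

/-- The planar centroid inequality in profile form: for the region `{0 ≤ x ≤ p, 0 ≤ y ≤ F x}`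
with area `A = ∫ F`, moments `∫ x F` and `∫ F^2 / 2`: `4 (∫ x F) (∫ F^2 / 2) ≤ A^3`. -/
theorem lw_I22 {p : ℝ} {F : ℝ → ℝ} (hF : LWProf p F) :
    2 * (∫ x in (0:ℝ)..p, x * F x) * (∫ x in (0:ℝ)..p, F x ^ 2)
      ≤ (∫ x in (0:ℝ)..p, F x) ^ 3 := by
  have hv := i22v_adm hF
  have hp := hF.pos.le
  have hout : ∀ t, p < t → i22v p F t = 0 := fun t ht =>
    i22v_out (lt_of_lt_of_le ht (le_abs_self t))
  have eA : ∫ t, i22v p F t = 2 * ∫ t in (0:ℝ)..p, F t :=
    i22_fold _ _ hp hv.integrable hv.even hout (fun t ht => i22v_in ht.1 ht.2)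
  have eQ : ∫ t, i22v p F t ^ 2 = 2 * ∫ t in (0:ℝ)..p, F t ^ 2 :=
    i22_fold _ _ hp hv.integrable_sq (fun t => by rw [hv.even])
      (fun t ht => by rw [hout t ht]; ring) (fun t ht => by rw [i22v_in ht.1 ht.2])
  have eB : ∫ t, |t| * i22v p F t = 2 * ∫ t in (0:ℝ)..p, t * F t :=
    i22_fold _ _ hp hv.integrable_abs_mul (fun t => by rw [hv.even, abs_neg])
      (fun t ht => by rw [hout t ht, mul_zero])
      (fun t ht => by rw [i22v_in ht.1 ht.2, abs_of_nonneg ht.1])
  have h := adm_first_moment hv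
  rw [eA, eQ, eB] at h
  nlinarith [h]

end Vale.Agent.Lib.P254
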