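import Vale.Agent.Lib.P254.LW.Defs
import Vale.Agent.Lib.P254.LW.MonoJensen
import Vale.Agent.Lib.P254.LW.I22

open MeasureTheory Set

namespace Vale.Agent.Lib.P254

variable {a a' : ℝ} {g2 g1 : ℝ → ℝ}

private lemma mo_min_max (m k : ℝ) : min m k + max (m - k) 0 = m := by
  rcases le_total m k with h | h
  · rw [min_eq_left h, max_eq_right (by linarith)]
    ring
  · rw [min_eq_right h, max_eq_left (by linarith)]
    ring

private lemma mo_min3_left {u v k : ℝ} (h : k ≤ v) : min (min u v) k = min u k := by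
  rw [min_assoc, min_eq_right h]

private lemma mo_min3_right {u v k : ℝ} (h : k ≤ u) : min (min u v) k = min v k := by
  rw [min_comm u v, min_assoc, min_eq_right h]

/-- Integrability of the indicator of a superlevel set. -/
private lemma mo_ind_int {F : ℝ → ℝ} (hFc : Continuous F) (p y : ℝ) :
    IntervalIntegrable (fun x => if y ≤ F x then (1:ℝ) else 0) volume 0 p := by
  rw [intervalIntegrable_iff]
  have hmeas : Measurable (fun x => if y ≤ F x then (1:ℝ) else 0) :=
    Measurable.ite (measurableSet_le measurable_const hFc.measurable) measurable_const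
      measurable_const
  apply Measure.integrableOn_of_bounded (M := 1) _ hmeas.aestronglyMeasurable
  · apply ae_of_all
    intro x
    split_ifs <;> norm_num
  · rw [uIoc]
    exact measure_Ioc_lt_top.ne

/-- The length of the superlevel set of `F` inside `[0, p]`. -/
private noncomputable def moG (p : ℝ) (F : ℝ → ℝ) (y : ℝ) : ℝ :=
  ∫ x in (0:ℝ)..p, (if y ≤ F x then (1:ℝ) else 0)

private lemma moG_nonneg {p : ℝ} (hp : 0 ≤ p) (F : ℝ → ℝ) (y : ℝ) : 0 ≤ moG p F y := by
  apply intervalIntegral.integral_nonneg hp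
  intro x _
  split_ifs <;> norm_num

private lemma moG_anti {p : ℝ} (hp : 0 ≤ p) {F : ℝ → ℝ} (hFc : Continuous F) :
    Antitone (moG p F) := by
  intro y y' hyy
  apply intervalIntegral.integral_mono_on hp (mo_ind_int hFc p y') (mo_ind_int hFc p y)
  intro x _
  by_cases h : y' ≤ F x
  · rw [if_pos h, if_pos (hyy.trans h)]
  · rw [if_neg h]
    split_ifs <;> norm_num

/-- Fubini on the region under the graph of `F`. -/
private lemma mo_swap {p c : ℝ} (hp : 0 ≤ p) {F h : ℝ → ℝ} (hFc : Continuous F)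
    (hh : Continuous h) (hF : ∀ x ∈ Icc (0:ℝ) p, 0 ≤ F x ∧ F x ≤ c) :
    ∫ x in (0:ℝ)..p, ∫ y in (0:ℝ)..F x, h y = ∫ y in (0:ℝ)..c, h y * moG p F y := by
  have hc : 0 ≤ c := (hF 0 ⟨le_rfl, hp⟩).1.trans (hF 0 ⟨le_rfl, hp⟩).2
  have hin : ∀ x ∈ Icc (0:ℝ) p, ∫ y in (0:ℝ)..F x, h y
      = ∫ y in Ioc (0:ℝ) c, (if y ≤ F x then h y else 0) := by
    intro x hx
    obtain ⟨h0, h1⟩ := hF x hx
    rw [intervalIntegral.integral_of_le h0]
    have e1 : (fun y => if y ≤ F x then h y else 0) = (Iic (F x)).indicator h := by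
      ext y
      simp [indicator]
    have e2 : Ioc (0:ℝ) c ∩ Iic (F x) = Ioc 0 (F x) := by
      ext y
      simp only [mem_inter_iff, mem_Ioc, mem_Iic]
      constructor
      · rintro ⟨⟨hy1, _⟩, hy3⟩
        exact ⟨hy1, hy3⟩
      · rintro ⟨hy1, hy3⟩
        exact ⟨⟨hy1, hy3.trans h1⟩, hy3⟩
    rw [e1, setIntegral_indicator measurableSet_Iic, e2]
  have hL : ∫ x in (0:ℝ)..p, ∫ y in (0:ℝ)..F x, h y
      = ∫ x in Ioc (0:ℝ) p, ∫ y in Ioc (0:ℝ) c, (if y ≤ F x then h y else 0) := by
    rw [intervalIntegral.integral_of_le hp]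
    apply setIntegral_congr_fun measurableSet_Ioc
    intro x hx
    exact hin x ⟨hx.1.le, hx.2⟩
  have hswap : ∫ x in Ioc (0:ℝ) p, ∫ y in Ioc (0:ℝ) c, (if y ≤ F x then h y else 0)
      = ∫ y in Ioc (0:ℝ) c, ∫ x in Ioc (0:ℝ) p, (if y ≤ F x then h y else 0) := by
    apply integral_integral_swap (f := fun x y => if y ≤ F x then h y else 0)
    obtain ⟨Mh, hMh⟩ := isCompact_Icc.exists_bound_of_continuousOn
      (hh.continuousOn (s := Icc (0:ℝ) c))
    have hM0 : 0 ≤ Mh := (norm_nonneg _).trans (hMh 0 ⟨le_rfl, hc⟩)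
    rw [Measure.prod_restrict]
    have hmeas : Measurable (Function.uncurry fun x y => if y ≤ F x then h y else 0) := by
      apply Measurable.ite
      · exact measurableSet_le measurable_snd (hFc.measurable.comp measurable_fst)
      · exact hh.measurable.comp measurable_snd
      · exact measurable_const
    apply Measure.integrableOn_of_bounded (M := Mh) _ hmeas.aestronglyMeasurable
    · rw [ae_restrict_iff' (measurableSet_Ioc.prod measurableSet_Ioc)]
      apply ae_of_all
      rintro ⟨x, y⟩ ⟨_, hy⟩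
      simp only [Function.uncurry]
      split_ifs
      · exact hMh y ⟨hy.1.le, hy.2⟩
      · simpa using hM0
    · rw [Measure.prod_prod]
      exact ENNReal.mul_ne_top measure_Ioc_lt_top.ne measure_Ioc_lt_top.ne
  rw [hL, hswap, intervalIntegral.integral_of_le hc]
  apply setIntegral_congr_fun measurableSet_Ioc
  intro y _
  simp only
  unfold moG
  rw [intervalIntegral.integral_of_le hp, ← integral_const_mul]
  congr 1
  ext x
  split_ifs <;> ring

/-- The planar lemma for globally continuous data. -/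
private lemma mo_core {p a a' : ℝ} {F g2 g1 : ℝ → ℝ}
    (hFc : Continuous F) (hg2c : Continuous g2) (hg1c : Continuous g1)
    (hp : 0 < p) (hpa : p ≤ a)
    (hFanti : AntitoneOn F (Icc 0 p)) (hFnn : ∀ x ∈ Icc (0:ℝ) p, 0 ≤ F x) (hF0 : 0 < F 0)
    (hFmid : 0 < F (p / 2)) (hFa : ∀ x ∈ Icc (0:ℝ) p, F x ≤ a')
    (hg2anti : AntitoneOn g2 (Icc 0 a)) (hg2conc : ConcaveOn ℝ (Icc 0 a) g2)
    (hg1anti : AntitoneOn g1 (Icc 0 a')) (hg1conc : ConcaveOn ℝ (Icc 0 a') g1)
    (hI22 : 2 * (∫ x in (0:ℝ)..p, x * F x) * (∫ x in (0:ℝ)..p, F x ^ 2)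
      ≤ (∫ x in (0:ℝ)..p, F x) ^ 3)
    {A X Y : ℝ} (hA : A = ∫ x in (0:ℝ)..p, F x) (hX : X = ∫ x in (0:ℝ)..p, x * F x)
    (hY : Y = ∫ x in (0:ℝ)..p, F x ^ 2 / 2) :
    (0 < 2 * X / A ∧ 2 * X / A ≤ p ∧ 0 < 2 * Y / A ∧ 2 * Y / A ≤ F 0) ∧
    (∫ x in (0:ℝ)..p, ∫ y in (0:ℝ)..F x, min (g2 x) (g1 y)) * ((2 * X / A) * (2 * Y / A))
      ≤ A * ∫ x in (0:ℝ)..(2 * X / A), ∫ y in (0:ℝ)..(2 * Y / A), min (g2 x) (g1 y) := by
  have hp0 : (0:ℝ) ≤ p := hp.le
  have h0p : (0:ℝ) ∈ Icc (0:ℝ) p := ⟨le_rfl, hp0⟩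
  have hApos : 0 < A := by
    rw [hA]
    exact intervalIntegral.integral_pos hp hFc.continuousOn
      (fun x hx => hFnn x ⟨hx.1.le, hx.2⟩) ⟨0, h0p, hF0⟩
  have hXpos : 0 < X := by
    rw [hX]
    apply intervalIntegral.integral_pos hp (by fun_prop)
    · intro x hx
      exact mul_nonneg hx.1.le (hFnn x ⟨hx.1.le, hx.2⟩)
    · exact ⟨p / 2, ⟨by linarith, by linarith⟩, mul_pos (by linarith) hFmid⟩
  have hYpos : 0 < Y := by
    rw [hY]
    apply intervalIntegral.integral_pos hp (by fun_prop)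
    · intro x _
      positivity
    · exact ⟨0, h0p, by positivity⟩
  have hF0le : ∀ x ∈ Icc (0:ℝ) p, F x ≤ F 0 := fun x hx => hFanti h0p hx hx.1
  have hca' : F 0 ≤ a' := hFa 0 h0p
  set U := 2 * X / A with hU
  set W := 2 * Y / A with hW
  have hUpos : 0 < U := by positivity
  have hWpos : 0 < W := by positivity
  have hUp : U ≤ p := by
    have h := LW.antitone_centroid_le hp0 hFanti
    rw [← hX, ← hA] at h
    rw [hU, div_le_iff₀ hApos]
    linarith
  have hWc : W ≤ F 0 := by
    have h : ∫ x in (0:ℝ)..p, F x ^ 2 / 2 ≤ ∫ x in (0:ℝ)..p, F 0 / 2 * F x := by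
      apply intervalIntegral.integral_mono_on hp0
        ((by fun_prop : Continuous fun x => F x ^ 2 / 2).intervalIntegrable _ _)
        ((by fun_prop : Continuous fun x => F 0 / 2 * F x).intervalIntegrable _ _)
      intro x hx
      nlinarith [hFnn x hx, hF0le x hx]
    rw [intervalIntegral.integral_const_mul, ← hY, ← hA] at h
    rw [hW, div_le_iff₀ hApos]
    linarith
  have hUW : U * W ≤ A := by
    have h2Y : ∫ x in (0:ℝ)..p, F x ^ 2 = 2 * Y := by
      rw [hY, intervalIntegral.integral_div]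
      ring
    rw [← hX, h2Y, ← hA] at hI22
    have e : U * W = (2 * X * (2 * Y)) / A ^ 2 := by
      rw [hU, hW]
      field_simp
    rw [e, div_le_iff₀ (by positivity)]
    nlinarith
  have hUa : U ≤ a := hUp.trans hpa
  have hWa' : W ≤ a' := hWc.trans hca'
  refine ⟨⟨hUpos, hUp, hWpos, hWc⟩, ?_⟩
  have hA0 : A ≠ 0 := hApos.ne'
  set ks := max (g2 U) (g1 W) with hks
  -- joint continuity
  have hmc : Continuous (Function.uncurry fun x y : ℝ => min (g2 x) (g1 y)) := by
    fun_prop
  have hpac : Continuous (Function.uncurry fun x y : ℝ => max (min (g2 x) (g1 y) - ks) 0) := by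
    fun_prop
  have hpbc : Continuous (Function.uncurry fun x y : ℝ => min (min (g2 x) (g1 y)) ks) := by
    fun_prop
  have hpay : ∀ x u v : ℝ, IntervalIntegrable (fun y => max (min (g2 x) (g1 y) - ks) 0) volume u v :=
    fun x u v => (by fun_prop : Continuous fun y => max (min (g2 x) (g1 y) - ks) 0).intervalIntegrable _ _
  have hpby : ∀ x u v : ℝ, IntervalIntegrable (fun y => min (min (g2 x) (g1 y)) ks) volume u v :=
    fun x u v => (by fun_prop : Continuous fun y => min (min (g2 x) (g1 y)) ks).intervalIntegrable _ _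
  -- the four continuous functions of `x`
  have hIa : Continuous fun x => ∫ y in (0:ℝ)..F x, max (min (g2 x) (g1 y) - ks) 0 :=
    intervalIntegral.continuous_parametric_intervalIntegral_of_continuous hpac hFc
  have hIb : Continuous fun x => ∫ y in (0:ℝ)..F x, min (min (g2 x) (g1 y)) ks :=
    intervalIntegral.continuous_parametric_intervalIntegral_of_continuous hpbc hFc
  have hKa : Continuous fun x => ∫ y in (0:ℝ)..W, max (min (g2 x) (g1 y) - ks) 0 :=
    intervalIntegral.continuous_parametric_intervalIntegral_of_continuous' hpac 0 W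
  have hKb : Continuous fun x => ∫ y in (0:ℝ)..W, min (min (g2 x) (g1 y)) ks :=
    intervalIntegral.continuous_parametric_intervalIntegral_of_continuous' hpbc 0 W
  -- decomposition of the two sides
  have hR : ∫ x in (0:ℝ)..p, ∫ y in (0:ℝ)..F x, min (g2 x) (g1 y)
      = (∫ x in (0:ℝ)..p, ∫ y in (0:ℝ)..F x, min (min (g2 x) (g1 y)) ks)
        + ∫ x in (0:ℝ)..p, ∫ y in (0:ℝ)..F x, max (min (g2 x) (g1 y) - ks) 0 := by
    rw [← intervalIntegral.integral_add (hIb.intervalIntegrable _ _) (hIa.intervalIntegrable _ _)]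
    apply intervalIntegral.integral_congr
    intro x _
    simp only
    rw [← intervalIntegral.integral_add (hpby x _ _) (hpay x _ _)]
    apply intervalIntegral.integral_congr
    intro y _
    simp only
    rw [mo_min_max]
  have hB : ∫ x in (0:ℝ)..U, ∫ y in (0:ℝ)..W, min (g2 x) (g1 y)
      = (∫ x in (0:ℝ)..U, ∫ y in (0:ℝ)..W, min (min (g2 x) (g1 y)) ks)
        + ∫ x in (0:ℝ)..U, ∫ y in (0:ℝ)..W, max (min (g2 x) (g1 y) - ks) 0 := by
    rw [← intervalIntegral.integral_add (hKb.intervalIntegrable _ _) (hKa.intervalIntegrable _ _)]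
    apply intervalIntegral.integral_congr
    intro x _
    simp only
    rw [← intervalIntegral.integral_add (hpby x _ _) (hpay x _ _)]
    apply intervalIntegral.integral_congr
    intro y _
    simp only
    rw [mo_min_max]
  -- part (a)
  have hpa_nn : ∀ x y : ℝ, 0 ≤ max (min (g2 x) (g1 y) - ks) 0 := fun x y => le_max_right _ _
  have hP1 : ∀ x y : ℝ, y ∈ Icc (0:ℝ) a' → W ≤ y → max (min (g2 x) (g1 y) - ks) 0 = 0 := by
    intro x y hy hWy
    have h1 : g1 y ≤ g1 W := hg1anti ⟨hWpos.le, hWa'⟩ hy hWy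
    have h2 : g1 W ≤ ks := le_max_right _ _
    have h3 : min (g2 x) (g1 y) ≤ g1 y := min_le_right _ _
    exact max_eq_right (by linarith)
  have hP2 : ∀ x : ℝ, x ∈ Icc (0:ℝ) a → U ≤ x → ∀ y : ℝ, max (min (g2 x) (g1 y) - ks) 0 = 0 := by
    intro x hx hUx y
    have h1 : g2 x ≤ g2 U := hg2anti ⟨hUpos.le, hUa⟩ hx hUx
    have h2 : g2 U ≤ ks := le_max_left _ _
    have h3 : min (g2 x) (g1 y) ≤ g2 x := min_le_left _ _
    exact max_eq_right (by linarith)
  have ha1 : ∀ x ∈ Icc (0:ℝ) p, ∫ y in (0:ℝ)..F x, max (min (g2 x) (g1 y) - ks) 0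
      ≤ ∫ y in (0:ℝ)..W, max (min (g2 x) (g1 y) - ks) 0 := by
    intro x hx
    rcases le_total (F x) W with h | h
    · rw [← intervalIntegral.integral_add_adjacent_intervals (hpay x 0 (F x)) (hpay x (F x) W)]
      have := intervalIntegral.integral_nonneg (μ := volume) h (fun y _ => hpa_nn x y)
      linarith
    · rw [← intervalIntegral.integral_add_adjacent_intervals (hpay x 0 W) (hpay x W (F x))]
      have hz : ∫ y in W..F x, max (min (g2 x) (g1 y) - ks) 0 = 0 := by
        have : ∀ y ∈ uIcc W (F x), max (min (g2 x) (g1 y) - ks) 0 = (0:ℝ) := by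
          intro y hy
          rw [uIcc_of_le h] at hy
          exact hP1 x y ⟨hWpos.le.trans hy.1, hy.2.trans (hFa x hx)⟩ hy.1
        rw [intervalIntegral.integral_congr this]
        simp
      linarith
  have ha2 : ∀ x ∈ Icc U p, ∫ y in (0:ℝ)..F x, max (min (g2 x) (g1 y) - ks) 0 = 0 := by
    intro x hx
    have : ∀ y ∈ uIcc (0:ℝ) (F x), max (min (g2 x) (g1 y) - ks) 0 = (0:ℝ) :=
      fun y _ => hP2 x ⟨hUpos.le.trans hx.1, hx.2.trans hpa⟩ hx.1 y
    rw [intervalIntegral.integral_congr this]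
    simp
  have hRa : ∫ x in (0:ℝ)..p, ∫ y in (0:ℝ)..F x, max (min (g2 x) (g1 y) - ks) 0
      ≤ ∫ x in (0:ℝ)..U, ∫ y in (0:ℝ)..W, max (min (g2 x) (g1 y) - ks) 0 := by
    rw [← intervalIntegral.integral_add_adjacent_intervals (hIa.intervalIntegrable 0 U)
      (hIa.intervalIntegrable U p)]
    have hz : ∫ x in U..p, ∫ y in (0:ℝ)..F x, max (min (g2 x) (g1 y) - ks) 0 = 0 := by
      have : ∀ x ∈ uIcc U p, (∫ y in (0:ℝ)..F x, max (min (g2 x) (g1 y) - ks) 0) = (0:ℝ) := by
        intro x hx
        rw [uIcc_of_le hUp] at hx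
        exact ha2 x hx
      rw [intervalIntegral.integral_congr this]
      simp
    rw [hz, add_zero]
    apply intervalIntegral.integral_mono_on hUpos.le (hIa.intervalIntegrable _ _)
      (hKa.intervalIntegrable _ _)
    intro x hx
    exact ha1 x ⟨hx.1, hx.2.trans hUp⟩
  have hBa_nn : 0 ≤ ∫ x in (0:ℝ)..U, ∫ y in (0:ℝ)..W, max (min (g2 x) (g1 y) - ks) 0 := by
    apply intervalIntegral.integral_nonneg hUpos.le
    intro x _
    exact intervalIntegral.integral_nonneg hWpos.le (fun y _ => hpa_nn x y)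
  -- part (b)
  have hRb : (∫ x in (0:ℝ)..p, ∫ y in (0:ℝ)..F x, min (min (g2 x) (g1 y)) ks) * (U * W)
      ≤ A * ∫ x in (0:ℝ)..U, ∫ y in (0:ℝ)..W, min (min (g2 x) (g1 y)) ks := by
    rcases le_total (g2 U) (g1 W) with hcase | hcase
    · -- first case: the threshold is `g1 W`
      have hks1 : ks = g1 W := max_eq_right hcase
      have hb1 : ∀ x y : ℝ, min (min (g2 x) (g1 y)) ks ≤ min (g2 x) ks :=
        fun x y => min_le_min (min_le_left _ _) le_rfl
      have hb2 : ∀ x : ℝ, ∀ y ∈ Icc (0:ℝ) W,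
          min (min (g2 x) (g1 y)) ks = min (g2 x) ks := by
        intro x y hy
        apply mo_min3_left
        rw [hks1]
        exact hg1anti ⟨hy.1, hy.2.trans hWa'⟩ ⟨hWpos.le, hWa'⟩ hy.2
      have hktc : Continuous fun x => min (g2 x) ks := by fun_prop
      have h1 : ∫ x in (0:ℝ)..p, ∫ y in (0:ℝ)..F x, min (min (g2 x) (g1 y)) ks
          ≤ ∫ x in (0:ℝ)..p, min (g2 x) ks * F x := by
        apply intervalIntegral.integral_mono_on hp0 (hIb.intervalIntegrable _ _)
          ((by fun_prop : Continuous fun x => min (g2 x) ks * F x).intervalIntegrable _ _)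
        intro x hx
        have hFx := hFnn x hx
        calc ∫ y in (0:ℝ)..F x, min (min (g2 x) (g1 y)) ks
            ≤ ∫ _y in (0:ℝ)..F x, min (g2 x) ks := by
              apply intervalIntegral.integral_mono_on hFx (hpby x _ _) intervalIntegrable_const
              intro y _
              exact hb1 x y
          _ = min (g2 x) ks * F x := by
              rw [intervalIntegral.integral_const, smul_eq_mul]
              ring
      have hconc : ConcaveOn ℝ (Icc 0 p) (fun x => min (g2 x) ks) := by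
        have h2 := hg2conc.subset (Icc_subset_Icc le_rfl hpa) (convex_Icc 0 p)
        have h3 : ConcaveOn ℝ (Icc 0 p) (fun _ : ℝ => ks) := concaveOn_const ks (convex_Icc 0 p)
        exact h2.inf h3
      have e2 : 2 * (X / A) = U := by rw [hU]; ring
      have hmdj := LW.mono_density_jensen (a := p) (b := X / A) (div_pos hXpos hApos)
        (by rw [e2]; exact hUp) hFanti hFnn hconc hktc.continuousOn
        (by rw [← hX, ← hA]; field_simp)
      rw [e2, ← hA] at hmdj
      have h2 : ∫ x in (0:ℝ)..U, ∫ y in (0:ℝ)..W, min (min (g2 x) (g1 y)) ks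
          = W * ∫ x in (0:ℝ)..U, min (g2 x) ks := by
        rw [← intervalIntegral.integral_const_mul]
        apply intervalIntegral.integral_congr
        intro x _
        simp only
        have : ∀ y ∈ uIcc (0:ℝ) W, min (min (g2 x) (g1 y)) ks = min (g2 x) ks := by
          intro y hy
          rw [uIcc_of_le hWpos.le] at hy
          exact hb2 x y hy
        rw [intervalIntegral.integral_congr this, intervalIntegral.integral_const, smul_eq_mul]
        ring
      rw [h2]
      have h3 := mul_le_mul_of_nonneg_right h1 (mul_nonneg hUpos.le hWpos.le)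
      have h4 := mul_le_mul_of_nonneg_right hmdj hWpos.le
      nlinarith
    · -- second case: the threshold is `g2 U`
      have hks2 : ks = g2 U := max_eq_left hcase
      have hb1 : ∀ x y : ℝ, min (min (g2 x) (g1 y)) ks ≤ min (g1 y) ks :=
        fun x y => min_le_min (min_le_right _ _) le_rfl
      have hb2 : ∀ x ∈ Icc (0:ℝ) U, ∀ y : ℝ,
          min (min (g2 x) (g1 y)) ks = min (g1 y) ks := by
        intro x hx y
        apply mo_min3_right
        rw [hks2]
        exact hg2anti ⟨hx.1, hx.2.trans hUa⟩ ⟨hUpos.le, hUa⟩ hx.2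
      have hktc : Continuous fun y => min (g1 y) ks := by fun_prop
      have hFbd : ∀ x ∈ Icc (0:ℝ) p, 0 ≤ F x ∧ F x ≤ F 0 :=
        fun x hx => ⟨hFnn x hx, hF0le x hx⟩
      have hPhi : Continuous fun x => ∫ y in (0:ℝ)..F x, min (g1 y) ks :=
        intervalIntegral.continuous_parametric_intervalIntegral_of_continuous
          (f := fun (_ : ℝ) (y : ℝ) => min (g1 y) ks) (by fun_prop) hFc
      have h1 : ∫ x in (0:ℝ)..p, ∫ y in (0:ℝ)..F x, min (min (g2 x) (g1 y)) ks
          ≤ ∫ x in (0:ℝ)..p, ∫ y in (0:ℝ)..F x, min (g1 y) ks := by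
        apply intervalIntegral.integral_mono_on hp0 (hIb.intervalIntegrable _ _)
          (hPhi.intervalIntegrable _ _)
        intro x hx
        apply intervalIntegral.integral_mono_on (hFnn x hx) (hpby x _ _)
          (hktc.intervalIntegrable _ _)
        intro y _
        exact hb1 x y
      rw [mo_swap hp0 hFc hktc hFbd] at h1
      have hAG : A = ∫ y in (0:ℝ)..F 0, moG p F y := by
        have h := mo_swap hp0 hFc (continuous_const (y := (1:ℝ))) hFbd
        simp only [one_mul] at h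
        rw [← h, hA]
        apply intervalIntegral.integral_congr
        intro x _
        simp
      have hYG : Y = ∫ y in (0:ℝ)..F 0, y * moG p F y := by
        have h := mo_swap hp0 hFc continuous_id hFbd
        simp only [id] at h
        rw [← h, hY]
        apply intervalIntegral.integral_congr
        intro x _
        simp only
        rw [integral_id]
        ring
      have hconc : ConcaveOn ℝ (Icc 0 (F 0)) (fun y => min (g1 y) ks) := by
        have h2 := hg1conc.subset (Icc_subset_Icc le_rfl hca') (convex_Icc 0 (F 0))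
        have h3 : ConcaveOn ℝ (Icc 0 (F 0)) (fun _ : ℝ => ks) :=
          concaveOn_const ks (convex_Icc 0 (F 0))
        exact h2.inf h3
      have e2 : 2 * (Y / A) = W := by rw [hW]; ring
      have hmdj := LW.mono_density_jensen (a := F 0) (b := Y / A) (div_pos hYpos hApos)
        (by rw [e2]; exact hWc) ((moG_anti hp0 hFc).antitoneOn _)
        (fun t _ => moG_nonneg hp0 F t) hconc hktc.continuousOn
        (by rw [← hYG, ← hAG]; field_simp)
      rw [e2, ← hAG] at hmdj
      have h2 : ∫ x in (0:ℝ)..U, ∫ y in (0:ℝ)..W, min (min (g2 x) (g1 y)) ks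
          = U * ∫ y in (0:ℝ)..W, min (g1 y) ks := by
        have : ∀ x ∈ uIcc (0:ℝ) U, (∫ y in (0:ℝ)..W, min (min (g2 x) (g1 y)) ks)
            = ∫ y in (0:ℝ)..W, min (g1 y) ks := by
          intro x hx
          rw [uIcc_of_le hUpos.le] at hx
          apply intervalIntegral.integral_congr
          intro y _
          exact hb2 x hx y
        rw [intervalIntegral.integral_congr this, intervalIntegral.integral_const, smul_eq_mul]
        ring
      rw [h2]
      have h3 := mul_le_mul_of_nonneg_right h1 (mul_nonneg hUpos.le hWpos.le)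
      have h4 := mul_le_mul_of_nonneg_right hmdj hUpos.le
      nlinarith
  rw [hR, hB]
  have h1 := mul_le_mul_of_nonneg_right hRa (mul_nonneg hUpos.le hWpos.le)
  have h2 := mul_le_mul_of_nonneg_left hUW hBa_nn
  nlinarith

/-- Extension of a function on `[0, b]` to the whole line by clamping the argument. -/
private noncomputable def moClamp (b : ℝ) (f : ℝ → ℝ) (x : ℝ) : ℝ := f (max 0 (min x b))

private lemma moClamp_cont {b : ℝ} (hb : 0 ≤ b) {f : ℝ → ℝ} (hf : ContinuousOn f (Icc 0 b)) :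
    Continuous (moClamp b f) := by
  unfold moClamp
  apply hf.comp_continuous (by fun_prop)
  intro x
  exact ⟨le_max_left _ _, max_le hb (min_le_right _ _)⟩

private lemma moClamp_eq {b : ℝ} {f : ℝ → ℝ} {x : ℝ} (hx : x ∈ Icc (0:ℝ) b) :
    moClamp b f x = f x := by
  unfold moClamp
  rw [min_eq_left hx.2, max_eq_right hx.1]

/-- The planar lemma (MO): for the region `{0 ≤ x ≤ p, 0 ≤ y ≤ F x}` with area `A` and
first moments `X`, `Y`, the integral of a min-type roof over the region, divided by `A`,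
is at most the average of the roof over the box `[0, 2X/A] × [0, 2Y/A]`. -/
theorem lw_MO {p : ℝ} {F : ℝ → ℝ} (hF : LWProf p F) (hg2 : LWProf a g2) (hg1 : LWProf a' g1)
    (hpa : p ≤ a) (hFa : ∀ x ∈ Icc (0:ℝ) p, F x ≤ a') :
    lwRegInt p F (lwRoof g2 g1) *
        ((2 * lwRegInt p F (fun x _ => x) / lwRegInt p F (fun _ _ => 1)) *
          (2 * lwRegInt p F (fun _ y => y) / lwRegInt p F (fun _ _ => 1)))
      ≤ lwRegInt p F (fun _ _ => 1) *
          lwBoxInt (2 * lwRegInt p F (fun x _ => x) / lwRegInt p F (fun _ _ => 1))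
            (2 * lwRegInt p F (fun _ y => y) / lwRegInt p F (fun _ _ => 1)) (lwRoof g2 g1) := by
  have hp := hF.pos
  have hp0 : (0:ℝ) ≤ p := hp.le
  have ha : (0:ℝ) ≤ a := hg2.pos.le
  have ha' : (0:ℝ) ≤ a' := hg1.pos.le
  have h0p : (0:ℝ) ∈ Icc (0:ℝ) p := ⟨le_rfl, hp0⟩
  have hEq : EqOn F (moClamp p F) (Icc 0 p) := fun x hx => (moClamp_eq hx).symm
  have hEq2 : EqOn g2 (moClamp a g2) (Icc 0 a) := fun x hx => (moClamp_eq hx).symm
  have hEq1 : EqOn g1 (moClamp a' g1) (Icc 0 a') := fun x hx => (moClamp_eq hx).symm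
  have hFc : Continuous (moClamp p F) := moClamp_cont hp0 hF.cont
  have hProf : LWProf p (moClamp p F) :=
    ⟨hp, hF.conc.congr hEq, hF.anti.congr hEq, hFc.continuousOn,
      fun x hx => by rw [moClamp_eq hx]; exact hF.nonneg x hx,
      by rw [moClamp_eq h0p]; exact hF.pos0⟩
  have hmid : 0 < moClamp p F (p / 2) := by
    have hpm : p / 2 ∈ Icc (0:ℝ) p := ⟨by linarith, by linarith⟩
    rw [moClamp_eq hpm]
    have h := hF.conc.2 h0p (show p ∈ Icc (0:ℝ) p from ⟨hp0, le_rfl⟩)
      (show (0:ℝ) ≤ 1 / 2 by norm_num) (show (0:ℝ) ≤ 1 / 2 by norm_num) (by norm_num)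
    simp only [smul_eq_mul] at h
    have e : (1 / 2 : ℝ) * 0 + 1 / 2 * p = p / 2 := by ring
    rw [e] at h
    have h1 := hF.pos0
    have h2 := hF.nonneg p ⟨hp0, le_rfl⟩
    linarith
  -- the three elementary integrals
  have hA : lwRegInt p F (fun _ _ => 1) = ∫ x in (0:ℝ)..p, moClamp p F x := by
    unfold lwRegInt
    apply intervalIntegral.integral_congr
    intro x hx
    rw [uIcc_of_le hp0] at hx
    simp only
    rw [intervalIntegral.integral_const, moClamp_eq hx]
    simp
  have hX : lwRegInt p F (fun x _ => x) = ∫ x in (0:ℝ)..p, x * moClamp p F x := by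
    unfold lwRegInt
    apply intervalIntegral.integral_congr
    intro x hx
    rw [uIcc_of_le hp0] at hx
    simp only
    rw [intervalIntegral.integral_const, moClamp_eq hx, smul_eq_mul]
    ring
  have hY : lwRegInt p F (fun _ y => y) = ∫ x in (0:ℝ)..p, moClamp p F x ^ 2 / 2 := by
    unfold lwRegInt
    apply intervalIntegral.integral_congr
    intro x hx
    rw [uIcc_of_le hp0] at hx
    simp only
    rw [integral_id, moClamp_eq hx]
    ring
  obtain ⟨⟨hU0, hUp, hW0, hWc⟩, hmain⟩ := mo_core (a := a) (a' := a') hFc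
    (moClamp_cont ha hg2.cont) (moClamp_cont ha' hg1.cont) hp hpa hProf.anti hProf.nonneg
    hProf.pos0 hmid (fun x hx => by rw [moClamp_eq hx]; exact hFa x hx)
    (hg2.anti.congr hEq2) (hg2.conc.congr hEq2) (hg1.anti.congr hEq1) (hg1.conc.congr hEq1)
    (lw_I22 hProf) hA hX hY
  rw [moClamp_eq h0p] at hWc
  have hF0a' : F 0 ≤ a' := hFa 0 h0p
  -- transfer of the two roof integrals
  have hR : lwRegInt p F (lwRoof g2 g1)
      = ∫ x in (0:ℝ)..p, ∫ y in (0:ℝ)..moClamp p F x, min (moClamp a g2 x) (moClamp a' g1 y) := by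
    unfold lwRegInt lwRoof
    apply intervalIntegral.integral_congr
    intro x hx
    rw [uIcc_of_le hp0] at hx
    simp only
    rw [moClamp_eq hx]
    apply intervalIntegral.integral_congr
    intro y hy
    rw [uIcc_of_le (hF.nonneg x hx)] at hy
    simp only
    rw [moClamp_eq (show x ∈ Icc (0:ℝ) a from ⟨hx.1, hx.2.trans hpa⟩),
      moClamp_eq (show y ∈ Icc (0:ℝ) a' from ⟨hy.1, hy.2.trans (hFa x hx)⟩)]
  have hBx : ∀ U W : ℝ, 0 ≤ U → U ≤ a → 0 ≤ W → W ≤ a' → lwBoxInt U W (lwRoof g2 g1)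
      = ∫ x in (0:ℝ)..U, ∫ y in (0:ℝ)..W, min (moClamp a g2 x) (moClamp a' g1 y) := by
    intro U W hU0 hUa hW0 hWa
    unfold lwBoxInt lwRoof
    apply intervalIntegral.integral_congr
    intro x hx
    rw [uIcc_of_le hU0] at hx
    simp only
    apply intervalIntegral.integral_congr
    intro y hy
    rw [uIcc_of_le hW0] at hy
    simp only
    rw [moClamp_eq (show x ∈ Icc (0:ℝ) a from ⟨hx.1, hx.2.trans hUa⟩),
      moClamp_eq (show y ∈ Icc (0:ℝ) a' from ⟨hy.1, hy.2.trans hWa⟩)]
  rw [hR, hBx _ _ hU0.le (hUp.trans hpa) hW0.le (hWc.trans hF0a')]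
  exact hmain

end Vale.Agent.Lib.P254
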