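import Vale.Agent.Lib.P254.LW.Basic
import Vale.Agent.Lib.P254.LW.MO
import Vale.Agent.Lib.P254.LW.CFubini
import Vale.Agent.Lib.P254.LW.CLayer
import Vale.Agent.Lib.P254.LW.CPsi
import Vale.Agent.Lib.P254.LW.CPsiCont
import Vale.Agent.Lib.P254.LW.CJensen
import Vale.Agent.Lib.P254.LW.CReg

open MeasureTheory Set

namespace Vale.Agent.Lib.P254

variable {a a' : ℝ} {f g2 g1 : ℝ → ℝ}

/-- The layer cake identity in profile form: the integral of `G * roof` over the base region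
is the integral over the heights of the integrals of `G` over the profile regions of the
layers. -/
theorem lwc_layer_cake (h : LWData a a' f g2 g1) {G : ℝ → ℝ → ℝ}
    (hG : ContinuousOn (Function.uncurry G) (Icc 0 a ×ˢ Icc 0 a')) :
    IntervalIntegrable
        (fun t => lwRegInt (lwEnd a g2 t) (fun x => min (f x) (lwEnd a' g1 t)) G)
        volume 0 (lwHmax g2 g1) ∧
      lwRegInt a f (fun x y => G x y * lwRoof g2 g1 x y)
        = ∫ t in (0:ℝ)..lwHmax g2 g1,
            lwRegInt (lwEnd a g2 t) (fun x => min (f x) (lwEnd a' g1 t)) G := by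
  obtain ⟨hint, heq⟩ := lw_layer_fubini h hG
  have hT : 0 < lwHmax g2 g1 := lt_min h.hg2.pos0 h.hg1.pos0
  have hne : ∀ᵐ t ∂(volume : Measure ℝ), t ≠ lwHmax g2 g1 := by
    rw [ae_iff]
    simp
  have hae : ∀ᵐ t ∂(volume : Measure ℝ), t ∈ Set.uIoc 0 (lwHmax g2 g1) →
      lwLayer a a' f g2 g1 G t
        = lwRegInt (lwEnd a g2 t) (fun x => min (f x) (lwEnd a' g1 t)) G := by
    filter_upwards [hne] with t ht1 ht2
    rw [uIoc_of_le hT.le] at ht2
    exact lw_layer_eq h ⟨ht2.1, lt_of_le_of_ne ht2.2 ht1⟩ hG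
  refine ⟨?_, ?_⟩
  · refine hint.congr_ae ?_
    rw [Filter.EventuallyEq, ae_restrict_iff' measurableSet_uIoc]
    exact hae
  · rw [heq]
    exact intervalIntegral.integral_congr_ae hae

/-- Step (C): the average of the extended roof over the centroid box is at least the
density-weighted mean of the roof. -/
theorem lw_C (h : LWData a a' f g2 g1) :
    lwMomZ2 a f g2 g1 * (lwU a f g2 g1 * lwW a f g2 g1)
      ≤ lwVol a f g2 g1 * lwBoxInt (lwU a f g2 g1) (lwW a f g2 g1) (lwRoof g2 g1) := by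
  have hT : 0 < lwHmax g2 g1 := lt_min h.hg2.pos0 h.hg1.pos0
  have hV := lw_vol_pos h
  have hMx := lw_momX_pos h
  have hMy := lw_momY_pos h
  -- continuity of the four test functions on the box
  have hG1 : ContinuousOn (Function.uncurry (fun (_ _ : ℝ) => (1:ℝ))) (Icc 0 a ×ˢ Icc 0 a') :=
    continuousOn_const
  have hGx : ContinuousOn (Function.uncurry (fun (x _ : ℝ) => x)) (Icc 0 a ×ˢ Icc 0 a') :=
    continuous_fst.continuousOn
  have hGy : ContinuousOn (Function.uncurry (fun (_ y : ℝ) => y)) (Icc 0 a ×ˢ Icc 0 a') :=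
    continuous_snd.continuousOn
  have hGm : ContinuousOn (Function.uncurry (lwRoof g2 g1)) (Icc 0 a ×ˢ Icc 0 a') := by
    have e : Function.uncurry (lwRoof g2 g1) = fun p : ℝ × ℝ => min (g2 p.1) (g1 p.2) := by
      funext p
      rfl
    rw [e]
    exact ContinuousOn.inf (h.hg2.cont.comp continuousOn_fst (fun p hp => hp.1))
      (h.hg1.cont.comp continuousOn_snd (fun p hp => hp.2))
  -- the four layer cake identities
  obtain ⟨hAint, hAeq⟩ := lwc_layer_cake h hG1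
  obtain ⟨hXint, hXeq⟩ := lwc_layer_cake h hGx
  obtain ⟨hYint, hYeq⟩ := lwc_layer_cake h hGy
  obtain ⟨hNint, hNeq⟩ := lwc_layer_cake h hGm
  have hVeq : lwVol a f g2 g1 = ∫ t in (0:ℝ)..lwHmax g2 g1,
      lwRegInt (lwEnd a g2 t) (fun x => min (f x) (lwEnd a' g1 t)) (fun _ _ => 1) := by
    rw [← hAeq]
    unfold lwVol
    congr 1
    funext x y
    rw [one_mul]
  have hZeq : lwMomZ2 a f g2 g1 = ∫ t in (0:ℝ)..lwHmax g2 g1,
      lwRegInt (lwEnd a g2 t) (fun x => min (f x) (lwEnd a' g1 t)) (lwRoof g2 g1) := by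
    rw [← hNeq]
    unfold lwMomZ2
    congr 1
    funext x y
    rw [sq]
  have hMxeq : lwMomX a f g2 g1 = ∫ t in (0:ℝ)..lwHmax g2 g1,
      lwRegInt (lwEnd a g2 t) (fun x => min (f x) (lwEnd a' g1 t)) (fun x _ => x) := by
    rw [← hXeq]
    rfl
  have hMyeq : lwMomY a f g2 g1 = ∫ t in (0:ℝ)..lwHmax g2 g1,
      lwRegInt (lwEnd a g2 t) (fun x => min (f x) (lwEnd a' g1 t)) (fun _ y => y) := by
    rw [← hYeq]
    rfl
  -- the layers
  have hApos : ∀ t ∈ Ioo 0 (lwHmax g2 g1),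
      0 < lwRegInt (lwEnd a g2 t) (fun x => min (f x) (lwEnd a' g1 t)) (fun _ _ => 1) := by
    intro t ht
    exact (lw_reg_pos (lw_layer_prof h ht).1).1
  have hc : ∀ t ∈ Ioo 0 (lwHmax g2 g1),
      (2 * lwRegInt (lwEnd a g2 t) (fun x => min (f x) (lwEnd a' g1 t)) (fun x _ => x)
          / lwRegInt (lwEnd a g2 t) (fun x => min (f x) (lwEnd a' g1 t)) (fun _ _ => 1),
        2 * lwRegInt (lwEnd a g2 t) (fun x => min (f x) (lwEnd a' g1 t)) (fun _ y => y)
          / lwRegInt (lwEnd a g2 t) (fun x => min (f x) (lwEnd a' g1 t)) (fun _ _ => 1))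
        ∈ Icc 0 a ×ˢ Icc 0 a' := by
    intro t ht
    obtain ⟨hprof, hpa, hFa⟩ := lw_layer_prof h ht
    obtain ⟨hA0, hX0, hY0⟩ := lw_reg_pos hprof
    obtain ⟨hc1, hc2⟩ := lw_reg_centroid hprof
    have h0 : (0:ℝ) ∈ Icc 0 (lwEnd a g2 t) := left_mem_Icc.mpr hprof.pos.le
    refine ⟨⟨by positivity, hc1.trans hpa⟩, ⟨by positivity, hc2.trans (hFa 0 h0)⟩⟩
  have hpt : ∀ t ∈ Ioo 0 (lwHmax g2 g1),
      lwRegInt (lwEnd a g2 t) (fun x => min (f x) (lwEnd a' g1 t)) (lwRoof g2 g1)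
        ≤ lwRegInt (lwEnd a g2 t) (fun x => min (f x) (lwEnd a' g1 t)) (fun _ _ => 1) *
          lwPsi g2 g1
            (2 * lwRegInt (lwEnd a g2 t) (fun x => min (f x) (lwEnd a' g1 t)) (fun x _ => x)
              / lwRegInt (lwEnd a g2 t) (fun x => min (f x) (lwEnd a' g1 t)) (fun _ _ => 1),
            2 * lwRegInt (lwEnd a g2 t) (fun x => min (f x) (lwEnd a' g1 t)) (fun _ y => y)
              / lwRegInt (lwEnd a g2 t) (fun x => min (f x) (lwEnd a' g1 t)) (fun _ _ => 1)) := by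
    intro t ht
    obtain ⟨hprof, hpa, hFa⟩ := lw_layer_prof h ht
    obtain ⟨hA0, hX0, hY0⟩ := lw_reg_pos hprof
    have hMO := lw_MO hprof h.hg2 h.hg1 hpa hFa
    have hc1 : 0 < 2 * lwRegInt (lwEnd a g2 t) (fun x => min (f x) (lwEnd a' g1 t))
        (fun x _ => x)
          / lwRegInt (lwEnd a g2 t) (fun x => min (f x) (lwEnd a' g1 t)) (fun _ _ => 1) := by
      positivity
    have hc2 : 0 < 2 * lwRegInt (lwEnd a g2 t) (fun x => min (f x) (lwEnd a' g1 t))
        (fun _ y => y)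
          / lwRegInt (lwEnd a g2 t) (fun x => min (f x) (lwEnd a' g1 t)) (fun _ _ => 1) := by
      positivity
    rw [lw_psi_box g2 g1 hc1 hc2] at hMO
    have hcc := mul_pos hc1 hc2
    refine le_of_mul_le_mul_right ?_ hcc
    calc _ ≤ _ := hMO
      _ = _ := by ring
  -- Jensen
  obtain ⟨hJint, hJ⟩ := lw_jensen (convex_Icc (0:ℝ) a |>.prod (convex_Icc (0:ℝ) a'))
    (isCompact_Icc.prod isCompact_Icc) (lw_psi_concave h.hg2 h.hg1) (lw_psi_cont h.hg2 h.hg1)
    hT hAint hXint hYint hApos hc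
  rw [← hVeq, ← hMxeq, ← hMyeq] at hJ
  have hZle : lwMomZ2 a f g2 g1
      ≤ lwVol a f g2 g1 * lwPsi g2 g1 (lwU a f g2 g1, lwW a f g2 g1) := by
    rw [hZeq]
    refine le_trans ?_ hJ
    exact intervalIntegral.integral_mono_on_of_le_Ioo hT.le hNint hJint hpt
  have hU : 0 < lwU a f g2 g1 := by
    unfold lwU
    positivity
  have hW : 0 < lwW a f g2 g1 := by
    unfold lwW
    positivity
  rw [lw_psi_box g2 g1 hU hW]
  have hUW := mul_pos hU hW
  calc lwMomZ2 a f g2 g1 * (lwU a f g2 g1 * lwW a f g2 g1)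
      ≤ lwVol a f g2 g1 * lwPsi g2 g1 (lwU a f g2 g1, lwW a f g2 g1)
          * (lwU a f g2 g1 * lwW a f g2 g1) := mul_le_mul_of_nonneg_right hZle hUW.le
    _ = lwVol a f g2 g1 * (lwU a f g2 g1 * lwW a f g2 g1
          * lwPsi g2 g1 (lwU a f g2 g1, lwW a f g2 g1)) := by ring

end Vale.Agent.Lib.P254
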