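import Vale.Agent.Lib.P254.LW.StepA
import Vale.Agent.Lib.P254.LW.StepC

open MeasureTheory Set

namespace Vale.Agent.Lib.P254

variable {a a' : ℝ} {f g2 g1 : ℝ → ℝ}

/-- The functional form of the inequality for Loomis-Whitney type bodies:
`8 M_x M_y M_z ≤ V^4` with `M_z = lwMomZ2 / 2`. -/
theorem lw_fun (h : LWData a a' f g2 g1) :
    4 * (lwMomX a f g2 g1 * lwMomY a f g2 g1 * lwMomZ2 a f g2 g1) ≤ lwVol a f g2 g1 ^ 4 := by
  have hV := lw_vol_pos h
  have hA := lw_A h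
  have hC := lw_C h
  set V := lwVol a f g2 g1 with hVdef
  set X := lwMomX a f g2 g1 with hXdef
  set Y := lwMomY a f g2 g1 with hYdef
  set Z := lwMomZ2 a f g2 g1 with hZdef
  have hU : lwU a f g2 g1 = 2 * X / V := rfl
  have hW : lwW a f g2 g1 = 2 * Y / V := rfl
  rw [hU, hW] at hA hC
  set IB := lwBoxInt (2 * X / V) (2 * Y / V) (lwRoof g2 g1) with hIB
  have h1 : Z * (2 * X / V * (2 * Y / V)) ≤ V * V :=
    le_trans hC (mul_le_mul_of_nonneg_left hA hV.le)
  have h2 : Z * (2 * X / V * (2 * Y / V)) = 4 * (X * Y * Z) / V ^ 2 := by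
    field_simp
    ring
  rw [h2, div_le_iff₀ (by positivity)] at h1
  nlinarith [h1]

end Vale.Agent.Lib.P254
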