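import Vale.Agent.Lib.P254.LW.Defs

open MeasureTheory Set

namespace Vale.Agent.Lib.P254

/-- The map `s ↦ (x, s)` into the plane is continuous. -/
theorem pf_cont_right (x : ℝ) : Continuous (fun s : ℝ => (![x, s] : Fin 2 → ℝ)) := by
  refine continuous_pi (fun i => ?_)
  fin_cases i
  · exact continuous_const
  · exact continuous_id

/-- The map `x ↦ (x, s)` into the plane is continuous. -/
theorem pf_cont_left (s : ℝ) : Continuous (fun x : ℝ => (![x, s] : Fin 2 → ℝ)) := by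
  refine continuous_pi (fun i => ?_)
  fin_cases i
  · exact continuous_id
  · exact continuous_const

/-- A planar convex corner inside the unit square is the region under a profile:
`Q = {0 ≤ y 0 ≤ α, 0 ≤ y 1 ≤ φ (y 0)}` with `φ` concave, nonincreasing, continuous,
nonnegative on `[0, α]` and positive at `0`. -/
theorem corner2_profile {Q : Set (Fin 2 → ℝ)} (hcomp : IsCompact Q) (hconv : Convex ℝ Q)
    (hsub : Q ⊆ Set.Icc 0 1)
    (hdown : ∀ x ∈ Q, ∀ y : Fin 2 → ℝ, (∀ j, 0 ≤ y j) → (∀ j, y j ≤ x j) → y ∈ Q)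
    (hinner : ∃ d > 0, (fun _ => d) ∈ Q) :
    ∃ (α : ℝ) (φ : ℝ → ℝ), LWProf α φ ∧ α ≤ 1 ∧ (∀ x ∈ Icc (0:ℝ) α, φ x ≤ 1) ∧
      Q = {y | 0 ≤ y 0 ∧ y 0 ≤ α ∧ 0 ≤ y 1 ∧ y 1 ≤ φ (y 0)} := by
  obtain ⟨d, hd, hdQ⟩ := hinner
  have hne : Q.Nonempty := ⟨_, hdQ⟩
  obtain ⟨p, hpQ, hpmax⟩ :=
    hcomp.exists_isMaxOn hne (continuous_apply (0 : Fin 2)).continuousOn
  have hclosed : IsClosed Q := hcomp.isClosed
  have hQ0 : ∀ y ∈ Q, ∀ j, 0 ≤ y j := fun y hy j => (hsub hy).1 j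
  have hQ1 : ∀ y ∈ Q, ∀ j, y j ≤ 1 := fun y hy j => (hsub hy).2 j
  obtain ⟨α, hα⟩ : ∃ α : ℝ, α = p 0 := ⟨_, rfl⟩
  have hαmax : ∀ y ∈ Q, y 0 ≤ α := fun y hy => hα ▸ hpmax hy
  have hdα : d ≤ α := hαmax _ hdQ
  have hαpos : 0 < α := lt_of_lt_of_le hd hdα
  have hα1 : α ≤ 1 := hα ▸ hQ1 p hpQ 0
  obtain ⟨φ, hφ⟩ : ∃ φ : ℝ → ℝ, ∀ x, φ x = sSup {s : ℝ | ![x, s] ∈ Q} := ⟨_, fun _ => rfl⟩
  have hmem_down : ∀ x s x' s' : ℝ, ![x', s'] ∈ Q → 0 ≤ x → x ≤ x' → 0 ≤ s → s ≤ s' →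
      ![x, s] ∈ Q := by
    intro x s x' s' h hx hxx hs hss
    refine hdown _ h _ ?_ ?_
    · intro j
      fin_cases j
      · exact hx
      · exact hs
    · intro j
      fin_cases j
      · exact hxx
      · exact hss
  have hbdd : ∀ x, BddAbove {s : ℝ | ![x, s] ∈ Q} := by
    intro x
    refine ⟨1, fun s hs => ?_⟩
    have := hQ1 _ hs 1
    simpa using this
  have hcl : ∀ x, IsClosed {s : ℝ | ![x, s] ∈ Q} := fun x => hclosed.preimage (pf_cont_right x)
  have hpp : ![p 0, p 1] ∈ Q := by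
    have e : ![p 0, p 1] = p := by
      ext j
      fin_cases j <;> rfl
    rw [e]
    exact hpQ
  have hzero : ∀ x, 0 ≤ x → x ≤ α → ![x, 0] ∈ Q := by
    intro x hx hxα
    exact hmem_down x 0 (p 0) (p 1) hpp hx (hα ▸ hxα) le_rfl (hQ0 p hpQ 1)
  have htop : ∀ x, 0 ≤ x → x ≤ α → ![x, φ x] ∈ Q := by
    intro x hx hxα
    rw [hφ]
    exact (hcl x).csSup_mem ⟨0, hzero x hx hxα⟩ (hbdd x)
  have hle : ∀ x s, ![x, s] ∈ Q → s ≤ φ x := by
    intro x s h
    rw [hφ]
    exact le_csSup (hbdd x) h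
  have hφ0 : ∀ x, 0 ≤ x → x ≤ α → 0 ≤ φ x := fun x hx hxα => hle x 0 (hzero x hx hxα)
  have hφ1 : ∀ x, 0 ≤ x → x ≤ α → φ x ≤ 1 := by
    intro x hx hxα
    have := hQ1 _ (htop x hx hxα) 1
    simpa using this
  have hanti : AntitoneOn φ (Icc 0 α) := by
    intro x hx x' hx' hxx
    exact hle x (φ x') (hmem_down x (φ x') x' (φ x') (htop x' hx'.1 hx'.2) hx.1 hxx
      (hφ0 x' hx'.1 hx'.2) le_rfl)
  have hconc : ConcaveOn ℝ (Icc 0 α) φ := by
    refine ⟨convex_Icc 0 α, ?_⟩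
    intro x1 hx1 x2 hx2 a b ha hb hab
    have h := hconv (htop x1 hx1.1 hx1.2) (htop x2 hx2.1 hx2.2) ha hb hab
    have e : a • ![x1, φ x1] + b • ![x2, φ x2]
        = ![a • x1 + b • x2, a • φ x1 + b • φ x2] := by
      ext j
      fin_cases j <;> simp
    rw [e] at h
    exact hle _ _ h
  have hcont : ContinuousOn φ (Icc 0 α) := by
    intro x0 hx0
    rw [Metric.continuousWithinAt_iff]
    intro ε hε
    have hleft : ∃ δ1 > 0, ∀ x ∈ Icc 0 α, x ≤ x0 → x0 - x < δ1 → φ x < φ x0 + ε := by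
      rcases eq_or_lt_of_le hx0.1 with h0 | h0
      · refine ⟨1, one_pos, fun x hx hxx _ => ?_⟩
        have hxe : x = x0 := le_antisymm hxx (h0 ▸ hx.1)
        rw [hxe]
        linarith
      · have hex : ∃ x1, 0 ≤ x1 ∧ x1 < x0 ∧ φ x1 < φ x0 + ε := by
          by_contra hcon
          push Not at hcon
          have hsubset : Ico 0 x0 ⊆ {x : ℝ | ![x, φ x0 + ε] ∈ Q} := by
            intro x hx
            have hxα : x ≤ α := le_trans hx.2.le hx0.2
            exact hmem_down x (φ x0 + ε) x (φ x) (htop x hx.1 hxα) hx.1 le_rfl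
              (by linarith [hφ0 x0 hx0.1 hx0.2]) (hcon x hx.1 hx.2)
          have hclosed2 : IsClosed {x : ℝ | ![x, φ x0 + ε] ∈ Q} :=
            hclosed.preimage (pf_cont_left (φ x0 + ε))
          have hmemc : x0 ∈ closure (Ico 0 x0) := by
            rw [closure_Ico h0.ne]
            exact ⟨h0.le, le_rfl⟩
          have hin := closure_minimal hsubset hclosed2 hmemc
          have hle2 := hle x0 _ hin
          linarith
        obtain ⟨x1, hx10, hx1x, hx1φ⟩ := hex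
        refine ⟨x0 - x1, by linarith, fun x hx hxx hdd => ?_⟩
        have hx1x' : x1 ≤ x := by linarith
        have hmono := hanti ⟨hx10, le_trans hx1x' hx.2⟩ hx hx1x'
        linarith
    have hright : ∃ δ2 > 0, ∀ x ∈ Icc 0 α, x0 ≤ x → x - x0 < δ2 → φ x0 - ε < φ x := by
      rcases eq_or_lt_of_le hx0.2 with h1 | h1
      · refine ⟨1, one_pos, fun x hx hxx _ => ?_⟩
        have hxe : x = x0 := le_antisymm (h1 ▸ hx.2) hxx
        rw [hxe]
        linarith
      · have hαx : 0 < α - x0 := sub_pos.mpr h1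
        refine ⟨ε * (α - x0), mul_pos hε hαx, fun x hx hxx hdd => ?_⟩
        obtain ⟨t, ht⟩ : ∃ t : ℝ, t = (x - x0) / (α - x0) := ⟨_, rfl⟩
        have ht0 : 0 ≤ t := by
          rw [ht]
          exact div_nonneg (sub_nonneg.mpr hxx) hαx.le
        have ht1 : t ≤ 1 := by
          rw [ht, div_le_one hαx]
          linarith [hx.2]
        have htε : t < ε := by
          rw [ht, div_lt_iff₀ hαx]
          exact hdd
        have hc := hconc.2 hx0 ⟨hαpos.le, le_rfl⟩ (sub_nonneg.mpr ht1) ht0 (by ring)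
        have e : (1 - t) • x0 + t • α = x := by
          simp only [smul_eq_mul]
          rw [ht]
          field_simp
          ring
        rw [e] at hc
        simp only [smul_eq_mul] at hc
        have h1' := hφ0 α hαpos.le le_rfl
        have h2' := hφ1 x0 hx0.1 hx0.2
        have h3' := hφ0 x0 hx0.1 hx0.2
        nlinarith [mul_nonneg ht0 h1', mul_nonneg ht0 (sub_nonneg.mpr h2')]
    obtain ⟨δ1, hδ1, h1⟩ := hleft
    obtain ⟨δ2, hδ2, h2⟩ := hright
    refine ⟨min δ1 δ2, lt_min hδ1 hδ2, fun x hx hdist => ?_⟩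
    rw [Real.dist_eq] at hdist ⊢
    have hd1 : |x - x0| < δ1 := lt_of_lt_of_le hdist (min_le_left _ _)
    have hd2 : |x - x0| < δ2 := lt_of_lt_of_le hdist (min_le_right _ _)
    rw [abs_lt] at hd1 hd2 ⊢
    rcases le_total x x0 with hxx | hxx
    · have ha := h1 x hx hxx (by linarith)
      have hb := hanti hx hx0 hxx
      constructor <;> linarith
    · have ha := h2 x hx hxx (by linarith)
      have hb := hanti hx0 hx hxx
      constructor <;> linarith
  refine ⟨α, φ, ⟨hαpos, hconc, hanti, hcont, fun x hx => hφ0 x hx.1 hx.2, ?_⟩, hα1,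
    fun x hx => hφ1 x hx.1 hx.2, ?_⟩
  · have hdd : ![d, d] ∈ Q := by
      have e : (![d, d] : Fin 2 → ℝ) = fun _ => d := by
        ext j
        fin_cases j <;> rfl
      rw [e]
      exact hdQ
    have h0d : ![0, d] ∈ Q := hmem_down 0 d d d hdd le_rfl hd.le hd.le le_rfl
    exact lt_of_lt_of_le hd (hle 0 d h0d)
  · ext y
    have hy : ![y 0, y 1] = y := by
      ext j
      fin_cases j <;> rfl
    constructor
    · intro hyQ
      refine ⟨hQ0 y hyQ 0, hαmax y hyQ, hQ0 y hyQ 1, ?_⟩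
      apply hle
      rw [hy]
      exact hyQ
    · rintro ⟨h0, h1, h2, h3⟩
      rw [← hy]
      exact hmem_down (y 0) (y 1) (y 0) (φ (y 0)) (htop _ h0 h1) h0 le_rfl h2 h3

end Vale.Agent.Lib.P254
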