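import Vale.Agent.Lib.P254.LW.Body
import Vale.Agent.Lib.P254.LW.Profile

open MeasureTheory Set

namespace Vale.Agent.Lib.P254

/-- Restriction of a profile to a shorter interval. -/
theorem LWProf.restrict {al a : ℝ} {ph : ℝ → ℝ} (h : LWProf al ph) (ha : 0 < a)
    (hle : a ≤ al) : LWProf a ph := by
  have hsub : Icc (0:ℝ) a ⊆ Icc 0 al := Icc_subset_Icc le_rfl hle
  exact ⟨ha, h.conc.subset hsub (convex_Icc 0 a), h.anti.mono hsub, h.cont.mono hsub,
    fun x hx => h.nonneg x (hsub hx), h.pos0⟩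

/-- Cutting a profile by a positive constant. -/
theorem LWProf.min_const {a c : ℝ} {ph : ℝ → ℝ} (h : LWProf a ph) (hc : 0 < c) :
    LWProf a (fun x => min (ph x) c) := by
  refine ⟨h.pos, ?_, ?_, ?_, fun x hx => le_min (h.nonneg x hx) hc.le, lt_min h.pos0 hc⟩
  · refine ⟨convex_Icc 0 a, fun x hx y hy s t hs ht hst => ?_⟩
    have h1 := h.conc.2 hx hy hs ht hst
    simp only [smul_eq_mul] at h1 ⊢
    refine le_min ?_ ?_
    · refine le_trans ?_ h1
      exact add_le_add (mul_le_mul_of_nonneg_left (min_le_left _ _) hs)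
        (mul_le_mul_of_nonneg_left (min_le_left _ _) ht)
    · have h2 : s * min (ph x) c + t * min (ph y) c ≤ s * c + t * c :=
        add_le_add (mul_le_mul_of_nonneg_left (min_le_right _ _) hs)
          (mul_le_mul_of_nonneg_left (min_le_right _ _) ht)
      have h3 : s * c + t * c = c := by rw [← add_mul, hst, one_mul]
      linarith
  · exact fun x hx y hy hxy => min_le_min (h.anti hx hy hxy) le_rfl
  · exact ContinuousOn.inf h.cont continuousOn_const

/-- The centroid inequality `8 M_0 M_1 M_2 ≤ V^4` for every Loomis-Whitney type corner in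
`ℝ^3`: the set of points all three of whose coordinate projections lie in given planar
convex corners (`Q 0` constrains `(x 1, x 2)`, `Q 1` constrains `(x 0, x 2)`, `Q 2`
constrains `(x 0, x 1)`). -/
theorem lw_main_expl (Q : Fin 3 → Set (Fin 2 → ℝ))
    (hcomp : ∀ i, IsCompact (Q i)) (hconv : ∀ i, Convex ℝ (Q i))
    (hsub : ∀ i, Q i ⊆ Set.Icc 0 1)
    (hdown : ∀ i, ∀ x ∈ Q i, ∀ y : Fin 2 → ℝ, (∀ j, 0 ≤ y j) → (∀ j, y j ≤ x j) → y ∈ Q i)
    (hinner : ∀ i, ∃ d > 0, (fun _ => d) ∈ Q i) :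
    8 * ((∫ x in {x : Fin 3 → ℝ | ∀ i : Fin 3, (fun j : Fin 2 => x (i.succAbove j)) ∈ Q i}, x 0) *
        (∫ x in {x : Fin 3 → ℝ | ∀ i : Fin 3, (fun j : Fin 2 => x (i.succAbove j)) ∈ Q i}, x 1) *
        (∫ x in {x : Fin 3 → ℝ | ∀ i : Fin 3, (fun j : Fin 2 => x (i.succAbove j)) ∈ Q i}, x 2))
      ≤ (volume {x : Fin 3 → ℝ | ∀ i : Fin 3, (fun j : Fin 2 => x (i.succAbove j)) ∈ Q i}).toReal ^ 4 := by
  obtain ⟨α0, φ0, P0, -, -, e0⟩ :=
    corner2_profile (hcomp 0) (hconv 0) (hsub 0) (hdown 0) (hinner 0)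
  obtain ⟨α1, φ1, P1, -, -, e1⟩ :=
    corner2_profile (hcomp 1) (hconv 1) (hsub 1) (hdown 1) (hinner 1)
  obtain ⟨α2, φ2, P2, -, -, e2⟩ :=
    corner2_profile (hcomp 2) (hconv 2) (hsub 2) (hdown 2) (hinner 2)
  have s00 : (0 : Fin 3).succAbove (0 : Fin 2) = 1 := by decide
  have s01 : (0 : Fin 3).succAbove (1 : Fin 2) = 2 := by decide
  have s10 : (1 : Fin 3).succAbove (0 : Fin 2) = 0 := by decide
  have s11 : (1 : Fin 3).succAbove (1 : Fin 2) = 2 := by decide
  have s20 : (2 : Fin 3).succAbove (0 : Fin 2) = 0 := by decide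
  have s21 : (2 : Fin 3).succAbove (1 : Fin 2) = 1 := by decide
  have ha : 0 < min α1 α2 := lt_min P1.pos P2.pos
  have hdata : LWData (min α1 α2) α0 (fun x => min (φ2 x) α0) φ1 φ0 :=
    ⟨(P2.restrict ha (min_le_right _ _)).min_const P0.pos, P1.restrict ha (min_le_left _ _),
      P0, fun x _ => min_le_right _ _⟩
  have hmem : ∀ x : Fin 3 → ℝ,
      (∀ i : Fin 3, (fun j : Fin 2 => x (i.succAbove j)) ∈ Q i) ↔
        x ∈ lwBody (min α1 α2) (fun x => min (φ2 x) α0) φ1 φ0 := by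
    intro x
    have key : (∀ i : Fin 3, (fun j : Fin 2 => x (i.succAbove j)) ∈ Q i) ↔
        ((fun j : Fin 2 => x ((0 : Fin 3).succAbove j)) ∈ Q 0 ∧
          (fun j : Fin 2 => x ((1 : Fin 3).succAbove j)) ∈ Q 1 ∧
          (fun j : Fin 2 => x ((2 : Fin 3).succAbove j)) ∈ Q 2) := by
      constructor
      · intro h
        exact ⟨h 0, h 1, h 2⟩
      · intro h i
        fin_cases i
        · exact h.1
        · exact h.2.1
        · exact h.2.2
    rw [key, e0, e1, e2]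
    simp only [Set.mem_ofPred_eq, lwBody, lwRoof, s00, s01, s10, s11, s20, s21, le_min_iff]
    tauto
  have hSet : {x : Fin 3 → ℝ | ∀ i : Fin 3, (fun j : Fin 2 => x (i.succAbove j)) ∈ Q i} =
      lwBody (min α1 α2) (fun x => min (φ2 x) α0) φ1 φ0 := Set.ext hmem
  rw [hSet]
  exact lw_body_ineq hdata

end Vale.Agent.Lib.P254
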