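import Vale.Agent.Lib.P254.LW.Basic

open MeasureTheory Set

namespace Vale.Agent.Lib.P254

variable {a a' : ℝ} {f g2 g1 : ℝ → ℝ}

/-- Three-point chord inequality for a concave function. -/
lemma lwa_chord {f : ℝ → ℝ} {s : Set ℝ} (hf : ConcaveOn ℝ s f) {x y z : ℝ}
    (hx : x ∈ s) (hz : z ∈ s) (hxy : x ≤ y) (hyz : y ≤ z) :
    (z - y) * f x + (y - x) * f z ≤ (z - x) * f y := by
  rcases eq_or_lt_of_le (hxy.trans hyz) with h | h
  · have hy : y = x := le_antisymm (h ▸ hyz) hxy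
    subst hy
    subst h
    simp
  · have hzx : 0 < z - x := sub_pos.mpr h
    have hne : z - x ≠ 0 := hzx.ne'
    have hsum : (z - y) / (z - x) + (y - x) / (z - x) = 1 := by
      rw [← add_div, div_eq_one_iff_eq hne]; ring
    have key := hf.2 hx hz (div_nonneg (sub_nonneg.mpr hyz) hzx.le)
      (div_nonneg (sub_nonneg.mpr hxy) hzx.le) hsum
    have e : ((z - y) / (z - x)) • x + ((y - x) / (z - x)) • z = y := by
      simp only [smul_eq_mul]
      field_simp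
      ring
    rw [e] at key
    simp only [smul_eq_mul] at key
    have h2 := mul_le_mul_of_nonneg_left key hzx.le
    have e2 : (z - x) * ((z - y) / (z - x) * f x + (y - x) / (z - x) * f z)
        = (z - y) * f x + (y - x) * f z := by
      field_simp
    linarith

/-- Interval integrability of a function that is nonincreasing on `[0, c]`. -/
lemma lwa_ii {G : ℝ → ℝ} {c p q : ℝ} (hG : AntitoneOn G (Icc 0 c)) (hp : p ∈ Icc 0 c)
    (hq : q ∈ Icc 0 c) : IntervalIntegrable G volume p q := by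
  apply AntitoneOn.intervalIntegrable
  exact hG.mono (uIcc_subset_Icc hp hq)

/-- Linearity of the outer integral. -/
lemma lwa_lin_outer {D Dy : ℝ → ℝ} {b : ℝ} (hD : IntervalIntegrable D volume 0 b)
    (hDy : IntervalIntegrable Dy volume 0 b) (c0 cx cy : ℝ) :
    ∫ x in (0:ℝ)..b, ((c0 - cx * x) * D x - cy * Dy x)
      = c0 * (∫ x in (0:ℝ)..b, D x) - cx * (∫ x in (0:ℝ)..b, x * D x)
        - cy * ∫ x in (0:ℝ)..b, Dy x := by
  have hxD : IntervalIntegrable (fun x : ℝ => x * D x) volume 0 b :=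
    hD.continuousOn_mul (g := fun x : ℝ => x) continuous_id.continuousOn
  have e : (fun x : ℝ => (c0 - cx * x) * D x - cy * Dy x)
      = fun x : ℝ => (c0 * D x - cx * (x * D x)) - cy * Dy x := by
    funext x; ring
  rw [e, intervalIntegral.integral_sub ((hD.const_mul c0).sub (hxD.const_mul cx))
    (hDy.const_mul cy), intervalIntegral.integral_sub (hD.const_mul c0) (hxD.const_mul cx),
    intervalIntegral.integral_const_mul, intervalIntegral.integral_const_mul,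
    intervalIntegral.integral_const_mul]

/-- Linearity of the inner integral. -/
lemma lwa_lin_inner {M : ℝ → ℝ} {p q : ℝ} (hM : IntervalIntegrable M volume p q)
    (c cy : ℝ) :
    ∫ y in p..q, (c - cy * y) * M y
      = c * (∫ y in p..q, M y) - cy * ∫ y in p..q, y * M y := by
  have hyM : IntervalIntegrable (fun y : ℝ => y * M y) volume p q :=
    hM.continuousOn_mul (g := fun y : ℝ => y) continuous_id.continuousOn
  have e : (fun y : ℝ => (c - cy * y) * M y) = fun y : ℝ => c * M y - cy * (y * M y) := by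
    funext y; ring
  rw [e, intervalIntegral.integral_sub (hM.const_mul c) (hyM.const_mul cy),
    intervalIntegral.integral_const_mul, intervalIntegral.integral_const_mul]

/-- Sign of the separating affine function to the right of `U`. -/
lemma lwa_sign_right {f : ℝ → ℝ} {a U W x1 x y : ℝ} (hc : ConcaveOn ℝ (Icc 0 a) f)
    (hx1 : 0 ≤ x1) (hx1U : x1 < U) (hUx : U ≤ x) (hxa : x ≤ a) (hfx1 : f x1 = W)
    (hy : y ≤ f x) : 0 ≤ (W - f U) * (U - x) - (U - x1) * (y - f U) := by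
  have hch := lwa_chord hc (x := x1) (y := U) (z := x) ⟨hx1, by linarith⟩ ⟨by linarith, hxa⟩
    hx1U.le hUx
  rw [hfx1] at hch
  have h2 := mul_le_mul_of_nonneg_left hy (sub_nonneg.mpr hx1U.le)
  nlinarith

/-- Sign of the separating affine function above `W`, to the left of `x1`. -/
lemma lwa_sign_left_pos {f : ℝ → ℝ} {a U W x1 x y : ℝ} (hc : ConcaveOn ℝ (Icc 0 a) f)
    (hx0 : 0 ≤ x) (hxx1 : x ≤ x1) (hx1U : x1 < U) (hUa : U ≤ a) (hfx1 : f x1 = W)
    (hy : y ≤ f x) : 0 ≤ (W - f U) * (U - x) - (U - x1) * (y - f U) := by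
  have hch := lwa_chord hc (x := x) (y := x1) (z := U) ⟨hx0, by linarith⟩ ⟨by linarith, hUa⟩
    hxx1 hx1U.le
  rw [hfx1] at hch
  have h2 := mul_le_mul_of_nonneg_left hy (sub_nonneg.mpr hx1U.le)
  nlinarith

/-- Sign of the separating affine function inside the box, above the profile. -/
lemma lwa_sign_left_neg {f : ℝ → ℝ} {a U W x1 x y : ℝ} (hc : ConcaveOn ℝ (Icc 0 a) f)
    (hx1 : 0 ≤ x1) (hx1x : x1 ≤ x) (hxU : x ≤ U) (hx1U : x1 < U) (hUa : U ≤ a)
    (hfx1 : f x1 = W) (hy : f x ≤ y) : (W - f U) * (U - x) - (U - x1) * (y - f U) ≤ 0 := by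
  have hch := lwa_chord hc (x := x1) (y := x) (z := U) ⟨hx1, by linarith⟩ ⟨by linarith, hUa⟩
    hx1x hxU
  rw [hfx1] at hch
  have h2 := mul_le_mul_of_nonneg_left hy (sub_nonneg.mpr hx1U.le)
  nlinarith

/-- The roof is integrable in `y` on subintervals of `[0, a']`. -/
lemma lwa_roof_int (h : LWData a a' f g2 g1) (x : ℝ) {c d : ℝ} (hc : c ∈ Icc 0 a')
    (hd : d ∈ Icc 0 a') : IntervalIntegrable (fun y => lwRoof g2 g1 x y) volume c d := by
  apply ContinuousOn.intervalIntegrable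
  exact (lwb_roof_cont h x).mono (uIcc_subset_Icc hc hd)

/-- The roof times `y` is integrable in `y` on subintervals of `[0, a']`. -/
lemma lwa_yroof_int (h : LWData a a' f g2 g1) (x : ℝ) {c d : ℝ} (hc : c ∈ Icc 0 a')
    (hd : d ∈ Icc 0 a') : IntervalIntegrable (fun y => y * lwRoof g2 g1 x y) volume c d :=
  lwb_inner_int h (ω := fun y => y) continuousOn_id x hc hd

/-- The box section is nonincreasing in `x`. -/
lemma lwa_box_anti (h : LWData a a' f g2 g1) {W : ℝ} (hW : W ∈ Icc 0 a') :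
    AntitoneOn (fun x => ∫ y in (0:ℝ)..W, lwRoof g2 g1 x y) (Icc 0 a) := by
  intro x hx x' hx' hxx'
  have h0 : (0:ℝ) ∈ Icc 0 a' := ⟨le_rfl, hW.1.trans hW.2⟩
  apply intervalIntegral.integral_mono_on hW.1 (lwa_roof_int h x' h0 hW) (lwa_roof_int h x h0 hW)
  intro y _
  exact min_le_min (h.hg2.anti hx hx' hxx') le_rfl

/-- The weighted box section is nonincreasing in `x`. -/
lemma lwa_boxy_anti (h : LWData a a' f g2 g1) {W : ℝ} (hW : W ∈ Icc 0 a') :
    AntitoneOn (fun x => ∫ y in (0:ℝ)..W, y * lwRoof g2 g1 x y) (Icc 0 a) := by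
  intro x hx x' hx' hxx'
  have h0 : (0:ℝ) ∈ Icc 0 a' := ⟨le_rfl, hW.1.trans hW.2⟩
  apply intervalIntegral.integral_mono_on hW.1 (lwa_yroof_int h x' h0 hW)
    (lwa_yroof_int h x h0 hW)
  intro y hy
  exact mul_le_mul_of_nonneg_left (min_le_min (h.hg2.anti hx hx' hxx') le_rfl) hy.1

/-- The integral of the separating affine function against the roof, in linear form. -/
lemma lwa_psi_eq (h : LWData a a' f g2 g1) (U W x1 x : ℝ) {q : ℝ} (hq : q ∈ Icc 0 a') :
    ∫ y in (0:ℝ)..q, ((W - f U) * (U - x) - (U - x1) * (y - f U)) * lwRoof g2 g1 x y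
      = (((W - f U) * U + (U - x1) * f U) - (W - f U) * x)
          * (∫ y in (0:ℝ)..q, lwRoof g2 g1 x y)
        - (U - x1) * ∫ y in (0:ℝ)..q, y * lwRoof g2 g1 x y := by
  have h0 : (0:ℝ) ∈ Icc 0 a' := ⟨le_rfl, hq.1.trans hq.2⟩
  rw [← lwa_lin_inner (lwa_roof_int h x h0 hq)]
  have e : (fun y : ℝ => ((W - f U) * (U - x) - (U - x1) * (y - f U)) * lwRoof g2 g1 x y)
      = fun y : ℝ => (((W - f U) * U + (U - x1) * f U) - (W - f U) * x - (U - x1) * y)
          * lwRoof g2 g1 x y := by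
    funext y; ring
  rw [e]

/-- Pointwise comparison to the left of `U`. -/
lemma lwa_pt_left (h : LWData a a' f g2 g1) {U W x1 x : ℝ} (hUa : U ≤ a) (hW0 : 0 ≤ W)
    (hWa' : W ≤ a') (hx1 : 0 ≤ x1) (hx1U : x1 < U) (hfx1 : f x1 = W) (hx : x ∈ Icc 0 U) :
    ∫ y in (0:ℝ)..W, ((W - f U) * (U - x) - (U - x1) * (y - f U)) * lwRoof g2 g1 x y
      ≤ ∫ y in (0:ℝ)..f x,
          ((W - f U) * (U - x) - (U - x1) * (y - f U)) * lwRoof g2 g1 x y := by
  have hxa : x ∈ Icc 0 a := ⟨hx.1, hx.2.trans hUa⟩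
  have hfx : f x ∈ Icc 0 a' := ⟨h.hf.nonneg x hxa, h.hfa x hxa⟩
  have h0 : (0:ℝ) ∈ Icc 0 a' := ⟨le_rfl, hW0.trans hWa'⟩
  have hW : W ∈ Icc 0 a' := ⟨hW0, hWa'⟩
  have hx1a : x1 ∈ Icc 0 a := ⟨hx1, hx1U.le.trans hUa⟩
  have hint : ∀ p ∈ Icc 0 a', ∀ q ∈ Icc 0 a', IntervalIntegrable
      (fun y => ((W - f U) * (U - x) - (U - x1) * (y - f U)) * lwRoof g2 g1 x y)
      volume p q := by
    intro p hp q hq
    apply ContinuousOn.intervalIntegrable
    have hc : ContinuousOn (fun y : ℝ => (W - f U) * (U - x) - (U - x1) * (y - f U))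
        (Icc 0 a') := by fun_prop
    exact (hc.mul (lwb_roof_cont h x)).mono (uIcc_subset_Icc hp hq)
  have hsub := intervalIntegral.integral_interval_sub_left (hint 0 h0 (f x) hfx)
    (hint 0 h0 W hW)
  have key : 0 ≤ ∫ y in W..f x,
      ((W - f U) * (U - x) - (U - x1) * (y - f U)) * lwRoof g2 g1 x y := by
    rcases lt_trichotomy (f x) W with hlt | heq | hgt
    · have hx1x : x1 ≤ x := by
        by_contra hcon
        push Not at hcon
        have h1 := h.hf.anti hxa hx1a hcon.le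
        rw [hfx1] at h1
        linarith
      have h1 : 0 ≤ ∫ y in f x..W,
          -(((W - f U) * (U - x) - (U - x1) * (y - f U)) * lwRoof g2 g1 x y) := by
        apply intervalIntegral.integral_nonneg hlt.le
        intro y hy
        have hs := lwa_sign_left_neg h.hf.conc hx1 hx1x hx.2 hx1U hUa hfx1 hy.1
        have hm := lwb_roof_nonneg h hxa (y := y) ⟨hfx.1.trans hy.1, hy.2.trans hWa'⟩
        have := mul_nonneg (neg_nonneg.mpr hs) hm
        linarith
      rw [intervalIntegral.integral_neg] at h1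
      rw [intervalIntegral.integral_symm]
      linarith
    · rw [heq]
      exact le_of_eq intervalIntegral.integral_same.symm
    · have hxx1 : x ≤ x1 := by
        by_contra hcon
        push Not at hcon
        have h1 := h.hf.anti hx1a hxa hcon.le
        rw [hfx1] at h1
        linarith
      apply intervalIntegral.integral_nonneg hgt.le
      intro y hy
      exact mul_nonneg (lwa_sign_left_pos h.hf.conc hx.1 hxx1 hx1U hUa hfx1 hy.2)
        (lwb_roof_nonneg h hxa ⟨hW0.trans hy.1, hy.2.trans hfx.2⟩)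
  linarith

/-- Pointwise sign to the right of `U`. -/
lemma lwa_pt_right (h : LWData a a' f g2 g1) {U W x1 x : ℝ} (hU0 : 0 ≤ U) (hx1 : 0 ≤ x1)
    (hx1U : x1 < U) (hfx1 : f x1 = W) (hx : x ∈ Icc U a) :
    0 ≤ ∫ y in (0:ℝ)..f x,
          ((W - f U) * (U - x) - (U - x1) * (y - f U)) * lwRoof g2 g1 x y := by
  have hxa : x ∈ Icc 0 a := ⟨hU0.trans hx.1, hx.2⟩
  apply intervalIntegral.integral_nonneg (h.hf.nonneg x hxa)
  intro y hy
  exact mul_nonneg (lwa_sign_right h.hf.conc hx1 hx1U hx.1 hx.2 hfx1 hy.2)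
    (lwb_roof_nonneg h hxa ⟨hy.1, hy.2.trans (h.hfa x hxa)⟩)

/-- The sign step: the separating affine function integrates to at least as much over the
body as over the box. -/
lemma lwa_sign_step (h : LWData a a' f g2 g1) {U W x1 : ℝ} (hU0 : 0 ≤ U) (hUa : U ≤ a)
    (hW0 : 0 ≤ W) (hWa' : W ≤ a') (hx1 : 0 ≤ x1) (hx1U : x1 < U) (hfx1 : f x1 = W) :
    (∫ x in (0:ℝ)..U, ((((W - f U) * U + (U - x1) * f U) - (W - f U) * x)
        * (∫ y in (0:ℝ)..W, lwRoof g2 g1 x y)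
        - (U - x1) * ∫ y in (0:ℝ)..W, y * lwRoof g2 g1 x y))
    ≤ ∫ x in (0:ℝ)..a, ((((W - f U) * U + (U - x1) * f U) - (W - f U) * x)
        * (∫ y in (0:ℝ)..f x, lwRoof g2 g1 x y)
        - (U - x1) * ∫ y in (0:ℝ)..f x, y * lwRoof g2 g1 x y) := by
  have hUI : U ∈ Icc 0 a := ⟨hU0, hUa⟩
  have h0I : (0:ℝ) ∈ Icc 0 a := ⟨le_rfl, h.hf.pos.le⟩
  have haI : a ∈ Icc 0 a := ⟨h.hf.pos.le, le_rfl⟩
  have hW : W ∈ Icc 0 a' := ⟨hW0, hWa'⟩
  have hD := lwb_sec_anti h
  have hDy : AntitoneOn (fun x => ∫ y in (0:ℝ)..f x, y * lwRoof g2 g1 x y) (Icc 0 a) :=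
    lwb_inner_anti h (ω := fun y => y) continuousOn_id (fun y hy => hy.1)
  have hE := lwa_box_anti h hW
  have hEy := lwa_boxy_anti h hW
  have hΨ : ∀ p ∈ Icc 0 a, ∀ q ∈ Icc 0 a, IntervalIntegrable
      (fun x => (((W - f U) * U + (U - x1) * f U) - (W - f U) * x)
        * (∫ y in (0:ℝ)..f x, lwRoof g2 g1 x y)
        - (U - x1) * ∫ y in (0:ℝ)..f x, y * lwRoof g2 g1 x y) volume p q := by
    intro p hp q hq
    have i1 := lwa_ii hD hp hq
    have i2 := lwa_ii hDy hp hq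
    exact (i1.continuousOn_mul
      (g := fun x : ℝ => ((W - f U) * U + (U - x1) * f U) - (W - f U) * x)
      (by fun_prop)).sub (i2.const_mul _)
  have hΦ : IntervalIntegrable
      (fun x => (((W - f U) * U + (U - x1) * f U) - (W - f U) * x)
        * (∫ y in (0:ℝ)..W, lwRoof g2 g1 x y)
        - (U - x1) * ∫ y in (0:ℝ)..W, y * lwRoof g2 g1 x y) volume 0 U := by
    have i1 := lwa_ii hE h0I hUI
    have i2 := lwa_ii hEy h0I hUI
    exact (i1.continuousOn_mul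
      (g := fun x : ℝ => ((W - f U) * U + (U - x1) * f U) - (W - f U) * x)
      (by fun_prop)).sub (i2.const_mul _)
  have hadd := intervalIntegral.integral_add_adjacent_intervals (hΨ 0 h0I U hUI)
    (hΨ U hUI a haI)
  have h1 : (∫ x in (0:ℝ)..U, ((((W - f U) * U + (U - x1) * f U) - (W - f U) * x)
        * (∫ y in (0:ℝ)..W, lwRoof g2 g1 x y)
        - (U - x1) * ∫ y in (0:ℝ)..W, y * lwRoof g2 g1 x y))
      ≤ ∫ x in (0:ℝ)..U, ((((W - f U) * U + (U - x1) * f U) - (W - f U) * x)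
        * (∫ y in (0:ℝ)..f x, lwRoof g2 g1 x y)
        - (U - x1) * ∫ y in (0:ℝ)..f x, y * lwRoof g2 g1 x y) := by
    apply intervalIntegral.integral_mono_on hU0 hΦ (hΨ 0 h0I U hUI)
    intro x hx
    have hxa : x ∈ Icc 0 a := ⟨hx.1, hx.2.trans hUa⟩
    have hfx : f x ∈ Icc 0 a' := ⟨h.hf.nonneg x hxa, h.hfa x hxa⟩
    have key := lwa_pt_left h hUa hW0 hWa' hx1 hx1U hfx1 hx
    rw [lwa_psi_eq h U W x1 x hW, lwa_psi_eq h U W x1 x hfx] at key
    exact key
  have h2 : 0 ≤ ∫ x in U..a, ((((W - f U) * U + (U - x1) * f U) - (W - f U) * x)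
        * (∫ y in (0:ℝ)..f x, lwRoof g2 g1 x y)
        - (U - x1) * ∫ y in (0:ℝ)..f x, y * lwRoof g2 g1 x y) := by
    apply intervalIntegral.integral_nonneg hUa
    intro x hx
    have hxa : x ∈ Icc 0 a := ⟨hU0.trans hx.1, hx.2⟩
    have hfx : f x ∈ Icc 0 a' := ⟨h.hf.nonneg x hxa, h.hfa x hxa⟩
    have key := lwa_pt_right h hU0 hx1 hx1U hfx1 hx
    rw [lwa_psi_eq h U W x1 x hfx] at key
    exact key
  linarith

/-- The degenerate configuration is impossible: if the base profile vanishes at `U`, the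
`x`-centroid is strictly less than `U / 2`. -/
lemma lwa_degenerate (h : LWData a a' f g2 g1) {U : ℝ} (hU0 : 0 < U) (hUa : U ≤ a)
    (hfU : f U = 0) (hMx : lwMomX a f g2 g1 = U * lwVol a f g2 g1 / 2) : False := by
  have ha := h.hf.pos
  have h0I : (0:ℝ) ∈ Icc 0 a := ⟨le_rfl, ha.le⟩
  have haI : a ∈ Icc 0 a := ⟨ha.le, le_rfl⟩
  have hUI : U ∈ Icc 0 a := ⟨hU0.le, hUa⟩
  have hD := lwb_sec_anti h
  have hDz : ∀ x ∈ Icc U a, ∫ y in (0:ℝ)..f x, lwRoof g2 g1 x y = 0 := by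
    intro x hx
    have hxa : x ∈ Icc 0 a := ⟨hU0.le.trans hx.1, hx.2⟩
    have h1 : f x ≤ f U := h.hf.anti hUI hxa hx.1
    have hfx : f x = 0 := le_antisymm (hfU ▸ h1) (h.hf.nonneg x hxa)
    rw [hfx]
    exact intervalIntegral.integral_same
  have hxD : ∀ p ∈ Icc 0 a, ∀ q ∈ Icc 0 a, IntervalIntegrable
      (fun x => x * ∫ y in (0:ℝ)..f x, lwRoof g2 g1 x y) volume p q :=
    fun p hp q hq => (lwa_ii hD hp hq).continuousOn_mul (g := fun x : ℝ => x)
      continuous_id.continuousOn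
  have e1 : ∫ x in U..a, ∫ y in (0:ℝ)..f x, lwRoof g2 g1 x y = 0 := by
    have hEq : EqOn (fun x => ∫ y in (0:ℝ)..f x, lwRoof g2 g1 x y) (fun _ => (0:ℝ))
        (uIcc U a) := by
      intro x hx
      rw [uIcc_of_le hUa] at hx
      exact hDz x hx
    rw [intervalIntegral.integral_congr hEq]
    simp
  have e2 : ∫ x in U..a, x * ∫ y in (0:ℝ)..f x, lwRoof g2 g1 x y = 0 := by
    have hEq : EqOn (fun x => x * ∫ y in (0:ℝ)..f x, lwRoof g2 g1 x y) (fun _ => (0:ℝ))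
        (uIcc U a) := by
      intro x hx
      rw [uIcc_of_le hUa] at hx
      show x * (∫ y in (0:ℝ)..f x, lwRoof g2 g1 x y) = 0
      rw [hDz x hx, mul_zero]
    rw [intervalIntegral.integral_congr hEq]
    simp
  have hV1 := intervalIntegral.integral_add_adjacent_intervals (lwa_ii hD h0I hUI)
    (lwa_ii hD hUI haI)
  have hM1 := intervalIntegral.integral_add_adjacent_intervals (hxD 0 h0I U hUI)
    (hxD U hUI a haI)
  have hVeq := lwb_vol_eq a f g2 g1
  have hMxeq := lwb_momX_eq a f g2 g1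
  -- strict decrease of the section function inside `(0, U)`
  have hsI : U / 2 ∈ Ioo 0 a := ⟨by linarith, by linarith⟩
  have hsIc : U / 2 ∈ Icc 0 a := ⟨hsI.1.le, hsI.2.le⟩
  have hDs : 0 < ∫ y in (0:ℝ)..f (U / 2), lwRoof g2 g1 (U / 2) y := lwb_sec_pos h hsI
  have hg20 : 0 < g2 0 := h.hg2.pos0
  have hfs : 0 < f (U / 2) := lwb_prof_pos h.hf ⟨hsI.1.le, hsI.2⟩
  obtain ⟨ε, hε0, hε1, hε2⟩ : ∃ ε : ℝ, 0 < ε ∧ ε < f (U / 2) ∧
      ε * g2 0 < ∫ y in (0:ℝ)..f (U / 2), lwRoof g2 g1 (U / 2) y := by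
    have hm0 : 0 < min (f (U / 2))
        ((∫ y in (0:ℝ)..f (U / 2), lwRoof g2 g1 (U / 2) y) / g2 0) :=
      lt_min hfs (div_pos hDs hg20)
    refine ⟨min (f (U / 2))
      ((∫ y in (0:ℝ)..f (U / 2), lwRoof g2 g1 (U / 2) y) / g2 0) / 2, ?_, ?_, ?_⟩
    · linarith
    · have h1 : min (f (U / 2))
          ((∫ y in (0:ℝ)..f (U / 2), lwRoof g2 g1 (U / 2) y) / g2 0) ≤ f (U / 2) :=
        min_le_left _ _
      linarith
    · have h1 : min (f (U / 2))
          ((∫ y in (0:ℝ)..f (U / 2), lwRoof g2 g1 (U / 2) y) / g2 0)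
          ≤ (∫ y in (0:ℝ)..f (U / 2), lwRoof g2 g1 (U / 2) y) / g2 0 := min_le_right _ _
      have h2 := (le_div_iff₀ hg20).mp h1
      linarith
  have hcont : ContinuousOn f (Icc (U / 2) U) :=
    h.hf.cont.mono (Icc_subset_Icc hsI.1.le hUa)
  have hmem : ε ∈ Icc (f U) (f (U / 2)) := ⟨by rw [hfU]; exact hε0.le, hε1.le⟩
  obtain ⟨t, htI, hft⟩ := intermediate_value_Icc' (by linarith : U / 2 ≤ U) hcont hmem
  have ht1 : U / 2 < t := by
    rcases eq_or_lt_of_le htI.1 with heq | hlt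
    · rw [← heq] at hft
      linarith
    · exact hlt
  have ht2 : t < U := by
    rcases eq_or_lt_of_le htI.2 with heq | hlt
    · rw [heq, hfU] at hft
      linarith
    · exact hlt
  have hta : t ∈ Icc 0 a := ⟨by linarith, by linarith⟩
  have hfta : f t ∈ Icc 0 a' := ⟨h.hf.nonneg t hta, h.hfa t hta⟩
  have h0I' : (0:ℝ) ∈ Icc 0 a' := ⟨le_rfl, hfta.1.trans hfta.2⟩
  have hDt : ∫ y in (0:ℝ)..f t, lwRoof g2 g1 t y ≤ f t * g2 0 := by
    have h1 : ∫ y in (0:ℝ)..f t, lwRoof g2 g1 t y ≤ ∫ _y in (0:ℝ)..f t, g2 0 := by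
      apply intervalIntegral.integral_mono_on hfta.1 (lwa_roof_int h t h0I' hfta)
        intervalIntegrable_const
      intro y _
      exact (min_le_left _ _).trans (h.hg2.anti h0I hta hta.1)
    rw [intervalIntegral.integral_const, smul_eq_mul, sub_zero] at h1
    exact h1
  have hst : ∃ s ∈ Ioo 0 U, ∃ t ∈ Ioo 0 U, s < t ∧
      (fun x => ∫ y in (0:ℝ)..f x, lwRoof g2 g1 x y) t
        < (fun x => ∫ y in (0:ℝ)..f x, lwRoof g2 g1 x y) s := by
    refine ⟨U / 2, ⟨by linarith, by linarith⟩, t, ⟨by linarith, ht2⟩, ht1, ?_⟩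
    show ∫ y in (0:ℝ)..f t, lwRoof g2 g1 t y
      < ∫ y in (0:ℝ)..f (U / 2), lwRoof g2 g1 (U / 2) y
    have h5 : f t * g2 0 = ε * g2 0 := by rw [hft]
    linarith
  have hnn : ∀ x ∈ Icc 0 U, 0 ≤ (fun x => ∫ y in (0:ℝ)..f x, lwRoof g2 g1 x y) x := by
    intro x hx
    have hxa : x ∈ Icc 0 a := ⟨hx.1, hx.2.trans hUa⟩
    exact intervalIntegral.integral_nonneg (h.hf.nonneg x hxa)
      (fun y hy => lwb_roof_nonneg h hxa ⟨hy.1, hy.2.trans (h.hfa x hxa)⟩)
  have hlt : ∫ x in (0:ℝ)..U, x * ∫ y in (0:ℝ)..f x, lwRoof g2 g1 x y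
      < U / 2 * ∫ x in (0:ℝ)..U, ∫ y in (0:ℝ)..f x, lwRoof g2 g1 x y :=
    LW.antitone_centroid_lt hU0 (hD.mono (Icc_subset_Icc le_rfl hUa)) hnn hst
  rw [hMxeq, hVeq] at hMx
  have hCA : ∫ x in (0:ℝ)..a, ∫ y in (0:ℝ)..f x, lwRoof g2 g1 x y
      = ∫ x in (0:ℝ)..U, ∫ y in (0:ℝ)..f x, lwRoof g2 g1 x y := by linarith
  rw [hCA] at hMx
  linarith

/-- Step (A) with the centroid data abstracted. -/
lemma lwa_main (h : LWData a a' f g2 g1) {U W : ℝ} (hU0 : 0 < U) (hUa : U ≤ a)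
    (hW0 : 0 < W) (hWf : W ≤ f 0) (hMx : lwMomX a f g2 g1 = U * lwVol a f g2 g1 / 2)
    (hMy : lwMomY a f g2 g1 = W * lwVol a f g2 g1 / 2) :
    lwBoxInt U W (lwRoof g2 g1) ≤ lwVol a f g2 g1 := by
  have ha := h.hf.pos
  have h0I : (0:ℝ) ∈ Icc 0 a := ⟨le_rfl, ha.le⟩
  have haI : a ∈ Icc 0 a := ⟨ha.le, le_rfl⟩
  have hUI : U ∈ Icc 0 a := ⟨hU0.le, hUa⟩
  have hWa' : W ≤ a' := hWf.trans (h.hfa 0 h0I)
  have hWI : W ∈ Icc 0 a' := ⟨hW0.le, hWa'⟩
  have h0I' : (0:ℝ) ∈ Icc 0 a' := ⟨le_rfl, hW0.le.trans hWa'⟩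
  have hD := lwb_sec_anti h
  have hDy : AntitoneOn (fun x => ∫ y in (0:ℝ)..f x, y * lwRoof g2 g1 x y) (Icc 0 a) :=
    lwb_inner_anti h (ω := fun y => y) continuousOn_id (fun y hy => hy.1)
  have hE := lwa_box_anti h hWI
  have hEy := lwa_boxy_anti h hWI
  have hVeq := lwb_vol_eq a f g2 g1
  have hMxeq := lwb_momX_eq a f g2 g1
  have hMyeq := lwb_momY_eq a f g2 g1
  have hIB : lwBoxInt U W (lwRoof g2 g1)
      = ∫ x in (0:ℝ)..U, ∫ y in (0:ℝ)..W, lwRoof g2 g1 x y := rfl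
  rw [hIB]
  rcases le_or_gt W (f U) with hcase | hcase
  · have s1 : ∫ x in (0:ℝ)..U, ∫ y in (0:ℝ)..W, lwRoof g2 g1 x y
        ≤ ∫ x in (0:ℝ)..U, ∫ y in (0:ℝ)..f x, lwRoof g2 g1 x y := by
      apply intervalIntegral.integral_mono_on hU0.le (lwa_ii hE h0I hUI) (lwa_ii hD h0I hUI)
      intro x hx
      have hxa : x ∈ Icc 0 a := ⟨hx.1, hx.2.trans hUa⟩
      have hfx : f x ∈ Icc 0 a' := ⟨h.hf.nonneg x hxa, h.hfa x hxa⟩
      have hWfx : W ≤ f x := hcase.trans (h.hf.anti hxa hUI hx.2)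
      have hadd := intervalIntegral.integral_add_adjacent_intervals
        (lwa_roof_int h x h0I' hWI) (lwa_roof_int h x hWI hfx)
      have hnn : 0 ≤ ∫ y in W..f x, lwRoof g2 g1 x y :=
        intervalIntegral.integral_nonneg hWfx
          (fun y hy => lwb_roof_nonneg h hxa ⟨hW0.le.trans hy.1, hy.2.trans hfx.2⟩)
      linarith
    have s2 : ∫ x in (0:ℝ)..U, ∫ y in (0:ℝ)..f x, lwRoof g2 g1 x y
        ≤ ∫ x in (0:ℝ)..a, ∫ y in (0:ℝ)..f x, lwRoof g2 g1 x y := by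
      have hadd := intervalIntegral.integral_add_adjacent_intervals (lwa_ii hD h0I hUI)
        (lwa_ii hD hUI haI)
      have hnn : 0 ≤ ∫ x in U..a, ∫ y in (0:ℝ)..f x, lwRoof g2 g1 x y := by
        apply intervalIntegral.integral_nonneg hUa
        intro x hx
        have hxa : x ∈ Icc 0 a := ⟨hU0.le.trans hx.1, hx.2⟩
        exact intervalIntegral.integral_nonneg (h.hf.nonneg x hxa)
          (fun y hy => lwb_roof_nonneg h hxa ⟨hy.1, hy.2.trans (h.hfa x hxa)⟩)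
      linarith
    rw [hVeq]
    exact s1.trans s2
  · have hcont : ContinuousOn f (Icc 0 U) := h.hf.cont.mono (Icc_subset_Icc le_rfl hUa)
    have hmem : W ∈ Icc (f U) (f 0) := ⟨hcase.le, hWf⟩
    obtain ⟨x1, hx1I, hfx1⟩ := intermediate_value_Icc' hU0.le hcont hmem
    have hx1U : x1 < U := by
      rcases eq_or_lt_of_le hx1I.2 with heq | hlt
      · rw [heq] at hfx1
        linarith
      · exact hlt
    have hS := lwa_sign_step h hU0.le hUa hW0.le hWa' hx1I.1 hx1U hfx1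
    rw [lwa_lin_outer (lwa_ii hE h0I hUI) (lwa_ii hEy h0I hUI),
      lwa_lin_outer (lwa_ii hD h0I haI) (lwa_ii hDy h0I haI)] at hS
    rw [← hVeq, ← hMxeq, ← hMyeq, hMx, hMy] at hS
    have hc1 : ∫ x in (0:ℝ)..U, x * ∫ y in (0:ℝ)..W, lwRoof g2 g1 x y
        ≤ U / 2 * ∫ x in (0:ℝ)..U, ∫ y in (0:ℝ)..W, lwRoof g2 g1 x y :=
      LW.antitone_centroid_le hU0.le (hE.mono (Icc_subset_Icc le_rfl hUa))
    have hc2 : ∫ x in (0:ℝ)..U, ∫ y in (0:ℝ)..W, y * lwRoof g2 g1 x y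
        ≤ W / 2 * ∫ x in (0:ℝ)..U, ∫ y in (0:ℝ)..W, lwRoof g2 g1 x y := by
      rw [← intervalIntegral.integral_const_mul]
      apply intervalIntegral.integral_mono_on hU0.le (lwa_ii hEy h0I hUI)
        ((lwa_ii hE h0I hUI).const_mul _)
      intro x _
      have hanti : AntitoneOn (fun y => lwRoof g2 g1 x y) (Icc 0 W) := by
        intro y hy y' hy' hyy'
        exact min_le_min le_rfl
          (h.hg1.anti ⟨hy.1, hy.2.trans hWa'⟩ ⟨hy'.1, hy'.2.trans hWa'⟩ hyy')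
      exact LW.antitone_centroid_le hW0.le hanti
    have hcx : 0 ≤ W - f U := by linarith
    have hcy : 0 < U - x1 := by linarith
    have hfU0 : 0 ≤ f U := h.hf.nonneg U hUI
    have t1 := mul_le_mul_of_nonneg_left hc1 hcx
    have t2 := mul_le_mul_of_nonneg_left hc2 hcy.le
    have key : (∫ x in (0:ℝ)..U, ∫ y in (0:ℝ)..W, lwRoof g2 g1 x y)
          * ((f U * (U - x1) + x1 * (W - f U)) / 2)
        ≤ lwVol a f g2 g1 * ((f U * (U - x1) + x1 * (W - f U)) / 2) := by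
      linarith
    have p1 : 0 ≤ f U * (U - x1) := mul_nonneg hfU0 hcy.le
    have p2 : 0 ≤ x1 * (W - f U) := mul_nonneg hx1I.1 hcx
    have hψ0 : 0 ≤ (f U * (U - x1) + x1 * (W - f U)) / 2 := by linarith
    rcases eq_or_lt_of_le hψ0 with hz | hpos
    · exfalso
      have hfU : f U = 0 := by
        have h3 : f U * (U - x1) = 0 := by linarith
        rcases mul_eq_zero.mp h3 with h4 | h4
        · exact h4
        · linarith
      exact lwa_degenerate h hU0 hUa hfU hMx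
    · exact le_of_mul_le_mul_right key hpos

/-- Step (A): the extended roof over the centroid box has volume at most the volume. -/
theorem lw_A (h : LWData a a' f g2 g1) :
    lwBoxInt (lwU a f g2 g1) (lwW a f g2 g1) (lwRoof g2 g1) ≤ lwVol a f g2 g1 := by
  have hV := lw_vol_pos h
  have hMx := lw_momX_pos h
  have hMy := lw_momY_pos h
  have hU0 : 0 < lwU a f g2 g1 := div_pos (mul_pos two_pos hMx) hV
  have hW0 : 0 < lwW a f g2 g1 := div_pos (mul_pos two_pos hMy) hV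
  have hMxU : lwMomX a f g2 g1 = lwU a f g2 g1 * lwVol a f g2 g1 / 2 := by
    unfold lwU
    field_simp
  have hMyW : lwMomY a f g2 g1 = lwW a f g2 g1 * lwVol a f g2 g1 / 2 := by
    unfold lwW
    field_simp
  exact lwa_main h hU0 (lw_U_le h) hW0 (lw_W_le h) hMxU hMyW

end Vale.Agent.Lib.P254
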